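import Vale.Agent.P088.R2.H644.W.Chain

/-!
# P088, stage 3: the Hessian form of `Ψ(f, r)` in slots

`TH Ψ(f, r) = D₁₀ TH f + D₀₁ TH r + D₂₀ GA(f)² + 2 D₁₁ GA(f) GA(r) + D₀₂ GA(r)²`.
-/

open Set Filter
open scoped ContDiff Topology

noncomputable section

namespace Vale.Agent.P088.R2.H230.W

open Vale.Agent.P088.R2.H961.GW Vale.Agent.P088.R2.H644.Ch

variable {E ι κ : Type*} [NormedAddCommGroup E] [NormedSpace ℝ E] [Fintype ι] [Fintype κ]

/-- The composition `D₀₀(f, r)`. -/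
structure Cp2 (U : Set E) (f r : E → ℝ) (D : ℕ → ℕ → ℝ → ℝ → ℝ) : Prop where
  sf : Sm U f
  sr : Sm U r
  s00 : Sm U fun z => D 0 0 (f z) (r z)
  s10 : Sm U fun z => D 1 0 (f z) (r z)
  s01 : Sm U fun z => D 0 1 (f z) (r z)
  d : ∀ i j, i + j ≤ 1 → ∀ z ∈ U, HasFDerivAt (fun p : ℝ × ℝ => D i j p.1 p.2)
    (D (i + 1) j (f z) (r z) • ContinuousLinearMap.fst ℝ ℝ ℝ +
      D i (j + 1) (f z) (r z) • ContinuousLinearMap.snd ℝ ℝ ℝ) (f z, r z)

section pw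

variable {σ : Sl E ι} {τ : Sl E κ} {U : Set E} {θ θ' : E → ℝ} {f r : E → ℝ}
  {D : ℕ → ℕ → ℝ → ℝ → ℝ} {z : E}

omit [Fintype ι] in
theorem D_comp2 (hU : IsOpen U) (c : Cp2 U f r D) {p q : ℕ} (hpq : p + q ≤ 1) (i : ι)
    (hz : z ∈ U) : σ.D i (fun z => D p q (f z) (r z)) z =
      D (p + 1) q (f z) (r z) * σ.D i f z + D p (q + 1) (f z) (r z) * σ.D i r z := by
  have h1 : HasFDerivAt (fun z => (f z, r z)) ((fderiv ℝ f z).prod (fderiv ℝ r z)) z :=
    (c.sf.diff hU hz).hasFDerivAt.prodMk (c.sr.diff hU hz).hasFDerivAt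
  have h2 := (c.d p q hpq z hz).comp z h1
  have h3 : fderiv ℝ (fun z => D p q (f z) (r z)) z = _ := h2.fderiv
  simp only [Sl.D]
  rw [h3]
  simp only [ContinuousLinearMap.comp_apply, _root_.add_apply, _root_.smul_apply, smul_eq_mul,
    ContinuousLinearMap.prod_apply, ContinuousLinearMap.coe_fst', ContinuousLinearMap.coe_snd']
  ring

theorem DD_comp2 (ok : σ.Ok U θ) (ot : τ.Ok U θ') (c : Cp2 U f r D) (i : ι) (k : κ)
    (hz : z ∈ U) : σ.D i (τ.D k (fun z => D 0 0 (f z) (r z))) z =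
      D 1 0 (f z) (r z) * σ.D i (τ.D k f) z + D 0 1 (f z) (r z) * σ.D i (τ.D k r) z +
        (D 2 0 (f z) (r z) * (σ.D i f z * τ.D k f z) +
          D 1 1 (f z) (r z) * (σ.D i f z * τ.D k r z + σ.D i r z * τ.D k f z) +
          D 0 2 (f z) (r z) * (σ.D i r z * τ.D k r z)) := by
  have hU := ok.op
  have e : ∀ z ∈ U, τ.D k (fun z => D 0 0 (f z) (r z)) z =
      D 1 0 (f z) (r z) * τ.D k f z + D 0 1 (f z) (r z) * τ.D k r z := fun z hz =>
    D_comp2 ot.op c (by norm_num) k hz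
  rw [D_congr σ hU e i hz, D_add σ hU (c.s10.mul (ot.sD c.sf k)) (c.s01.mul (ot.sD c.sr k)) i hz,
    D_mul σ hU c.s10 (ot.sD c.sf k) i hz, D_mul σ hU c.s01 (ot.sD c.sr k) i hz,
    D_comp2 hU c (p := 1) (q := 0) (by norm_num) i hz,
    D_comp2 hU c (p := 0) (q := 1) (by norm_num) i hz]
  ring

theorem Gr_comp2 (ok : σ.Ok U θ) (c : Cp2 U f r D) (i : ι) (hz : z ∈ U) :
    Gr σ (fun z => D 0 0 (f z) (r z)) i z =
      D 1 0 (f z) (r z) * Gr σ f i z + D 0 1 (f z) (r z) * Gr σ r i z := by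
  unfold Gr
  simp only [Finset.mul_sum, ← Finset.sum_add_distrib]
  refine Finset.sum_congr rfl fun j _ => ?_
  rw [D_comp2 ok.op c (by norm_num) j hz]; ring

theorem Hc_comp2 (ok : σ.Ok U θ) (c : Cp2 U f r D) (i l : ι) (hz : z ∈ U) :
    σ.Hc (fun z => D 0 0 (f z) (r z)) i l z =
      D 1 0 (f z) (r z) * σ.Hc f i l z + D 0 1 (f z) (r z) * σ.Hc r i l z +
        (D 2 0 (f z) (r z) * (Gr σ f i z * Gr σ f l z) +
          D 1 1 (f z) (r z) * (Gr σ f i z * Gr σ r l z + Gr σ r i z * Gr σ f l z) +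
          D 0 2 (f z) (r z) * (Gr σ r i z * Gr σ r l z)) := by
  have e1 : ∀ k, σ.D k (fun z => D 0 0 (f z) (r z)) z =
      D 1 0 (f z) (r z) * σ.D k f z + D 0 1 (f z) (r z) * σ.D k r z := fun k =>
    D_comp2 ok.op c (by norm_num) k hz
  have e2 : ∀ j k, σ.D j (σ.D k (fun z => D 0 0 (f z) (r z))) z =
      D 1 0 (f z) (r z) * σ.D j (σ.D k f) z + D 0 1 (f z) (r z) * σ.D j (σ.D k r) z +
        (D 2 0 (f z) (r z) * (σ.D j f z * σ.D k f z) +
          D 1 1 (f z) (r z) * (σ.D j f z * σ.D k r z + σ.D j r z * σ.D k f z) +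
          D 0 2 (f z) (r z) * (σ.D j r z * σ.D k r z)) := fun j k => DD_comp2 ok ok c j k hz
  rw [Gr_mul_Gr ok, Gr_mul_Gr ok, Gr_mul_Gr ok, Gr_mul_Gr ok]
  unfold Sl.Hc
  simp only [e1, e2, Finset.mul_sum, ← Finset.sum_add_distrib]
  refine Finset.sum_congr rfl fun j _ => Finset.sum_congr rfl fun k _ => ?_
  ring

theorem Mc_comp2 (ok : σ.Ok U θ) (ot : τ.Ok U θ') (c : Cp2 U f r D) (i : ι) (k : κ)
    (hz : z ∈ U) : Mc σ τ (fun z => D 0 0 (f z) (r z)) i k z =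
      D 1 0 (f z) (r z) * Mc σ τ f i k z + D 0 1 (f z) (r z) * Mc σ τ r i k z +
        (D 2 0 (f z) (r z) * (Gr σ f i z * Gr τ f k z) +
          D 1 1 (f z) (r z) * (Gr σ f i z * Gr τ r k z + Gr σ r i z * Gr τ f k z) +
          D 0 2 (f z) (r z) * (Gr σ r i z * Gr τ r k z)) := by
  have e2 : ∀ j k, σ.D j (τ.D k (fun z => D 0 0 (f z) (r z))) z =
      D 1 0 (f z) (r z) * σ.D j (τ.D k f) z + D 0 1 (f z) (r z) * σ.D j (τ.D k r) z +
        (D 2 0 (f z) (r z) * (σ.D j f z * τ.D k f z) +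
          D 1 1 (f z) (r z) * (σ.D j f z * τ.D k r z + σ.D j r z * τ.D k f z) +
          D 0 2 (f z) (r z) * (σ.D j r z * τ.D k r z)) := fun j k => DD_comp2 ok ot c j k hz
  rw [Gr_mul_Gr', Gr_mul_Gr', Gr_mul_Gr', Gr_mul_Gr']
  unfold Mc
  simp only [e2, Finset.mul_sum, ← Finset.sum_add_distrib]
  refine Finset.sum_congr rfl fun j _ => Finset.sum_congr rfl fun k _ => ?_
  ring

/-- **The Hessian form of `Ψ(f, r)`.** -/
theorem TH_comp2 (ok : σ.Ok U θ) (ot : τ.Ok U θ') (c : Cp2 U f r D) (hz : z ∈ U)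
    (A : ι → ℝ) (B : κ → ℝ) : TH σ τ (fun z => D 0 0 (f z) (r z)) z A B =
      D 1 0 (f z) (r z) * TH σ τ f z A B + D 0 1 (f z) (r z) * TH σ τ r z A B +
        (D 2 0 (f z) (r z) * GA σ τ f z A B ^ 2 +
          2 * D 1 1 (f z) (r z) * (GA σ τ f z A B * GA σ τ r z A B) +
          D 0 2 (f z) (r z) * GA σ τ r z A B ^ 2) := by
  have e1 : ∀ i l, σ.Hc (fun z => D 0 0 (f z) (r z)) i l z = _ := fun i l =>
    Hc_comp2 ok c i l hz
  have e2 : ∀ i l, τ.Hc (fun z => D 0 0 (f z) (r z)) i l z = _ := fun i l =>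
    Hc_comp2 ot c i l hz
  have e3 : ∀ i k, Mc σ τ (fun z => D 0 0 (f z) (r z)) i k z = _ := fun i k =>
    Mc_comp2 ok ot c i k hz
  rw [sq, sq, GA_mul_GA, GA_mul_GA, GA_mul_GA]
  unfold TH
  simp only [e1, e2, e3]
  generalize D 1 0 (f z) (r z) = a
  generalize D 0 1 (f z) (r z) = b
  generalize D 2 0 (f z) (r z) = p
  generalize D 1 1 (f z) (r z) = q
  generalize D 0 2 (f z) (r z) = t
  have s1 : ∑ i, ∑ l, (a * σ.Hc f i l z + b * σ.Hc r i l z +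
        (p * (Gr σ f i z * Gr σ f l z) + q * (Gr σ f i z * Gr σ r l z + Gr σ r i z * Gr σ f l z) +
          t * (Gr σ r i z * Gr σ r l z))) * A i * A l =
      a * (∑ i, ∑ l, σ.Hc f i l z * A i * A l) + b * (∑ i, ∑ l, σ.Hc r i l z * A i * A l) +
      (p * (∑ i, ∑ l, (Gr σ f i z * Gr σ f l z) * A i * A l) +
        2 * q * (∑ i, ∑ l, (Gr σ f i z * Gr σ r l z) * A i * A l) +
        t * ∑ i, ∑ l, (Gr σ r i z * Gr σ r l z) * A i * A l) := by
    have sw : ∑ i, ∑ l, (Gr σ r i z * Gr σ f l z) * A i * A l =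
        ∑ i, ∑ l, (Gr σ f i z * Gr σ r l z) * A i * A l := by
      rw [Finset.sum_comm]
      exact Finset.sum_congr rfl fun i _ => Finset.sum_congr rfl fun j _ => by ring
    have ex : ∑ i, ∑ l, (a * σ.Hc f i l z + b * σ.Hc r i l z +
        (p * (Gr σ f i z * Gr σ f l z) + q * (Gr σ f i z * Gr σ r l z + Gr σ r i z * Gr σ f l z) +
          t * (Gr σ r i z * Gr σ r l z))) * A i * A l =
      a * (∑ i, ∑ l, σ.Hc f i l z * A i * A l) + b * (∑ i, ∑ l, σ.Hc r i l z * A i * A l) +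
      (p * (∑ i, ∑ l, (Gr σ f i z * Gr σ f l z) * A i * A l) +
        (q * (∑ i, ∑ l, (Gr σ f i z * Gr σ r l z) * A i * A l) +
          q * ∑ i, ∑ l, (Gr σ r i z * Gr σ f l z) * A i * A l) +
        t * ∑ i, ∑ l, (Gr σ r i z * Gr σ r l z) * A i * A l) := by
      simp only [Finset.mul_sum, ← Finset.sum_add_distrib]
      exact Finset.sum_congr rfl fun i _ => Finset.sum_congr rfl fun j _ => by ring
    rw [ex, sw]; ring
  have s2 : ∑ i, ∑ l, (a * τ.Hc f i l z + b * τ.Hc r i l z +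
        (p * (Gr τ f i z * Gr τ f l z) + q * (Gr τ f i z * Gr τ r l z + Gr τ r i z * Gr τ f l z) +
          t * (Gr τ r i z * Gr τ r l z))) * B i * B l =
      a * (∑ i, ∑ l, τ.Hc f i l z * B i * B l) + b * (∑ i, ∑ l, τ.Hc r i l z * B i * B l) +
      (p * (∑ i, ∑ l, (Gr τ f i z * Gr τ f l z) * B i * B l) +
        2 * q * (∑ i, ∑ l, (Gr τ f i z * Gr τ r l z) * B i * B l) +
        t * ∑ i, ∑ l, (Gr τ r i z * Gr τ r l z) * B i * B l) := by
    have sw : ∑ i, ∑ l, (Gr τ r i z * Gr τ f l z) * B i * B l =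
        ∑ i, ∑ l, (Gr τ f i z * Gr τ r l z) * B i * B l := by
      rw [Finset.sum_comm]
      exact Finset.sum_congr rfl fun i _ => Finset.sum_congr rfl fun j _ => by ring
    have ex : ∑ i, ∑ l, (a * τ.Hc f i l z + b * τ.Hc r i l z +
        (p * (Gr τ f i z * Gr τ f l z) + q * (Gr τ f i z * Gr τ r l z + Gr τ r i z * Gr τ f l z) +
          t * (Gr τ r i z * Gr τ r l z))) * B i * B l =
      a * (∑ i, ∑ l, τ.Hc f i l z * B i * B l) + b * (∑ i, ∑ l, τ.Hc r i l z * B i * B l) +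
      (p * (∑ i, ∑ l, (Gr τ f i z * Gr τ f l z) * B i * B l) +
        (q * (∑ i, ∑ l, (Gr τ f i z * Gr τ r l z) * B i * B l) +
          q * ∑ i, ∑ l, (Gr τ r i z * Gr τ f l z) * B i * B l) +
        t * ∑ i, ∑ l, (Gr τ r i z * Gr τ r l z) * B i * B l) := by
      simp only [Finset.mul_sum, ← Finset.sum_add_distrib]
      exact Finset.sum_congr rfl fun i _ => Finset.sum_congr rfl fun j _ => by ring
    rw [ex, sw]; ring
  have s3 : 2 * (∑ i, ∑ k, (a * Mc σ τ f i k z + b * Mc σ τ r i k z +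
        (p * (Gr σ f i z * Gr τ f k z) + q * (Gr σ f i z * Gr τ r k z + Gr σ r i z * Gr τ f k z) +
          t * (Gr σ r i z * Gr τ r k z))) * A i * B k) =
      a * (2 * ∑ i, ∑ k, Mc σ τ f i k z * A i * B k) +
      b * (2 * ∑ i, ∑ k, Mc σ τ r i k z * A i * B k) +
      (p * (∑ i, ∑ k, (Gr σ f i z * Gr τ f k z + Gr σ f i z * Gr τ f k z) * A i * B k) +
        2 * q * (∑ i, ∑ k, (Gr σ f i z * Gr τ r k z + Gr σ r i z * Gr τ f k z) * A i * B k) +
        t * ∑ i, ∑ k, (Gr σ r i z * Gr τ r k z + Gr σ r i z * Gr τ r k z) * A i * B k) := by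
    simp only [Finset.mul_sum, ← Finset.sum_add_distrib]
    exact Finset.sum_congr rfl fun i _ => Finset.sum_congr rfl fun j _ => by ring
  rw [s1, s2, s3]
  ring

end pw

end Vale.Agent.P088.R2.H230.W
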