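import Vale.Agent.P088.R2.H230.W.FlD
import Vale.Agent.P088.R2.H747.S.Sem

/-!
# P088, stage 3: the fields `fl e (D W) γ` satisfy the smallness conditions `Sm1` of zone A

`g₀`, `g₁` bound `γ` and its derivatives, `H` the second derivatives of the weight, `B` the first
derivatives of the coefficients.  The conditions are `H g₀ + g₁ |DW| ≤ η' m |DW|²`,
`g₀² ≤ η'² m |DW|²` and `m H + M₁ |DW| ≤ η' m |DW|²`.
-/

open Set
open scoped ContDiff

noncomputable section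

namespace Vale.Agent.P088.R2.H230.W

open Vale.Agent.P088.R2.H961.GW Vale.Agent.P088.R2.H960.W Vale.Agent.P088.R2.H747.S

variable {ι : Type*} [Fintype ι]

lemma l1_le (u : ι → ℝ) : (∑ i, |u i|) ≤ Real.sqrt (Fintype.card ι) * nn u := by
  rw [← Real.sqrt_sq (Finset.sum_nonneg fun i _ => abs_nonneg (u i)), nn,
    ← Real.sqrt_mul (Nat.cast_nonneg _)]
  refine Real.sqrt_le_sqrt ?_
  have h := L1_sq u
  have e : dd u u = ∑ i, u i ^ 2 := by
    unfold dd; exact Finset.sum_congr rfl fun i _ => by ring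
  rw [e]; exact h

lemma l1l1_le (u v : ι → ℝ) :
    (∑ i, |u i|) * (∑ i, |v i|) ≤ Fintype.card ι * (nn u * nn v) := by
  have h := mul_le_mul (l1_le u) (l1_le v) (Finset.sum_nonneg fun i _ => abs_nonneg (v i))
    (mul_nonneg (Real.sqrt_nonneg _) (nn_nonneg u))
  have e : Real.sqrt (Fintype.card ι) * Real.sqrt (Fintype.card ι) = Fintype.card ι :=
    Real.mul_self_sqrt (Nat.cast_nonneg _)
  calc _ ≤ _ := h
    _ = Real.sqrt (Fintype.card ι) * Real.sqrt (Fintype.card ι) * (nn u * nn v) := by ring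
    _ = _ := by rw [e]

lemma form_le {M : ℝ} (m : ι → ι → ℝ) (hm : ∀ i j, |m i j| ≤ M) (x y : ι → ℝ) :
    |∑ i, ∑ j, m i j * x i * y j| ≤ M * (Fintype.card ι * (nn x * nn y)) := by
  rcases isEmpty_or_nonempty ι with h | h
  · simp
  · have M0 : 0 ≤ M := (abs_nonneg _).trans (hm (Classical.arbitrary ι) (Classical.arbitrary ι))
    exact (abs_sum2_le m hm x y).trans (mul_le_mul_of_nonneg_left (l1l1_le x y) M0)

section slot

variable {E : Type*} [NormedAddCommGroup E] [NormedSpace ℝ E]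
variable {σ : Sl E ι} {U : Set E} {θ : E → ℝ} {W m v : E → ℝ} {γ : ι → E → ℝ} {e : ι → ℝ} {z : E}

/-- The derivatives of `F`. -/
theorem D_F (ok : σ.Ok U θ) (hW : Sm U W) (hz : z ∈ U) (j : ι) :
    σ.D j (σ.F W) z = (∑ k, ∑ l, σ.D j (σ.s k l) z * σ.D k W z * σ.D l W z) +
      2 * ∑ k, ∑ l, σ.s k l z * σ.D j (σ.D k W) z * σ.D l W z := by
  have hU := ok.op
  have e0 : σ.F W = fun z => ∑ k, ∑ l, σ.s k l z * σ.D k W z * σ.D l W z := rfl
  rw [e0, D_sum σ hU _ (fun k _ => Sm.sum _ fun l _ =>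
    ((ok.ss k l).mul (ok.sD hW k)).mul (ok.sD hW l)) j hz]
  have e1 : ∀ k, σ.D j (fun z => ∑ l, σ.s k l z * σ.D k W z * σ.D l W z) z =
      ∑ l, (σ.D j (σ.s k l) z * σ.D k W z * σ.D l W z +
        σ.s k l z * σ.D j (σ.D k W) z * σ.D l W z +
        σ.s k l z * σ.D k W z * σ.D j (σ.D l W) z) := by
    intro k
    rw [D_sum σ hU _ (fun l _ => ((ok.ss k l).mul (ok.sD hW k)).mul (ok.sD hW l)) j hz]
    refine Finset.sum_congr rfl fun l _ => ?_
    rw [D_mul σ hU ((ok.ss k l).mul (ok.sD hW k)) (ok.sD hW l) j hz,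
      D_mul σ hU (ok.ss k l) (ok.sD hW k) j hz]
    ring
  simp only [e1, Finset.sum_add_distrib]
  have e2 : ∑ k, ∑ l, σ.s k l z * σ.D k W z * σ.D j (σ.D l W) z =
      ∑ k, ∑ l, σ.s k l z * σ.D j (σ.D k W) z * σ.D l W z := by
    rw [Finset.sum_comm]
    exact Finset.sum_congr rfl fun l _ => Finset.sum_congr rfl fun k _ => by
      rw [ok.sy k l]; ring
  rw [e2]; ring

/-- The gradient of the weight in a slot. -/
def gr (σ : Sl E ι) (W : E → ℝ) (z : E) : ι → ℝ := fun j => σ.D j W z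

/-- The field of a slot. -/
def cf (σ : Sl E ι) (e : ι → ℝ) (W : E → ℝ) (γ : ι → E → ℝ) (l : ι) (z : E) : ℝ :=
  fl e (gr σ W z) (fun j => γ j z) l

theorem sm_cf (ok : σ.Ok U θ) (hW : Sm U W) (hγ : ∀ i, Sm U (γ i))
    (h0 : ∀ z ∈ U, 0 < dd (gr σ W z) (gr σ W z)) (l : ι) : Sm U (cf σ e W γ l) :=
  sm_fl (fun i => ok.sD hW i) hγ h0 l

/-- The bounds at a point. -/
structure Bp (σ : Sl E ι) (e : ι → ℝ) (W : E → ℝ) (γ : ι → E → ℝ) (B g₀ g₁ H : ℝ) (z : E) :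
    Prop where
  w0 : 0 < dd (gr σ W z) (gr σ W z)
  e1 : nn e ≤ 1
  s : ∀ i j, |σ.s i j z| ≤ 2
  ds : ∀ l i j, |σ.D l (σ.s i j) z| ≤ B
  k : ∀ l, |σ.k l z| ≤ B
  et : ∀ l, |eta σ l z| ≤ B
  B0 : 0 ≤ B
  g0 : nn (fun j => γ j z) ≤ g₀
  gg : (1 + B) * g₀ ≤ g₁
  g1 : ∀ i, nn (fun j => σ.D i (γ j) z) ≤ g₁
  H : ∀ i, nn (fun j => σ.D i (σ.D j W) z) ≤ H

variable {B g₀ g₁ H : ℝ}

theorem Bp.c0 (b : Bp σ e W γ B g₀ g₁ H z) (l : ι) :
    |cf σ e W γ l z| ≤ g₀ / nn (gr σ W z) := by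
  have hn := nn_pos b.w0
  refine (abs_le_nn (fl e (gr σ W z) fun j => γ j z) l).trans ((nn_fl_le b.w0).trans ?_)
  refine div_le_div_of_nonneg_right ?_ hn.le
  calc nn e * nn (fun j => γ j z) ≤ 1 * g₀ :=
        mul_le_mul b.e1 b.g0 (nn_nonneg _) (by norm_num)
    _ = g₀ := one_mul _

theorem Bp.c1 (b : Bp σ e W γ B g₀ g₁ H z) (hU : IsOpen U) (ok : σ.Ok U θ) (hW : Sm U W)
    (hγ : ∀ i, Sm U (γ i)) (hz : z ∈ U) (i l : ι) : |σ.D i (cf σ e W γ l) z| ≤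
      3 * (H * g₀ / nn (gr σ W z) ^ 2) + g₁ / nn (gr σ W z) := by
  have hn := nn_pos b.w0
  have h := D_fl (e := e) σ hU (fun j => ok.sD hW j) hγ hz b.w0 i l
  have e0 : σ.D i (cf σ e W γ l) z = dfl e (gr σ W z) (fun j => γ j z)
      (fun j => σ.D i (σ.D j W) z) (fun j => σ.D i (γ j) z) l := h
  rw [e0]
  refine (abs_le_nn _ l).trans ((nn_dfl_le b.w0).trans ?_)
  have H0 : 0 ≤ H := (nn_nonneg _).trans (b.H i)
  have h1 : nn (fun j => σ.D i (σ.D j W) z) * nn (fun j => γ j z) ≤ H * g₀ :=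
    mul_le_mul (b.H i) b.g0 (nn_nonneg _) H0
  have h2 := div_le_div_of_nonneg_right h1 (sq_nonneg (nn (gr σ W z)))
  have h3 := div_le_div_of_nonneg_right (b.g1 i) hn.le
  have h4 : 0 ≤ 3 * (nn (fun j => σ.D i (σ.D j W) z) * nn (fun j => γ j z) /
      nn (gr σ W z) ^ 2) + nn (fun j => σ.D i (γ j) z) / nn (gr σ W z) := by
    have := nn_nonneg (fun j => σ.D i (σ.D j W) z)
    have := nn_nonneg (fun j => γ j z)
    have := nn_nonneg (fun j => σ.D i (γ j) z)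
    positivity
  calc nn e * _ ≤ 1 * _ := mul_le_mul_of_nonneg_right b.e1 h4
    _ ≤ _ := by linarith

theorem F_le (b : Bp σ e W γ B g₀ g₁ H z) :
    |σ.F W z| ≤ 2 * (Fintype.card ι * nn (gr σ W z) ^ 2) := by
  have h := form_le (fun i j => σ.s i j z) b.s (gr σ W z) (gr σ W z)
  rw [sq]
  exact h

theorem DF_le (b : Bp σ e W γ B g₀ g₁ H z) (ok : σ.Ok U θ) (hW : Sm U W) (hz : z ∈ U) (j : ι) :
    |σ.D j (σ.F W) z| ≤ Fintype.card ι * (B * nn (gr σ W z) ^ 2 + 4 * (H * nn (gr σ W z))) := by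
  rw [D_F ok hW hz]
  have hn := nn_nonneg (gr σ W z)
  have h1 := form_le (fun k l => σ.D j (σ.s k l) z) (b.ds j) (gr σ W z) (gr σ W z)
  have h2 := form_le (fun k l => σ.s k l z) b.s (fun k => σ.D j (σ.D k W) z) (gr σ W z)
  have h3 : nn (fun k => σ.D j (σ.D k W) z) * nn (gr σ W z) ≤ H * nn (gr σ W z) :=
    mul_le_mul_of_nonneg_right (b.H j) hn
  have N0 : (0:ℝ) ≤ Fintype.card ι := Nat.cast_nonneg _
  have h4 := mul_le_mul_of_nonneg_left h3 N0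
  have a1 : |∑ k, ∑ l, σ.D j (σ.s k l) z * σ.D k W z * σ.D l W z| ≤
      B * (Fintype.card ι * (nn (gr σ W z) * nn (gr σ W z))) := h1
  have a2 : |∑ k, ∑ l, σ.s k l z * σ.D j (σ.D k W) z * σ.D l W z| ≤
      2 * (Fintype.card ι * (nn (fun k => σ.D j (σ.D k W) z) * nn (gr σ W z))) := h2
  have a3 : |(∑ k, ∑ l, σ.D j (σ.s k l) z * σ.D k W z * σ.D l W z) +
      2 * ∑ k, ∑ l, σ.s k l z * σ.D j (σ.D k W) z * σ.D l W z| ≤
      |∑ k, ∑ l, σ.D j (σ.s k l) z * σ.D k W z * σ.D l W z| +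
      2 * |∑ k, ∑ l, σ.s k l z * σ.D j (σ.D k W) z * σ.D l W z| := by
    refine (abs_add_le _ _).trans (add_le_add le_rfl ?_)
    rw [abs_mul, abs_of_pos (by norm_num : (0:ℝ) < 2)]
  rw [sq]
  linarith

/-- The bound of `div (F c)`. -/
theorem dF_bd (b : Bp σ e W γ B g₀ g₁ H z) (ok : σ.Ok U θ) (hW : Sm U W)
    (hγ : ∀ i, Sm U (γ i)) (h0 : ∀ z ∈ U, 0 < dd (gr σ W z) (gr σ W z)) (hz : z ∈ U) :
    |dF σ (cf σ e W γ) W z| ≤
      10 * (Fintype.card ι : ℝ) ^ 2 * (H * g₀ + g₁ * nn (gr σ W z)) := by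
  have hU := ok.op
  have hn := nn_pos b.w0
  obtain ⟨N, hN⟩ : ∃ N : ℝ, N = Fintype.card ι := ⟨_, rfl⟩
  obtain ⟨w, hw⟩ : ∃ w : ℝ, w = nn (gr σ W z) := ⟨_, rfl⟩
  have N0 : (0:ℝ) ≤ N := by rw [hN]; exact Nat.cast_nonneg _
  have G0 : 0 ≤ g₀ := (nn_nonneg _).trans b.g0
  have B0 := b.B0
  have G1 : 0 ≤ g₁ := (mul_nonneg (by linarith) G0).trans b.gg
  have hF := F_le b
  rw [← hN, ← hw] at hF
  rw [← hw] at hn
  rw [← hN, ← hw]
  have t : ∀ j, |σ.D j (fun z => σ.F W z * cf σ e W γ j z) z +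
      σ.k j z * (σ.F W z * cf σ e W γ j z)| ≤ N * (10 * (H * g₀ + g₁ * w)) := by
    intro j
    have H0 : 0 ≤ H := (nn_nonneg _).trans (b.H j)
    have c0 := b.c0 j
    have c1 := b.c1 hU ok hW hγ hz j j
    have d1 := DF_le b ok hW hz j
    have k1 := b.k j
    rw [← hN, ← hw] at d1
    rw [← hw] at c0 c1
    rw [D_mul σ hU (ok.sF hW) (sm_cf ok hW hγ h0 j) j hz]
    have x1 : |σ.D j (σ.F W) z * cf σ e W γ j z| ≤
        N * (B * w ^ 2 + 4 * (H * w)) * (g₀ / w) := by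
      rw [abs_mul]
      exact mul_le_mul d1 c0 (abs_nonneg _) (by positivity)
    have x2 : |σ.F W z * σ.D j (cf σ e W γ j) z| ≤
        2 * (N * w ^ 2) * (3 * (H * g₀ / w ^ 2) + g₁ / w) := by
      rw [abs_mul]
      exact mul_le_mul hF c1 (abs_nonneg _) (by positivity)
    have x3 : |σ.k j z * (σ.F W z * cf σ e W γ j z)| ≤ B * (2 * (N * w ^ 2) * (g₀ / w)) := by
      rw [abs_mul, abs_mul]
      exact mul_le_mul k1 (mul_le_mul hF c0 (abs_nonneg _) (by positivity)) (by positivity) B0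
    have y1 : N * (B * w ^ 2 + 4 * (H * w)) * (g₀ / w) = N * (B * g₀ * w + 4 * (H * g₀)) := by
      field_simp
    have y2 : 2 * (N * w ^ 2) * (3 * (H * g₀ / w ^ 2) + g₁ / w) =
        N * (6 * (H * g₀) + 2 * (g₁ * w)) := by
      field_simp
      ring
    have y3 : B * (2 * (N * w ^ 2) * (g₀ / w)) = N * (2 * (B * g₀ * w)) := by
      field_simp
    rw [y1] at x1
    rw [y2] at x2
    rw [y3] at x3
    have z1 : B * g₀ * w ≤ g₁ * w := mul_le_mul_of_nonneg_right (by linarith [b.gg]) hn.le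
    have z2 := mul_le_mul_of_nonneg_left z1 N0
    have z3 : 0 ≤ N * (g₁ * w) := by positivity
    calc _ ≤ |σ.D j (σ.F W) z * cf σ e W γ j z| + |σ.F W z * σ.D j (cf σ e W γ j) z| +
          |σ.k j z * (σ.F W z * cf σ e W γ j z)| :=
          (abs_add_le _ _).trans (add_le_add (abs_add_le _ _) le_rfl)
      _ ≤ _ := by linarith
  unfold dF
  calc _ ≤ ∑ j, |σ.D j (fun z => σ.F W z * cf σ e W γ j z) z +
        σ.k j z * (σ.F W z * cf σ e W γ j z)| := Finset.abs_sum_le_sum_abs _ _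
    _ ≤ ∑ _j : ι, N * (10 * (H * g₀ + g₁ * w)) := Finset.sum_le_sum fun j _ => t j
    _ = _ := by
        rw [Finset.sum_const, Finset.card_univ, nsmul_eq_mul, ← hN]; ring

/-- The bound of the error density of the field. -/
theorem eC_fl (b : Bp σ e W γ B g₀ g₁ H z) (ok : σ.Ok U θ) (hW : Sm U W)
    (hγ : ∀ i, Sm U (γ i)) (hv : v z = 0) (hH : 0 ≤ H) (hz : z ∈ U) (a : E → ℝ) :
    |eC σ (cf σ e W γ) v W a z| ≤ 9 * (Fintype.card ι : ℝ) ^ 2 *
      (H * g₀ / nn (gr σ W z) ^ 2 + g₁ / nn (gr σ W z)) * ∑ i, YY σ W a i z ^ 2 := by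
  have hU := ok.op
  have hn := nn_pos b.w0
  have G0 : 0 ≤ g₀ := (nn_nonneg _).trans b.g0
  have B0 := b.B0
  have G1 : 0 ≤ g₁ := (mul_nonneg (by linarith) G0).trans b.gg
  obtain ⟨N, hN⟩ : ∃ N : ℝ, N = Fintype.card ι := ⟨_, rfl⟩
  obtain ⟨w, hw⟩ : ∃ w : ℝ, w = nn (gr σ W z) := ⟨_, rfl⟩
  have N0 : (0:ℝ) ≤ N := by rw [hN]; exact Nat.cast_nonneg _
  have NN : N ≤ N ^ 2 := by
    rw [hN]
    exact_mod_cast Nat.le_self_pow two_ne_zero _
  have h := eC_bd (v := v) (W := W) (a := a) (c := cf σ e W γ) (S := 2) (B := B)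
    (A₀ := g₀ / nn (gr σ W z)) (A₁ := 3 * (H * g₀ / nn (gr σ W z) ^ 2) + g₁ / nn (gr σ W z))
    b.s b.ds b.k b.et b.c0 (b.c1 hU ok hW hγ hz) (by norm_num) B0 (by positivity) (by positivity)
  rw [hv, zero_mul, ← hN, ← hw] at h
  rw [← hw] at hn
  rw [← hN, ← hw]
  have hY : 0 ≤ ∑ i, YY σ W a i z ^ 2 := Finset.sum_nonneg fun i _ => sq_nonneg _
  refine h.trans ?_
  have e1 : N ^ 2 * (3 / 2 * 2 * (3 * (H * g₀ / w ^ 2) + g₁ / w) +
      (5 / 2 * 2 + 1 / 2) * B * (g₀ / w)) * (∑ i, YY σ W a i z ^ 2) +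
      1 / 2 * (g₀ / w) * (0 ^ 2 + N * ∑ i, YY σ W a i z ^ 2) =
      (N ^ 2 * (9 * (H * g₀ / w ^ 2) + 3 * (g₁ / w) + 11 / 2 * (B * g₀ / w)) +
        N * (1 / 2 * (g₀ / w))) * ∑ i, YY σ W a i z ^ 2 := by ring
  rw [e1]
  refine mul_le_mul_of_nonneg_right ?_ hY
  have g1 : (1 + B) * g₀ / w ≤ g₁ / w := div_le_div_of_nonneg_right b.gg hn.le
  have g2 : (1 + B) * g₀ / w = g₀ / w + B * g₀ / w := by ring
  have g3 : 0 ≤ g₀ / w := by positivity
  have g4 : 0 ≤ B * g₀ / w := by positivity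
  have g5 : N * (1 / 2 * (g₀ / w)) ≤ N ^ 2 * (1 / 2 * (g₀ / w)) :=
    mul_le_mul_of_nonneg_right NN (by positivity)
  have N2 : 0 ≤ N ^ 2 := sq_nonneg N
  have g6 : 9 * (H * g₀ / w ^ 2) + 3 * (g₁ / w) + 11 / 2 * (B * g₀ / w) + 1 / 2 * (g₀ / w) ≤
      9 * (H * g₀ / w ^ 2 + g₁ / w) := by linarith
  have g7 := mul_le_mul_of_nonneg_left g6 N2
  linarith

/-- The bound of `(c·Y a)²`. -/
theorem cY_fl (b : Bp σ e W γ B g₀ g₁ H z) (a : E → ℝ) :
    cY σ (cf σ e W γ) W a z ^ 2 ≤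
      (g₀ / nn (gr σ W z)) ^ 2 * (Fintype.card ι * ∑ i, YY σ W a i z ^ 2) :=
  cY_sq b.c0

/-- **The smallness conditions of zone A for the field.** -/
theorem sm1_fl (b : Bp σ e W γ B g₀ g₁ H z) (ok : σ.Ok U θ) (hW : Sm U W)
    (hγ : ∀ i, Sm U (γ i)) (h0 : ∀ z ∈ U, 0 < dd (gr σ W z) (gr σ W z))
    (hv : v z = 0) (hz : z ∈ U) {η M₁ : ℝ} (hη : 0 ≤ η) (hH : 0 ≤ H) (m0 : 0 ≤ m z)
    (up : ∀ A : ι → ℝ, ∑ i, ∑ j, σ.s i j z * A i * A j ≤ 2 * ∑ i, A i ^ 2)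
    (lo : ∀ A : ι → ℝ, ∑ i, A i ^ 2 ≤ 2 * ∑ i, ∑ j, σ.s i j z * A i * A j)
    (hm : ∀ i, |σ.D i m z| ≤ M₁)
    (c1 : 20 * (Fintype.card ι : ℝ) ^ 2 * (H * g₀ + g₁ * nn (gr σ W z)) ≤
      η * (m z * nn (gr σ W z) ^ 2))
    (c2 : (Fintype.card ι : ℝ) * g₀ ^ 2 ≤ η * η * (m z * nn (gr σ W z) ^ 2))
    (c3 : 6 * (Fintype.card ι : ℝ) ^ 2 * (m z * (H + B * nn (gr σ W z)) +
      M₁ * nn (gr σ W z)) ≤ η * (m z * nn (gr σ W z) ^ 2)) :
    Sm1 σ W m (cf σ e W γ) v η z := by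
  have hn := nn_pos b.w0
  have hF : nn (gr σ W z) ^ 2 ≤ 2 * σ.F W z := by
    have := lo (gr σ W z)
    have e1 : nn (gr σ W z) ^ 2 = ∑ i, gr σ W z i ^ 2 := by
      rw [nn_sq]; unfold dd; exact Finset.sum_congr rfl fun i _ => by ring
    rw [e1]
    exact this
  have hηm : 0 ≤ η * m z := mul_nonneg hη m0
  have hF2 := mul_le_mul_of_nonneg_left hF hηm
  have N0 : (0:ℝ) ≤ Fintype.card ι := Nat.cast_nonneg _
  have NN : (Fintype.card ι : ℝ) ≤ (Fintype.card ι : ℝ) ^ 2 := by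
    exact_mod_cast Nat.le_self_pow two_ne_zero _
  refine ⟨m0, up, lo, ?_, ?_, fun a => ?_, fun a => ?_⟩
  · -- the weight
    have a1 : |σ.Λ W z| ≤ 3 * ((Fintype.card ι : ℝ) ^ 2 * (H + B * nn (gr σ W z))) := by
      unfold Sl.Λ
      have t : ∀ i, ∀ j, |σ.s i j z * (σ.D i (σ.D j W) z + σ.k i z * σ.D j W z) +
          σ.D i (σ.s i j) z * σ.D j W z| ≤ 3 * (H + B * nn (gr σ W z)) := by
        intro i j
        have t1 : |σ.s i j z * (σ.D i (σ.D j W) z + σ.k i z * σ.D j W z)| ≤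
            2 * (H + B * nn (gr σ W z)) := by
          rw [abs_mul]
          refine mul_le_mul (b.s i j) ?_ (abs_nonneg _) (by norm_num)
          refine (abs_add_le _ _).trans (add_le_add ((abs_le_nn
            (fun j => σ.D i (σ.D j W) z) j).trans (b.H i)) ?_)
          rw [abs_mul]
          exact mul_le_mul (b.k i) (abs_le_nn (gr σ W z) j) (abs_nonneg _) b.B0
        have t2 : |σ.D i (σ.s i j) z * σ.D j W z| ≤ B * nn (gr σ W z) := by
          rw [abs_mul]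
          exact mul_le_mul (b.ds i i j) (abs_le_nn (gr σ W z) j) (abs_nonneg _) b.B0
        refine (abs_add_le _ _).trans ?_
        linarith
      calc _ ≤ ∑ i, |∑ j, (σ.s i j z * (σ.D i (σ.D j W) z + σ.k i z * σ.D j W z) +
            σ.D i (σ.s i j) z * σ.D j W z)| := Finset.abs_sum_le_sum_abs _ _
        _ ≤ ∑ _i : ι, ∑ _j : ι, 3 * (H + B * nn (gr σ W z)) :=
            Finset.sum_le_sum fun i _ => (Finset.abs_sum_le_sum_abs _ _).trans
              (Finset.sum_le_sum fun j _ => t i j)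
        _ = _ := by
            simp only [Finset.sum_const, Finset.card_univ, nsmul_eq_mul]; ring
    have a2 : |σ.Γ m W z| ≤ 2 * ((Fintype.card ι : ℝ) ^ 2 * (M₁ * nn (gr σ W z))) := by
      unfold Sl.Γ
      have t : ∀ i, ∀ j, |σ.s i j z * σ.D i m z * σ.D j W z| ≤
          2 * (M₁ * nn (gr σ W z)) := by
        intro i j
        rw [abs_mul, abs_mul]
        have M0 : 0 ≤ M₁ := (abs_nonneg _).trans (hm i)
        calc |σ.s i j z| * |σ.D i m z| * |σ.D j W z| ≤ 2 * M₁ * nn (gr σ W z) :=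
              mul_le_mul (mul_le_mul (b.s i j) (hm i) (abs_nonneg _) (by norm_num))
                (abs_le_nn (gr σ W z) j) (abs_nonneg _) (by positivity)
          _ = _ := by ring
      calc _ ≤ ∑ i, |∑ j, σ.s i j z * σ.D i m z * σ.D j W z| :=
            Finset.abs_sum_le_sum_abs _ _
        _ ≤ ∑ _i : ι, ∑ _j : ι, 2 * (M₁ * nn (gr σ W z)) :=
            Finset.sum_le_sum fun i _ => (Finset.abs_sum_le_sum_abs _ _).trans
              (Finset.sum_le_sum fun j _ => t i j)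
        _ = _ := by
            simp only [Finset.sum_const, Finset.card_univ, nsmul_eq_mul]; ring
    have a3 : |m z * σ.Λ W z| ≤ m z * (3 * ((Fintype.card ι : ℝ) ^ 2 *
        (H + B * nn (gr σ W z)))) := by
      rw [abs_mul, abs_of_nonneg m0]
      exact mul_le_mul_of_nonneg_left a1 m0
    have a4 := (abs_add_le (m z * σ.Λ W z) (σ.Γ m W z)).trans (add_le_add a3 a2)
    have M0 : 0 ≤ (Fintype.card ι : ℝ) ^ 2 * (M₁ * nn (gr σ W z)) := by
      have h1 := (abs_nonneg _).trans a2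
      linarith
    linarith
  · have := dF_bd b ok hW hγ h0 hz
    linarith
  · have h := eC_fl (v := v) b ok hW hγ hv hH hz a
    refine h.trans ?_
    rw [← mul_assoc]
    refine mul_le_mul_of_nonneg_right ?_ (Finset.sum_nonneg fun i _ => sq_nonneg _)
    have e1 : 9 * (Fintype.card ι : ℝ) ^ 2 *
        (H * g₀ / nn (gr σ W z) ^ 2 + g₁ / nn (gr σ W z)) =
        9 * (Fintype.card ι : ℝ) ^ 2 * (H * g₀ + g₁ * nn (gr σ W z)) / nn (gr σ W z) ^ 2 := by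
      field_simp
    rw [e1, div_le_iff₀ (by positivity)]
    have G0 : 0 ≤ g₀ := (nn_nonneg _).trans b.g0
    have B0 := b.B0
    have G1 : 0 ≤ g₁ := (mul_nonneg (by linarith) G0).trans b.gg
    have : 0 ≤ (Fintype.card ι : ℝ) ^ 2 * (H * g₀ + g₁ * nn (gr σ W z)) := by positivity
    linarith
  · have h := cY_fl b (a := a)
    refine h.trans ?_
    have e1 : (g₀ / nn (gr σ W z)) ^ 2 * (Fintype.card ι * ∑ i, YY σ W a i z ^ 2) =
        (Fintype.card ι * g₀ ^ 2 / nn (gr σ W z) ^ 2) * ∑ i, YY σ W a i z ^ 2 := by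
      rw [div_pow]; ring
    rw [e1, ← mul_assoc]
    refine mul_le_mul_of_nonneg_right ?_ (Finset.sum_nonneg fun i _ => sq_nonneg _)
    rw [div_le_iff₀ (by positivity)]
    linarith

end slot

end Vale.Agent.P088.R2.H230.W
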