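import Vale.Agent.P088.R2.H230.W.Rob

/-!
# P088, stage 3: the robust certificate away from the diagonal, final form
-/

noncomputable section

namespace Vale.Agent.P088.R2.H230.W

variable {ι : Type*} [Fintype ι]

/-- The scalar inequality for the upper bound of `L'`. -/
lemma rob_s1 {L Λ x l ε₀ : ℝ} (hΛ : L + 1 / 25 ≤ Λ) (hx : x ≤ 1 / 25) (hl : 1 - ε₀ ≤ l)
    (h : ε₀ * Λ ≤ 1 / 51200) (hΛ0 : 0 < Λ) : L + x / 2 ≤ Λ * l := by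
  have := mul_le_mul_of_nonneg_left hl hΛ0.le
  nlinarith

/-- The normal form of the two covectors of the stiff direction. -/
lemma rob_dir {e h φ₁ φ₂ : ι → ℝ} {L Λ ε₀ : ℝ}
    (he : dd e e = 1) (hh : dd h h = 1)
    (hφs : nn (φ₁ + φ₂ - e) ≤ ε₀) (hφd : nn (φ₁ - φ₂ - (2 * L) • h) ≤ 1 / 25)
    (hε₀s : ε₀ ≤ 1 / 25600) (hε₀Λ : ε₀ * Λ ≤ 1 / 51200)
    (hL : 2 / 5 ≤ L) (hΛ : L + 1 / 25 ≤ Λ) :
    ∃ (l L' : ℝ) (e' g : ι → ℝ), 0 < l ∧ 1 - ε₀ ≤ l ∧ dd e' e' = 1 ∧ nn (e - e') ≤ 2 * ε₀ ∧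
      dd h g = 0 ∧ dd g g ≤ 1 / 100 ∧ 3 / 8 ≤ L' ∧ L' ≤ Λ ∧ l⁻¹ • φ₁ + l⁻¹ • φ₂ = e' ∧
      l⁻¹ • φ₁ - l⁻¹ • φ₂ = (2 * L') • h + (2 : ℝ) • g := by
  have hΛ0 : 0 < Λ := by linarith
  have n_e := nn_one he
  have n_h := nn_one hh
  obtain ⟨l, hl⟩ : ∃ l : ℝ, l = nn (φ₁ + φ₂) := ⟨_, rfl⟩
  have hl1a : |l - 1| ≤ ε₀ := by
    have := abs_nn_sub_le (φ₁ + φ₂) e
    rw [n_e, ← hl] at this
    exact this.trans hφs
  have hla := abs_le.1 hl1a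
  have hl0 : 0 < l := by linarith
  obtain ⟨e', he'⟩ : ∃ e' : ι → ℝ, e' = l⁻¹ • (φ₁ + φ₂) := ⟨_, rfl⟩
  have hse : φ₁ + φ₂ = l • e' := by
    rw [he', smul_smul, mul_inv_cancel₀ hl0.ne', one_smul]
  have hsum : l⁻¹ • φ₁ + l⁻¹ • φ₂ = e' := by rw [he', smul_add]
  have hee' : dd e' e' = 1 := by
    rw [he', dd_smul_left, dd_smul_right, ← nn_mul_self, ← hl]
    field_simp
  have n_e' := nn_one hee'
  have hde : nn (e - e') ≤ 2 * ε₀ := by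
    have e1 : e - e' = -(φ₁ + φ₂ - e) + (l - 1) • e' := by
      rw [hse]; funext i
      simp only [Pi.add_apply, Pi.sub_apply, Pi.neg_apply, Pi.smul_apply, smul_eq_mul]
      ring
    rw [e1]
    refine (nn_add_le _ _).trans ?_
    rw [nn_neg, nn_smul, n_e']
    linarith
  obtain ⟨ρ, hρ⟩ : ∃ ρ : ι → ℝ, ρ = φ₁ - φ₂ - (2 * L) • h := ⟨_, rfl⟩
  rw [← hρ] at hφd
  obtain ⟨x, hx⟩ : ∃ x : ℝ, x = dd h ρ := ⟨_, rfl⟩
  have hxa : |x| ≤ 1 / 25 := by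
    have := dd_le_nn h ρ
    rw [n_h, one_mul, ← hx] at this
    exact this.trans hφd
  have hxb := abs_le.1 hxa
  refine ⟨l, (L + x / 2) / l, e', (2 * l)⁻¹ • (ρ - x • h), hl0, by linarith, hee', hde, ?_, ?_,
    ?_, ?_, hsum, ?_⟩
  · rw [dd_smul_right, dd_sub_right, dd_smul_right, hh, ← hx]; ring
  · have e1 : dd (ρ - x • h) (ρ - x • h) = dd ρ ρ - x ^ 2 := by
      rw [dd_sub_left, dd_sub_right, dd_sub_right]
      simp only [dd_smul_left, dd_smul_right, hh, dd_comm ρ h, ← hx]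
      ring
    have e2 : dd ρ ρ ≤ 1 / 625 := by
      have := pow_le_pow_left₀ (nn_nonneg ρ) hφd 2
      rw [nn_sq] at this
      linarith
    have e3 : dd ((2 * l)⁻¹ • (ρ - x • h)) ((2 * l)⁻¹ • (ρ - x • h)) =
        ((2 * l)⁻¹) ^ 2 * dd (ρ - x • h) (ρ - x • h) := by
      rw [dd_smul_left, dd_smul_right]; ring
    have e4 : (2 * l)⁻¹ ≤ 1 := inv_le_one_of_one_le₀ (by linarith)
    have e5 : ((2 * l)⁻¹) ^ 2 ≤ 1 := pow_le_one₀ (by positivity) e4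
    have e6 : 0 ≤ dd (ρ - x • h) (ρ - x • h) := dd_self_nonneg _
    have e7 : dd (ρ - x • h) (ρ - x • h) ≤ 1 / 625 := by
      rw [e1]; linarith [sq_nonneg x]
    rw [e3]
    calc ((2 * l)⁻¹) ^ 2 * dd (ρ - x • h) (ρ - x • h) ≤ 1 * (1 / 625) :=
          mul_le_mul e5 e7 e6 (by norm_num)
      _ ≤ 1 / 100 := by norm_num
  · rw [le_div_iff₀ hl0]; linarith
  · rw [div_le_iff₀ hl0]
    exact rob_s1 hΛ hxb.2 (by linarith) hε₀Λ hΛ0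
  · have e1 : φ₁ - φ₂ = (2 * L) • h + ρ := by rw [hρ]; abel
    have e2 : l⁻¹ • φ₁ - l⁻¹ • φ₂ = l⁻¹ • (φ₁ - φ₂) := by rw [smul_sub]
    rw [e2, e1]
    funext i
    simp only [Pi.add_apply, Pi.sub_apply, Pi.smul_apply, smul_eq_mul]
    field_simp
    ring

lemma rob_w1 {e e' h w : ι → ℝ} {ν ℓ ε ε₀ : ℝ} (hν : 0 ≤ ν) (hde : nn (e - e') ≤ 2 * ε₀)
    (h₁ : nn (w - (ν • e + ℓ • h)) + 2 * ε₀ * ν ≤ ε * nn w) :
    nn (w - v1 e' h ν ℓ) ≤ ε * nn w := by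
  have e1 : w - v1 e' h ν ℓ = (w - (ν • e + ℓ • h)) + ν • (e - e') := by
    unfold v1; funext i
    simp only [Pi.add_apply, Pi.sub_apply, Pi.smul_apply, smul_eq_mul]
    ring
  rw [e1]
  refine (nn_add_le _ _).trans ?_
  rw [nn_smul, abs_of_nonneg hν]
  have := mul_le_mul_of_nonneg_left hde hν
  linarith

lemma rob_w2 {e e' h w : ι → ℝ} {ν ℓ ε ε₀ : ℝ} (hν : 0 ≤ ν) (hde : nn (e - e') ≤ 2 * ε₀)
    (h₁ : nn (w - (ν • e - ℓ • h)) + 2 * ε₀ * ν ≤ ε * nn w) :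
    nn (w - v2 e' h ν ℓ) ≤ ε * nn w := by
  have e1 : w - v2 e' h ν ℓ = (w - (ν • e - ℓ • h)) + ν • (e - e') := by
    unfold v2; funext i
    simp only [Pi.add_apply, Pi.sub_apply, Pi.smul_apply, smul_eq_mul]
    ring
  rw [e1]
  refine (nn_add_le _ _).trans ?_
  rw [nn_smul, abs_of_nonneg hν]
  have := mul_le_mul_of_nonneg_left hde hν
  linarith

lemma pos_of_near {w w' : ι → ℝ} {ε : ℝ} (hw : 0 < dd w w) (hε : ε < 1)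
    (h : nn (w - w') ≤ ε * nn w) : 0 < dd w' w' := by
  apply dd_pos_of_nn
  have h3 := nn_le_add w w'
  have h4 := nn_pos hw
  have h5 : ε * nn w < 1 * nn w := mul_lt_mul_of_pos_right hε h4
  linarith

/-- Change of `γ` in the exact certificate. -/
lemma rob_g {e e' h w U : ι → ℝ} {a δ ε₀ : ℝ} (n_e' : nn e' = 1) (hw : 0 < dd w w) (hδ : 0 < δ)
    (hde : nn (e - e') ≤ 2 * ε₀) (hε₀s : ε₀ ≤ 1 / 25600) :
    TT (fl e' w (a • h + δ • e')) w U ≤ TT (fl e' w (a • h + δ • e)) w U +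
      δ / 400 * dd U U := by
  have gch : nn ((a • h + δ • e) - (a • h + δ • e')) ≤ δ / 400 := by
    have e1 : (a • h + δ • e) - (a • h + δ • e') = δ • (e - e') := by
      funext i
      simp only [Pi.add_apply, Pi.sub_apply, Pi.smul_apply, smul_eq_mul]
      ring
    rw [e1, nn_smul, abs_of_pos hδ]
    have h3 : nn (e - e') ≤ 1 / 400 := by linarith
    have := mul_le_mul_of_nonneg_left h3 hδ.le
    linarith
  have c1 := TT_fl_g (e := e') (γ := a • h + δ • e) (γ' := a • h + δ • e') (U := U) hw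
  rw [n_e', one_mul] at c1
  have c1' := (abs_le.1 c1).1
  have d1 := mul_le_mul_of_nonneg_right gch (dd_self_nonneg U)
  linarith

lemma rob_sz {e h : ι → ℝ} {a b Λ δ : ℝ} (n_e : nn e = 1) (n_h : nn h = 1) (hδ : 0 < δ)
    (ha : |a| = b) (hb : b = 4 * Λ * δ) : nn (a • h + δ • e) ≤ δ * (4 * Λ + 1) := by
  refine (nn_add_le _ _).trans ?_
  rw [nn_smul, nn_smul, n_e, n_h, ha, hb, abs_of_pos hδ]
  linarith

lemma rob_y {y δ Λ ε : ℝ} (hε' : 0 ≤ ε) (hδ : 0 < δ) (hε : 6400 * (ε * (4 * Λ + 1)) ≤ 1)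
    (hy : y ≤ δ * (4 * Λ + 1)) : 48 * (8 * (ε * y)) ≤ δ * (3 / 50) := by
  have h3 := mul_le_mul_of_nonneg_left hy hε'
  have h4 := mul_le_mul_of_nonneg_left hε hδ.le
  linarith

/-- **The robust certificate away from the diagonal.**  `U`, `V` are the raised vectors of the
covectors `A`, `B`; `φ₁`, `φ₂` the covectors of the stiff direction; `w₁`, `w₂` the gradients of the
weight; `T` the value of the form of the second derivatives. -/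
theorem far_rob {e h φ₁ φ₂ w₁ w₂ U V A B : ι → ℝ} {ν₁ ℓ₁ ν₂ ℓ₂ L Λ κ k m δ ε ε₀ T : ℝ}
    (he : dd e e = 1) (hh : dd h h = 1)
    (hφs : nn (φ₁ + φ₂ - e) ≤ ε₀) (hφd : nn (φ₁ - φ₂ - (2 * L) • h) ≤ 1 / 25)
    (hε₀ : 2 * ε₀ ≤ ε) (hε : 6400 * (ε * (4 * Λ + 1)) ≤ 1)
    (hL : 2 / 5 ≤ L) (hΛ : L + 1 / 25 ≤ Λ) (hδ : 0 < δ)
    (hδ1 : 1600 * (δ * (4 * Λ + 1) ^ 2) ≤ κ) (hδ2 : 100 * (δ * (4 * Λ + 1) ^ 2) ≤ k)
    (hm : 50 * m ≤ δ)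
    (hl1 : 0 ≤ ℓ₁) (hl2 : 0 ≤ ℓ₂) (hl1' : ℓ₁ ≤ 2 * Λ * ν₁) (hl2' : ℓ₂ ≤ 2 * Λ * ν₂)
    (hw₁ : 0 < dd w₁ w₁) (hw₂ : 0 < dd w₂ w₂)
    (h₁ : nn (w₁ - (ν₁ • e + ℓ₁ • h)) + 2 * ε₀ * ν₁ ≤ ε * nn w₁)
    (h₂ : nn (w₂ - (ν₂ • e - ℓ₂ • h)) + 2 * ε₀ * ν₂ ≤ ε * nn w₂)
    (hA : nn (A - U) ≤ ε * nn U) (hB : nn (B - V) ≤ ε * nn V)
    (hT : κ * (dd φ₁ U + dd φ₂ V) ^ 2 + k * (dd (U - V) (U - V) - dd h (U - V) ^ 2)
      - m * dd h (U - V) ^ 2 - δ / 100 * (dd U U + dd V V) ≤ T) :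
    δ / 25 * (dd A A + dd B B) ≤
      T + TM (fl e w₁ ((4 * Λ * δ) • h + δ • e)) w₁ A U
        + TM (fl e w₂ ((-(4 * Λ * δ)) • h + δ • e)) w₂ B V := by
  have hε₀' : 0 ≤ ε₀ := (nn_nonneg _).trans hφs
  have hε' : 0 ≤ ε := by linarith
  have hΛ0 : 0 < Λ := by linarith
  have hΛ1 : 11 / 25 ≤ Λ := by linarith
  have n_e := nn_one he
  have n_h := nn_one hh
  have hεΛ : 0 ≤ ε * Λ := mul_nonneg hε' hΛ0.le
  have hεs : ε ≤ 1 / 12800 := by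
    have := mul_le_mul_of_nonneg_left hΛ1 hε'
    linarith
  have hε₀s : ε₀ ≤ 1 / 25600 := by linarith
  have hε₀Λ : ε₀ * Λ ≤ 1 / 51200 := by
    have := mul_le_mul_of_nonneg_right hε₀ hΛ0.le
    linarith
  have hν1 : 0 ≤ ν₁ := by
    by_contra hneg
    have := mul_pos hΛ0 (neg_pos.2 (not_le.1 hneg))
    linarith
  have hν2 : 0 ≤ ν₂ := by
    by_contra hneg
    have := mul_pos hΛ0 (neg_pos.2 (not_le.1 hneg))
    linarith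
  obtain ⟨l, L', e', g, hl0, hl1b, hee', hde, hhg, hgg, hL8, hL'Λ, hsum, hdiff⟩ :=
    rob_dir he hh hφs hφd hε₀s hε₀Λ hL hΛ
  have n_e' := nn_one hee'
  have b1 := rob_w1 hν1 hde h₁
  have b2 := rob_w2 hν2 hde h₂
  have p1 := pos_of_near hw₁ (by linarith) b1
  have p2 := pos_of_near hw₂ (by linarith) b2
  have hD0 : 0 < δ * (4 * Λ + 1) ^ 2 := by positivity
  have hl2 : (15 / 16 : ℝ) ≤ l ^ 2 := by
    have h3 : (1 - ε₀) ^ 2 ≤ l ^ 2 := pow_le_pow_left₀ (by linarith) hl1b 2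
    have h4 := sq_nonneg ε₀
    linarith [show (1 - ε₀) ^ 2 = 1 - 2 * ε₀ + ε₀ ^ 2 by ring]
  have hκ' : 1500 * (δ * (4 * Λ + 1) ^ 2) ≤ κ * l ^ 2 := by
    have h4 : 1600 * (δ * (4 * Λ + 1) ^ 2) * (15 / 16) ≤ κ * l ^ 2 :=
      mul_le_mul hδ1 hl2 (by norm_num) (by linarith)
    linarith
  have hκ0 : 0 < κ * l ^ 2 := by linarith
  have cert := far_cert4 hee' hh hhg hgg hL8 hL'Λ hκ0 hδ hκ' hδ2 hm hl1 (by assumption) hl1'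
    hl2' p1 p2 _ _ hsum hdiff U V
  have sqe : κ * l ^ 2 * (dd (l⁻¹ • φ₁) U + dd (l⁻¹ • φ₂) V) ^ 2 =
      κ * (dd φ₁ U + dd φ₂ V) ^ 2 := by
    simp only [dd_smul_left]
    field_simp
  rw [sqe] at cert
  have hUU := dd_self_nonneg U
  have hVV := dd_self_nonneg V
  have c1 := rob_g (U := U) (h := h) (a := 4 * Λ * δ) n_e' p1 hδ hde hε₀s
  have c2 := rob_g (U := V) (h := h) (a := -(4 * Λ * δ)) n_e' p2 hδ hde hε₀s
  have cert2 : δ * (3 / 50) * (dd U U + dd V V) ≤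
      (κ * (dd φ₁ U + dd φ₂ V) ^ 2 + k * (dd (U - V) (U - V) - dd h (U - V) ^ 2)
        - m * dd h (U - V) ^ 2)
      + TT (fl e' (v1 e' h ν₁ ℓ₁) ((4 * Λ * δ) • h + δ • e)) (v1 e' h ν₁ ℓ₁) U
      + TT (fl e' (v2 e' h ν₂ ℓ₂) ((-(4 * Λ * δ)) • h + δ • e)) (v2 e' h ν₂ ℓ₂) V := by
    linarith
  have hΛδ : 0 ≤ 4 * Λ * δ := by positivity
  have z1 := rob_sz (a := 4 * Λ * δ) n_e n_h hδ (abs_of_nonneg hΛδ) rfl
  have z2 := rob_sz (a := -(4 * Λ * δ)) n_e n_h hδ (by rw [abs_neg, abs_of_nonneg hΛδ]) rfl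
  have hT' : (κ * (dd φ₁ U + dd φ₂ V) ^ 2 + k * (dd (U - V) (U - V) - dd h (U - V) ^ 2)
        - m * dd h (U - V) ^ 2) - δ * (3 / 50) / 6 * (dd U U + dd V V) ≤ T := by
    linarith
  have fin := pert n_e'.le n_e.le (hde.trans hε₀) hw₁ p1 hw₂ p2 b1 b2 hA hB
    (by positivity : 0 ≤ δ * (3 / 50)) (rob_y hε' hδ hε z1) (rob_y hε' hδ hε z2) (by linarith)
    cert2 hT'
  have hAA := mul_nonneg hδ.le (dd_self_nonneg A)
  have hBB := mul_nonneg hδ.le (dd_self_nonneg B)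
  linarith

end Vale.Agent.P088.R2.H230.W
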