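import Vale.Agent.P088.R2.H230.W.Cv
import Vale.Agent.P088.R2.H230.W.Rob2
import Vale.Agent.P088.R2.H230.W.FlS

/-!
# P088, stage 3: the certificate away from the diagonal for `W = Φ(u) + Ψ(f, r)` in curved slots

`Geo` collects what the certificate has to know about `u` and `r` at a point; `L` is the logarithmic
derivative of the profile, `f = u + log S(r)`.
-/

open Set Filter
open scoped ContDiff Topology

noncomputable section

namespace Vale.Agent.P088.R2.H230.W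

open Vale.Agent.P088.R2.H961.GW Vale.Agent.P088.R2.H960.W Vale.Agent.P088.R2.H644.Ch

variable {E ι : Type*} [NormedAddCommGroup E] [NormedSpace ℝ E] [Fintype ι]

/-- The raised vector. -/
def sU (σ : Sl E ι) (z : E) (A : ι → ℝ) : ι → ℝ := fun i => ∑ j, σ.s i j z * A j

lemma tc_TM (σ : Sl E ι) (c : ι → E → ℝ) (W : E → ℝ) (z : E) (A : ι → ℝ) :
    tc σ c W z A = TM (fun l => c l z) (gr σ W z) A (sU σ z A) := by
  unfold tc TM dd sU gr
  have e1 : ∑ i, ∑ j, σ.s i j z * A i * A j = ∑ i, A i * ∑ j, σ.s i j z * A j := by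
    refine Finset.sum_congr rfl fun i _ => ?_
    rw [Finset.mul_sum]
    exact Finset.sum_congr rfl fun j _ => by ring
  have e2 : ∑ i, ∑ j, σ.s i j z * σ.D i W z * A j =
      ∑ i, σ.D i W z * ∑ j, σ.s i j z * A j := by
    refine Finset.sum_congr rfl fun i _ => ?_
    rw [Finset.mul_sum]
    exact Finset.sum_congr rfl fun j _ => by ring
  rw [e1, e2]

lemma Gr_dd {σ : Sl E ι} {z : E} (sy : ∀ i j, σ.s i j z = σ.s j i z) (f : E → ℝ) (A : ι → ℝ) :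
    ∑ i, Gr σ f i z * A i = dd (gr σ f z) (sU σ z A) := by
  unfold Gr dd gr sU
  simp only [Finset.sum_mul, Finset.mul_sum]
  rw [Finset.sum_comm]
  refine Finset.sum_congr rfl fun i _ => Finset.sum_congr rfl fun j _ => ?_
  rw [sy j i]; ring

lemma GA_dd {σ τ : Sl E ι} {z : E} (sx : ∀ i j, σ.s i j z = σ.s j i z)
    (sy : ∀ i j, τ.s i j z = τ.s j i z) (f : E → ℝ) (A B : ι → ℝ) :
    GA σ τ f z A B = dd (gr σ f z) (sU σ z A) + dd (gr τ f z) (sU τ z B) := by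
  unfold GA
  rw [Gr_dd sx, Gr_dd sy]

/-- The geometry at a point. -/
structure Geo (σ τ : Sl E ι) (u r : E → ℝ) (e h : ι → ℝ) (ε g : ℝ) (z : E) : Prop where
  ee : dd e e = 1
  hh : dd h h = 1
  r0 : 0 < r z
  sσ : ∀ i j, σ.s i j z = σ.s j i z
  sτ : ∀ i j, τ.s i j z = τ.s j i z
  ux : nn (gr σ u z - e) ≤ ε
  uy : nn (gr τ u z - e) ≤ ε
  rx : nn (gr σ r z - h) ≤ ε
  ry : nn (gr τ r z + h) ≤ ε
  nx : ∀ A, nn (sU σ z A - A) ≤ ε * nn A
  ny : ∀ B, nn (sU τ z B - B) ≤ ε * nn B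
  Tu : ∀ A B, g * (dd A A + dd B B) ≤ TH σ τ u z A B
  Tr : ∀ A B, |TH σ τ r z A B - (r z)⁻¹ * (dd (sU σ z A - sU τ z B) (sU σ z A - sU τ z B) -
    dd h (sU σ z A - sU τ z B) ^ 2)| ≤ ε / r z * (dd A A + dd B B)

section num

/-- `|a| ≤ x`, `|b| ≤ y` give `2|a||b| + b² ≤ 2xy + y²`. -/
lemma num1 {a b x y : ℝ} (ha : |a| ≤ x) (hb : |b| ≤ y) : 2 * |a * b| + b ^ 2 ≤ 2 * (x * y) + y ^ 2 := by
  have h1 : |a * b| ≤ x * y := by
    rw [abs_mul]; exact mul_le_mul ha hb (abs_nonneg _) ((abs_nonneg _).trans ha)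
  have h2 : b ^ 2 ≤ y ^ 2 := by
    rw [← sq_abs b]; exact pow_le_pow_left₀ (abs_nonneg _) hb 2
  linarith

lemma sum_sq {x y : ℝ} : (x + y) ^ 2 ≤ 2 * (x ^ 2 + y ^ 2) := by nlinarith [sq_nonneg (x - y)]

end num

section far

variable {σ τ : Sl E ι} {u r f W : E → ℝ} {e h A B : ι → ℝ} {z : E} {ε g : ℝ}

lemma Geo.ε0 (G : Geo σ τ u r e h ε g z) : 0 ≤ ε := (nn_nonneg _).trans G.ux

/-- `|A| ≤ 2 |U|`, `|A - U| ≤ 2ε |U|`. -/
lemma up_A {U A : ι → ℝ} (hε : ε ≤ 1 / 2) (h : nn (U - A) ≤ ε * nn A) :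
    nn A ≤ 2 * nn U ∧ nn (A - U) ≤ 2 * ε * nn U := by
  have ε0 : ε * nn A ≤ 1 / 2 * nn A := mul_le_mul_of_nonneg_right hε (nn_nonneg _)
  have h1 := nn_le_add A U
  rw [nn_sub_comm A U] at h1
  have h2 : nn A ≤ 2 * nn U := by linarith
  refine ⟨h2, ?_⟩
  rw [nn_sub_comm]
  rcases lt_or_ge ε 0 with hn | hp
  · have h3 : ε * nn A ≤ 0 := mul_nonpos_of_nonpos_of_nonneg hn.le (nn_nonneg _)
    have h4 : nn (U - A) = 0 := le_antisymm (h.trans h3) (nn_nonneg _)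
    have h5 : nn A = 0 := by
      rcases (nn_nonneg A).eq_or_lt with h6 | h6
      · exact h6.symm
      · have := mul_neg_of_neg_of_pos hn h6
        linarith [nn_nonneg (U - A)]
    have h6 : nn U = 0 := by
      have := nn_le_add U A
      rw [h4, h5] at this
      exact le_antisymm (by linarith) (nn_nonneg _)
    rw [h4, h6]; simp
  · calc nn (U - A) ≤ ε * nn A := h
      _ ≤ ε * (2 * nn U) := mul_le_mul_of_nonneg_left h2 hp
      _ = 2 * ε * nn U := by ring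

/-- The pairing with `r`. -/
lemma GAr (G : Geo σ τ u r e h ε g z) (A B : ι → ℝ) :
    |GA σ τ r z A B - dd h (sU σ z A - sU τ z B)| ≤ ε * (nn (sU σ z A) + nn (sU τ z B)) := by
  rw [GA_dd G.sσ G.sτ]
  have e1 : dd (gr σ r z) (sU σ z A) + dd (gr τ r z) (sU τ z B) -
      dd h (sU σ z A - sU τ z B) = dd (gr σ r z - h) (sU σ z A) + dd (gr τ r z + h) (sU τ z B) := by
    simp only [dd_sub_left, dd_sub_right, dd_add_left]; ring
  rw [e1]
  have h1 := (dd_le_nn (gr σ r z - h) (sU σ z A)).trans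
    (mul_le_mul_of_nonneg_right G.rx (nn_nonneg _))
  have h2 := (dd_le_nn (gr τ r z + h) (sU τ z B)).trans
    (mul_le_mul_of_nonneg_right G.ry (nn_nonneg _))
  refine (abs_add_le _ _).trans ?_
  linarith

lemma nn_hQ (hh : dd h h = 1) (U V : ι → ℝ) : |dd h (U - V)| ≤ nn U + nn V := by
  have := dd_le_nn h (U - V)
  rw [nn_one hh, one_mul] at this
  exact this.trans (nn_sub_le _ _)

lemma GAu (G : Geo σ τ u r e h ε g z) (A B : ι → ℝ) :
    |GA σ τ u z A B| ≤ (1 + ε) * (nn (sU σ z A) + nn (sU τ z B)) := by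
  rw [GA_dd G.sσ G.sτ]
  have n1 : nn (gr σ u z) ≤ 1 + ε := by
    have := nn_le_add (gr σ u z) e
    rw [nn_one G.ee] at this
    linarith [G.ux]
  have n2 : nn (gr τ u z) ≤ 1 + ε := by
    have := nn_le_add (gr τ u z) e
    rw [nn_one G.ee] at this
    linarith [G.uy]
  have h1 := (dd_le_nn (gr σ u z) (sU σ z A)).trans
    (mul_le_mul_of_nonneg_right n1 (nn_nonneg _))
  have h2 := (dd_le_nn (gr τ u z) (sU τ z B)).trans
    (mul_le_mul_of_nonneg_right n2 (nn_nonneg _))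
  refine (abs_add_le _ _).trans ?_
  linarith

/-- The lower bound of the main part. -/
lemma main_lb {G₀ D₀₁ D₂₀ D₁₁ D₀₂ Φ₁ Φ₂ L L₁ κ om ε₁ : ℝ} (G : Geo σ τ u r e h ε g z)
    (hε : ε ≤ 1 / 10000000) (hε₁ : ε₁ ≤ 1 / 20000000)
    (G0 : 0 < G₀) (L0 : 0 ≤ L) (L2 : L ≤ 21 / 10) (hL1 : |L₁| ≤ 1)
    (μ1 : |D₀₁| ≤ 1 / 50 * G₀) (μ2 : 0 ≤ G₀ * L + D₀₁)
    (k20 : D₂₀ = κ * G₀) (k11 : |D₁₁ - κ * G₀ * om| ≤ ε₁ * (G₀ / r z))
    (k02 : |D₀₂ - κ * G₀ * om ^ 2| ≤ ε₁ * (G₀ / r z)) (r1 : |L₁| * r z ≤ 1)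
    (Φ0 : 0 ≤ Φ₁)
    (A B : ι → ℝ) {T X Y : ℝ} (hY : Y = GA σ τ r z A B) (hX : X = GA σ τ u z A B + L * Y)
    (hT : T = Φ₁ * TH σ τ u z A B + Φ₂ * GA σ τ u z A B ^ 2 +
      (G₀ * (TH σ τ u z A B + L * TH σ τ r z A B + L₁ * Y ^ 2) + D₀₁ * TH σ τ r z A B) +
      (D₂₀ * X ^ 2 + 2 * D₁₁ * (X * Y) + D₀₂ * Y ^ 2)) :
    Φ₂ * GA σ τ u z A B ^ 2 + (Φ₁ + G₀) * g * (dd A A + dd B B) +
      κ * G₀ * (X + om * Y) ^ 2 + (G₀ * L + D₀₁) / r z *
        (dd (sU σ z A - sU τ z B) (sU σ z A - sU τ z B) - dd h (sU σ z A - sU τ z B) ^ 2) -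
      2 * G₀ * |L₁| * dd h (sU σ z A - sU τ z B) ^ 2 -
      G₀ / (400000 * r z) * (dd (sU σ z A) (sU σ z A) + dd (sU τ z B) (sU τ z B)) ≤ T := by
  have hr := G.r0
  have ε0 := G.ε0
  obtain ⟨U, hU⟩ : ∃ U, U = sU σ z A := ⟨_, rfl⟩
  obtain ⟨V, hV⟩ : ∃ V, V = sU τ z B := ⟨_, rfl⟩
  have tr := G.Tr A B
  have tu := G.Tu A B
  have yr := GAr G A B
  have ub := GAu G A B
  have hA := (up_A (by linarith) (G.nx A)).1
  have hB := (up_A (by linarith) (G.ny B)).1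
  have hq := nn_hQ G.hh (sU σ z A) (sU τ z B)
  rw [← hU, ← hV] at *
  rw [← hY] at yr
  obtain ⟨s, hs⟩ : ∃ s, s = nn U + nn V := ⟨_, rfl⟩
  obtain ⟨w, hw⟩ : ∃ w, w = dd U U + dd V V := ⟨_, rfl⟩
  have s0 : 0 ≤ s := by rw [hs]; exact add_nonneg (nn_nonneg _) (nn_nonneg _)
  have w0 : 0 ≤ w := by rw [hw]; exact add_nonneg (dd_self_nonneg _) (dd_self_nonneg _)
  have sw : s ^ 2 ≤ 2 * w := by
    rw [hs, hw, ← nn_sq, ← nn_sq]; exact sum_sq
  have AB : dd A A + dd B B ≤ 4 * w := by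
    have h1 := pow_le_pow_left₀ (nn_nonneg A) hA 2
    have h2 := pow_le_pow_left₀ (nn_nonneg B) hB 2
    rw [mul_pow, nn_sq, nn_sq] at h1 h2
    rw [hw]; linarith
  rw [← hs] at yr ub hq
  obtain ⟨t, ht⟩ : ∃ t, t = dd h (U - V) := ⟨_, rfl⟩
  rw [← ht] at yr hq tr ⊢
  rw [← hw]
  obtain ⟨Q, hQ⟩ : ∃ Q, Q = dd (U - V) (U - V) := ⟨_, rfl⟩
  rw [← hQ] at tr ⊢
  -- `Y`
  have yb : |Y| ≤ 101 / 100 * s := by
    have h1 : |Y| ≤ |Y - t| + |t| := by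
      have := abs_add_le (Y - t) t
      rwa [sub_add_cancel] at this
    have : ε * s ≤ 1 / 100 * s := mul_le_mul_of_nonneg_right (by linarith) s0
    linarith
  have xb : |X| ≤ 4 * s := by
    rw [hX]
    have h1 : |L * Y| ≤ 21 / 10 * (101 / 100 * s) := by
      rw [abs_mul, abs_of_nonneg L0]
      exact mul_le_mul L2 yb (abs_nonneg _) (by norm_num)
    have h2 : (1 + ε) * s ≤ (1 + 1 / 100) * s := mul_le_mul_of_nonneg_right (by linarith) s0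
    have h3 := abs_add_le (GA σ τ u z A B) (L * Y)
    linarith
  have xy := num1 xb yb
  have y2 : Y ^ 2 ≤ 2 * t ^ 2 + w / 100000000 := by
    have h1 : Y ^ 2 ≤ 2 * (t ^ 2 + (Y - t) ^ 2) := by
      have := sum_sq (x := t) (y := Y - t)
      rwa [add_sub_cancel] at this
    have h2 : (Y - t) ^ 2 ≤ (ε * s) ^ 2 := by
      rw [← sq_abs]; exact pow_le_pow_left₀ (abs_nonneg _) yr 2
    have h3 : (ε * s) ^ 2 = ε * ε * s ^ 2 := by ring
    have h4 : ε * ε ≤ 1 / 10000000 * (1 / 10000000) :=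
      mul_le_mul hε hε ε0 (by norm_num)
    have h5 : ε * ε * s ^ 2 ≤ 1 / 10000000 * (1 / 10000000) * (2 * w) :=
      mul_le_mul h4 sw (sq_nonneg _) (by norm_num)
    linarith
  -- the parts
  have ri : 0 < (r z)⁻¹ := inv_pos.2 hr
  have p1 : (Φ₁ + G₀) * (g * (dd A A + dd B B)) ≤ (Φ₁ + G₀) * TH σ τ u z A B :=
    mul_le_mul_of_nonneg_left tu (by linarith)
  have p2 : (G₀ * L + D₀₁) * ((r z)⁻¹ * (Q - t ^ 2) - ε / r z * (4 * w)) ≤
      (G₀ * L + D₀₁) * TH σ τ r z A B := by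
    refine mul_le_mul_of_nonneg_left ?_ μ2
    have h1 := (abs_le.1 tr).1
    have h2 : ε / r z * (dd A A + dd B B) ≤ ε / r z * (4 * w) :=
      mul_le_mul_of_nonneg_left AB (div_nonneg ε0 hr.le)
    linarith
  have p3 : (G₀ * L + D₀₁) * (ε / r z * (4 * w)) ≤ G₀ * (r z)⁻¹ * (w * (1 / 1000000)) := by
    have h1 : G₀ * L + D₀₁ ≤ G₀ * (212 / 100) := by
      have := (abs_le.1 μ1).2
      have := mul_le_mul_of_nonneg_left L2 G0.le
      linarith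
    have h2 : (G₀ * L + D₀₁) * (ε / r z * (4 * w)) ≤ G₀ * (212 / 100) * (ε / r z * (4 * w)) :=
      mul_le_mul_of_nonneg_right h1 (by positivity)
    have h3 : G₀ * (212 / 100) * (ε / r z * (4 * w)) = G₀ * (r z)⁻¹ * w * (848 / 100 * ε) := by
      rw [div_eq_mul_inv]; ring
    have h4 : G₀ * (r z)⁻¹ * w * (848 / 100 * ε) ≤ G₀ * (r z)⁻¹ * w * (1 / 1000000) :=
      mul_le_mul_of_nonneg_left (by linarith) (by positivity)
    linarith
  have p4 : κ * G₀ * (X + om * Y) ^ 2 - G₀ * (r z)⁻¹ * (w * (1 / 1000000)) ≤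
      D₂₀ * X ^ 2 + 2 * D₁₁ * (X * Y) + D₀₂ * Y ^ 2 := by
    have h1 : D₂₀ * X ^ 2 + 2 * D₁₁ * (X * Y) + D₀₂ * Y ^ 2 = κ * G₀ * (X + om * Y) ^ 2 +
        (2 * (D₁₁ - κ * G₀ * om) * (X * Y) + (D₀₂ - κ * G₀ * om ^ 2) * Y ^ 2) := by
      rw [k20]; ring
    have h2 : |(D₁₁ - κ * G₀ * om) * (X * Y)| ≤ ε₁ * (G₀ / r z) * |X * Y| := by
      rw [abs_mul]; exact mul_le_mul_of_nonneg_right k11 (abs_nonneg _)
    have h3 : |(D₀₂ - κ * G₀ * om ^ 2) * Y ^ 2| ≤ ε₁ * (G₀ / r z) * Y ^ 2 := by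
      rw [abs_mul, abs_of_nonneg (sq_nonneg Y)]
      exact mul_le_mul_of_nonneg_right k02 (sq_nonneg _)
    have h4 : ε₁ * (G₀ / r z) * (2 * |X * Y| + Y ^ 2) ≤
        1 / 20000000 * (G₀ / r z) * (20 * w) := by
      refine mul_le_mul ?_ ?_ (by positivity) (by positivity)
      · exact mul_le_mul_of_nonneg_right hε₁ (by positivity)
      · refine xy.trans ?_
        have : 2 * (4 * s * (101 / 100 * s)) + (101 / 100 * s) ^ 2 = 91001 / 10000 * s ^ 2 := by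
          ring
        rw [this]
        linarith
    have h5 : 1 / 20000000 * (G₀ / r z) * (20 * w) = G₀ * (r z)⁻¹ * (w * (1 / 1000000)) := by
      rw [div_eq_mul_inv]; ring
    rw [h5] at h4
    rw [h1]
    have h2' := (abs_le.1 h2).1
    have h3' := (abs_le.1 h3).1
    linarith
  have p5 : -(2 * G₀ * |L₁| * t ^ 2) - G₀ * (r z)⁻¹ * (w * (1 / 100000000)) ≤
      G₀ * (L₁ * Y ^ 2) := by
    have h1 : -(|L₁| * Y ^ 2) ≤ L₁ * Y ^ 2 := by
      have := mul_le_mul_of_nonneg_right (neg_abs_le L₁) (sq_nonneg Y)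
      linarith
    have h2 : |L₁| * Y ^ 2 ≤ |L₁| * (2 * t ^ 2 + w / 100000000) :=
      mul_le_mul_of_nonneg_left y2 (abs_nonneg _)
    have h3 : |L₁| ≤ (r z)⁻¹ := by
      rw [← one_div, le_div_iff₀ hr]; exact r1
    have h4 : |L₁| * (w / 100000000) ≤ (r z)⁻¹ * (w / 100000000) :=
      mul_le_mul_of_nonneg_right h3 (by positivity)
    have h5 : -(|L₁| * (2 * t ^ 2) + (r z)⁻¹ * (w / 100000000)) ≤ L₁ * Y ^ 2 := by linarith
    have h6 := mul_le_mul_of_nonneg_left h5 G0.le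
    linarith
  have e1 : (G₀ * L + D₀₁) / r z * (Q - t ^ 2) = (G₀ * L + D₀₁) * ((r z)⁻¹ * (Q - t ^ 2)) := by
    rw [div_eq_mul_inv]; ring
  have e2 : G₀ / (400000 * r z) * w = G₀ * (r z)⁻¹ * (w * (1 / 400000)) := by
    field_simp
  rw [e1, e2, hT]
  have e3 : 0 ≤ G₀ * (r z)⁻¹ * w := by positivity
  linarith

end far

end Vale.Agent.P088.R2.H230.W
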