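import Vale.Agent.P088.R2.H230.W.CvF

/-!
# P088, stage 3: the certificate away from the diagonal in curved slots, final pointwise form
-/

open Set Filter
open scoped ContDiff Topology

noncomputable section

namespace Vale.Agent.P088.R2.H230.W

open Vale.Agent.P088.R2.H961.GW Vale.Agent.P088.R2.H960.W Vale.Agent.P088.R2.H644.Ch

variable {E ι : Type*} [NormedAddCommGroup E] [NormedSpace ℝ E] [Fintype ι]
variable {σ τ : Sl E ι} {u r W : E → ℝ} {e h A B : ι → ℝ} {z : E} {ε g : ℝ}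

lemma cf_eq {γ : ι → E → ℝ} {γz : ι → ℝ} (hγ : ∀ l, γ l z = γz l) :
    (fun l => cf σ e W γ l z) = fl e (gr σ W z) γz := by
  funext l
  unfold cf
  rw [show (fun j => γ j z) = γz from funext hγ]

lemma om_sum (G : Geo σ τ u r e h ε g z) {L om : ℝ} (L0 : 0 ≤ L) (L2 : L ≤ 21 / 10)
    (o1 : |om| ≤ 1 / 50) :
    nn ((1 / 2 : ℝ) • (gr σ u z + (L + om) • gr σ r z) +
      (1 / 2 : ℝ) • (gr τ u z + (L + om) • gr τ r z) - e) ≤ 4 * ε := by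
  have e1 : (1 / 2 : ℝ) • (gr σ u z + (L + om) • gr σ r z) +
      (1 / 2 : ℝ) • (gr τ u z + (L + om) • gr τ r z) - e =
      ((1 / 2 : ℝ) • (gr σ u z - e) + (1 / 2 : ℝ) • (gr τ u z - e)) +
      (((L + om) / 2) • (gr σ r z - h) + ((L + om) / 2) • (gr τ r z + h)) := by
    funext i
    simp only [Pi.add_apply, Pi.sub_apply, Pi.smul_apply, smul_eq_mul]
    ring
  have ε0 := G.ε0
  have ob := abs_le.1 o1
  have hc : |(L + om) / 2| ≤ 11 / 10 := by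
    rw [abs_le]; constructor <;> linarith
  have a1 : nn ((1 / 2 : ℝ) • (gr σ u z - e)) ≤ 1 / 2 * ε := by
    rw [nn_smul, abs_of_pos (by norm_num : (0:ℝ) < 1 / 2)]
    exact mul_le_mul_of_nonneg_left G.ux (by norm_num)
  have a2 : nn ((1 / 2 : ℝ) • (gr τ u z - e)) ≤ 1 / 2 * ε := by
    rw [nn_smul, abs_of_pos (by norm_num : (0:ℝ) < 1 / 2)]
    exact mul_le_mul_of_nonneg_left G.uy (by norm_num)
  have a3 : nn (((L + om) / 2) • (gr σ r z - h)) ≤ 11 / 10 * ε := by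
    rw [nn_smul]
    exact mul_le_mul hc G.rx (nn_nonneg _) (by norm_num)
  have a4 : nn (((L + om) / 2) • (gr τ r z + h)) ≤ 11 / 10 * ε := by
    rw [nn_smul]
    exact mul_le_mul hc G.ry (nn_nonneg _) (by norm_num)
  rw [e1]
  have b1 := nn_add_le ((1 / 2 : ℝ) • (gr σ u z - e)) ((1 / 2 : ℝ) • (gr τ u z - e))
  have b2 := nn_add_le (((L + om) / 2) • (gr σ r z - h)) (((L + om) / 2) • (gr τ r z + h))
  refine (nn_add_le _ _).trans ?_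
  linarith

lemma om_diff (G : Geo σ τ u r e h ε g z) (hε : ε ≤ 1 / 10000000) {L om : ℝ} (L0 : 0 ≤ L)
    (L2 : L ≤ 21 / 10) (o1 : |om| ≤ 1 / 50) :
    nn ((1 / 2 : ℝ) • (gr σ u z + (L + om) • gr σ r z) -
      (1 / 2 : ℝ) • (gr τ u z + (L + om) • gr τ r z) - (2 * (L / 2)) • h) ≤ 1 / 25 := by
  have e1 : (1 / 2 : ℝ) • (gr σ u z + (L + om) • gr σ r z) -
      (1 / 2 : ℝ) • (gr τ u z + (L + om) • gr τ r z) - (2 * (L / 2)) • h =
      ((1 / 2 : ℝ) • (gr σ u z - e) - (1 / 2 : ℝ) • (gr τ u z - e)) +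
      (((L + om) / 2) • (gr σ r z - h) - ((L + om) / 2) • (gr τ r z + h)) + om • h := by
    funext i
    simp only [Pi.add_apply, Pi.sub_apply, Pi.smul_apply, smul_eq_mul]
    ring
  have ob := abs_le.1 o1
  have hc : |(L + om) / 2| ≤ 11 / 10 := by
    rw [abs_le]; constructor <;> linarith
  have a1 : nn ((1 / 2 : ℝ) • (gr σ u z - e)) ≤ 1 / 2 * ε := by
    rw [nn_smul, abs_of_pos (by norm_num : (0:ℝ) < 1 / 2)]
    exact mul_le_mul_of_nonneg_left G.ux (by norm_num)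
  have a2 : nn ((1 / 2 : ℝ) • (gr τ u z - e)) ≤ 1 / 2 * ε := by
    rw [nn_smul, abs_of_pos (by norm_num : (0:ℝ) < 1 / 2)]
    exact mul_le_mul_of_nonneg_left G.uy (by norm_num)
  have a3 : nn (((L + om) / 2) • (gr σ r z - h)) ≤ 11 / 10 * ε := by
    rw [nn_smul]
    exact mul_le_mul hc G.rx (nn_nonneg _) (by norm_num)
  have a4 : nn (((L + om) / 2) • (gr τ r z + h)) ≤ 11 / 10 * ε := by
    rw [nn_smul]
    exact mul_le_mul hc G.ry (nn_nonneg _) (by norm_num)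
  have a5 : nn (om • h) ≤ 1 / 50 := by
    rw [nn_smul, nn_one G.hh, mul_one]; exact o1
  rw [e1]
  have b1 := nn_sub_le ((1 / 2 : ℝ) • (gr σ u z - e)) ((1 / 2 : ℝ) • (gr τ u z - e))
  have b2 := nn_sub_le (((L + om) / 2) • (gr σ r z - h)) (((L + om) / 2) • (gr τ r z + h))
  have b3 := nn_add_le ((1 / 2 : ℝ) • (gr σ u z - e) - (1 / 2 : ℝ) • (gr τ u z - e))
    (((L + om) / 2) • (gr σ r z - h) - ((L + om) / 2) • (gr τ r z + h))
  refine (nn_add_le _ _).trans ?_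
  linarith

lemma w_near {p a h e : ι → ℝ} {ν ℓ ε : ℝ} (hν : 0 ≤ ν) (hℓ : 0 ≤ ℓ) (hℓν : ℓ ≤ 22 / 10 * ν)
    (ε0 : 0 ≤ ε) (h1 : nn (a - e) ≤ ε) (h2 : nn (p - h) ≤ ε) :
    nn (ν • a + ℓ • p - (ν • e + ℓ • h)) ≤ 4 * ε * ν := by
  have e1 : ν • a + ℓ • p - (ν • e + ℓ • h) = ν • (a - e) + ℓ • (p - h) := by
    funext i
    simp only [Pi.add_apply, Pi.sub_apply, Pi.smul_apply, smul_eq_mul]
    ring
  rw [e1]
  refine (nn_add_le _ _).trans ?_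
  rw [nn_smul, nn_smul, abs_of_nonneg hν, abs_of_nonneg hℓ]
  have a1 := mul_le_mul_of_nonneg_left h1 hν
  have a2 := mul_le_mul_of_nonneg_left h2 hℓ
  have a3 := mul_le_mul_of_nonneg_right hℓν ε0
  have a4 := mul_nonneg ε0 hν
  linarith

/-- **The certificate for `W = Φ(u) + Ψ(f, r)`, `f = u + log S(r)`, away from the diagonal, in
curved slots.**  `G₀ = Ψ_f`, `D₀₁ = Ψ_r`, `D₂₀, D₁₁, D₀₂` the second derivatives of `Ψ`,
`L = S'/S`, `L₁ = L'`, `Φ₁ = Φ'(u)`, `Φ₂ = Φ''(u)`. -/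
theorem cert_far_at {G₀ D₀₁ D₂₀ D₁₁ D₀₂ Φ₁ Φ₂ L L₁ κ om ε₁ : ℝ} {γ γ' : ι → E → ℝ}
    (G : Geo σ τ u r e h ε g z)
    (hε : ε ≤ 1 / 10000000) (hε₁ : ε₁ ≤ 1 / 20000000)
    (G0 : 0 < G₀) (L1 : 4 / 5 ≤ L) (L2 : L ≤ 21 / 10) (o1 : |om| ≤ 1 / 50)
    (μ1 : |D₀₁| ≤ 1 / 50 * G₀) (hκ : 3 ≤ κ * r z)
    (k20 : D₂₀ = κ * G₀) (k11 : |D₁₁ - κ * G₀ * om| ≤ ε₁ * (G₀ / r z))
    (k02 : |D₀₂ - κ * G₀ * om ^ 2| ≤ ε₁ * (G₀ / r z)) (r1 : 400000 * (|L₁| * r z) ≤ 1)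
    (hr1 : 1 ≤ r z) (Φ0 : 0 ≤ Φ₁)
    (w1 : gr σ W z = (Φ₁ + G₀) • gr σ u z + (G₀ * L + D₀₁) • gr σ r z)
    (w2 : gr τ W z = (Φ₁ + G₀) • gr τ u z + (G₀ * L + D₀₁) • gr τ r z)
    (p1 : 0 < dd (gr σ W z) (gr σ W z)) (p2 : 0 < dd (gr τ W z) (gr τ W z))
    (q1 : 480000 * (ε * (Φ₁ + G₀)) ≤ nn (gr σ W z))
    (q2 : 480000 * (ε * (Φ₁ + G₀)) ≤ nn (gr τ W z))
    (hγ : ∀ l, γ l z = G₀ / (4000 * r z) * (22 / 5 * h l + e l))
    (hγ' : ∀ l, γ' l z = G₀ / (4000 * r z) * (-(22 / 5) * h l + e l))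
    (A B : ι → ℝ)
    (hT : TH σ τ W z A B = Φ₁ * TH σ τ u z A B + Φ₂ * GA σ τ u z A B ^ 2 +
      (G₀ * (TH σ τ u z A B + L * TH σ τ r z A B + L₁ * GA σ τ r z A B ^ 2) +
        D₀₁ * TH σ τ r z A B) +
      (D₂₀ * (GA σ τ u z A B + L * GA σ τ r z A B) ^ 2 +
        2 * D₁₁ * ((GA σ τ u z A B + L * GA σ τ r z A B) * GA σ τ r z A B) +
        D₀₂ * GA σ τ r z A B ^ 2)) :
    (G₀ / (100000 * r z) + (Φ₁ + G₀) * g) * (dd A A + dd B B) + Φ₂ * GA σ τ u z A B ^ 2 ≤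
      TH σ τ W z A B + tc σ (cf σ e W γ) W z A + tc τ (cf τ e W γ') W z B := by
  have hr := G.r0
  have ε0 := G.ε0
  have mb := abs_le.1 μ1
  have l1 : |L₁| * r z ≤ 1 := by
    have : 0 ≤ |L₁| * r z := mul_nonneg (abs_nonneg _) hr.le
    linarith
  have hL1 : |L₁| ≤ 1 := by
    have := mul_le_mul_of_nonneg_left hr1 (abs_nonneg L₁)
    linarith
  have μ2 : 0 ≤ G₀ * L + D₀₁ := by
    have := mul_le_mul_of_nonneg_left L1 G0.le
    linarith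
  have main := main_lb (Φ₂ := Φ₂) (T := TH σ τ W z A B) G hε hε₁ G0 (by linarith) L2 hL1 μ1 μ2
    k20 k11 k02 l1 Φ0 A B rfl rfl hT
  rw [tc_TM, tc_TM]
  obtain ⟨δ, hδ⟩ : ∃ δ, δ = G₀ / (4000 * r z) := ⟨_, rfl⟩
  have δ0 : 0 < δ := by rw [hδ]; positivity
  have hδr : δ * r z = G₀ / 4000 := by rw [hδ]; field_simp
  have c1 : (fun l => cf σ e W γ l z) =
      fl e (gr σ W z) ((4 * (11 / 10) * δ) • h + δ • e) := by
    refine cf_eq fun l => ?_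
    rw [hγ l, ← hδ]
    simp only [Pi.add_apply, Pi.smul_apply, smul_eq_mul]
    ring
  have c2 : (fun l => cf τ e W γ' l z) =
      fl e (gr τ W z) ((-(4 * (11 / 10) * δ)) • h + δ • e) := by
    refine cf_eq fun l => ?_
    rw [hγ' l, ← hδ]
    simp only [Pi.add_apply, Pi.smul_apply, smul_eq_mul]
    ring
  rw [c1, c2]
  have ν0 : 0 ≤ Φ₁ + G₀ := by linarith
  have εν : 0 ≤ ε * (Φ₁ + G₀) := mul_nonneg ε0 ν0
  have ℓν : G₀ * L + D₀₁ ≤ 22 / 10 * (Φ₁ + G₀) := by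
    have := mul_le_mul_of_nonneg_left L2 G0.le
    linarith
  have nw1 : nn (gr σ W z - ((Φ₁ + G₀) • e + (G₀ * L + D₀₁) • h)) ≤ 4 * ε * (Φ₁ + G₀) := by
    rw [w1]; exact w_near ν0 μ2 ℓν ε0 G.ux G.rx
  have nw2 : nn (gr τ W z - ((Φ₁ + G₀) • e - (G₀ * L + D₀₁) • h)) ≤ 4 * ε * (Φ₁ + G₀) := by
    have h3 : nn (gr τ r z - -h) ≤ ε := by rw [sub_neg_eq_add]; exact G.ry
    have := w_near ν0 μ2 ℓν ε0 G.uy h3
    rw [w2, sub_eq_add_neg ((Φ₁ + G₀) • e) ((G₀ * L + D₀₁) • h), ← smul_neg]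
    exact this
  have s4 : (G₀ * L + D₀₁) / r z = 4000 * (L * δ) + D₀₁ / r z := by
    have : G₀ = 4000 * (δ * r z) := by rw [hδr]; ring
    rw [add_div]
    congr 1
    rw [this]; field_simp
  have s5 : -(1 / 50 * (4000 * δ)) ≤ D₀₁ / r z := by
    rw [le_div_iff₀ hr]
    have : 1 / 50 * (4000 * δ) * r z = 1 / 50 * G₀ := by
      have : 1 / 50 * (4000 * δ) * r z = 1 / 50 * (4000 * (δ * r z)) := by ring
      rw [this, hδr]; ring
    linarith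
  have t1 : 1600 * (δ * (4 * (11 / 10) + 1) ^ 2) ≤ 4 * κ * G₀ := by
    have h1 : G₀ = 4000 * (δ * r z) := by rw [hδr]; ring
    have h2 : 3 * δ ≤ κ * r z * δ := mul_le_mul_of_nonneg_right hκ δ0.le
    have h3 : 4 * κ * G₀ = 16000 * (κ * r z * δ) := by rw [h1]; ring
    rw [h3]; linarith
  have t2 : 100 * (δ * (4 * (11 / 10) + 1) ^ 2) ≤ (G₀ * L + D₀₁) / r z := by
    rw [s4]
    have := mul_le_mul_of_nonneg_right L1 δ0.le
    linarith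
  have t3 : 50 * (2 * G₀ * |L₁|) ≤ δ := by
    have h1 : G₀ = 4000 * (δ * r z) := by rw [hδr]; ring
    have h2 : 50 * (2 * G₀ * |L₁|) = 400000 * (|L₁| * r z) * δ := by rw [h1]; ring
    rw [h2]
    have := mul_le_mul_of_nonneg_right r1 δ0.le
    linarith
  have hA := (up_A (by linarith) (G.nx A)).2
  have hB := (up_A (by linarith) (G.ny B)).2
  have hA' : nn (A - sU σ z A) ≤ 1 / 40000 * nn (sU σ z A) :=
    hA.trans (mul_le_mul_of_nonneg_right (by linarith) (nn_nonneg _))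
  have hB' : nn (B - sU τ z B) ≤ 1 / 40000 * nn (sU τ z B) :=
    hB.trans (mul_le_mul_of_nonneg_right (by linarith) (nn_nonneg _))
  have sq : 4 * κ * G₀ * (dd ((1 / 2 : ℝ) • (gr σ u z + (L + om) • gr σ r z)) (sU σ z A) +
      dd ((1 / 2 : ℝ) • (gr τ u z + (L + om) • gr τ r z)) (sU τ z B)) ^ 2 =
      κ * G₀ * (GA σ τ u z A B + L * GA σ τ r z A B + om * GA σ τ r z A B) ^ 2 := by
    rw [GA_dd G.sσ G.sτ, GA_dd G.sσ G.sτ]
    simp only [dd_smul_left, dd_add_left]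
    ring
  have fin := far_rob (ν₁ := Φ₁ + G₀) (ℓ₁ := G₀ * L + D₀₁) (ν₂ := Φ₁ + G₀) (ℓ₂ := G₀ * L + D₀₁)
    (L := L / 2) (Λ := 11 / 10) (κ := 4 * κ * G₀) (k := (G₀ * L + D₀₁) / r z)
    (m := 2 * G₀ * |L₁|) (δ := δ) (ε := 1 / 40000) (ε₀ := 4 * ε)
    (T := TH σ τ W z A B - Φ₂ * GA σ τ u z A B ^ 2 - (Φ₁ + G₀) * g * (dd A A + dd B B))
    (U := sU σ z A) (V := sU τ z B) (A := A) (B := B)
    G.ee G.hh (om_sum G (by linarith) L2 o1) (om_diff G hε (by linarith) L2 o1)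
    (by linarith) (by norm_num) (by linarith) (by linarith) δ0 t1 t2 t3 μ2 μ2
    (by linarith) (by linarith) p1 p2 (by linarith) (by linarith) hA' hB' (by
      rw [sq]
      have h1 : δ / 100 = G₀ / (400000 * r z) := by rw [hδ]; field_simp; norm_num
      rw [h1]
      linarith)
  have h2 : δ / 25 = G₀ / (100000 * r z) := by rw [hδ]; field_simp; norm_num
  rw [h2] at fin
  linarith

end Vale.Agent.P088.R2.H230.W
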