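import Vale.Agent.P088.R2.H230.W.CvG

/-!
# P088, stage 3: the certificate away from the diagonal, for the composed weight

`W = Φ(u) + Ψ(u + S(r), r)`: gradients and Hessian form in slots and the certificate.
-/

open Set Filter
open scoped ContDiff Topology

noncomputable section

namespace Vale.Agent.P088.R2.H230.W

open Vale.Agent.P088.R2.H961.GW Vale.Agent.P088.R2.H960.W Vale.Agent.P088.R2.H644.Ch

variable {E ι κ : Type*} [NormedAddCommGroup E] [NormedSpace ℝ E] [Fintype ι] [Fintype κ]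

/-- The weight `Φ(u) + Ψ(u + S(r), r)`. -/
def wt (Φ S : ℝ → ℝ) (D : ℕ → ℕ → ℝ → ℝ → ℝ) (u r : E → ℝ) (z : E) : ℝ :=
  Φ (u z) + D 0 0 (u z + S (r z)) (r z)

/-- The data of the weight. -/
structure Wd (U : Set E) (Φ Φ₁ Φ₂ S S₁ S₂ : ℝ → ℝ) (D : ℕ → ℕ → ℝ → ℝ → ℝ) (u r : E → ℝ) :
    Prop where
  cu : Cp U u Φ Φ₁ Φ₂
  cr : Cp U r S S₁ S₂
  cD : Cp2 U (fun z => u z + S (r z)) r D

section pw

variable {σ : Sl E ι} {τ : Sl E κ} {U : Set E} {θ θ' : E → ℝ} {u r : E → ℝ}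
  {Φ Φ₁ Φ₂ S S₁ S₂ : ℝ → ℝ} {D : ℕ → ℕ → ℝ → ℝ → ℝ} {z : E}

theorem Wd.sm (w : Wd U Φ Φ₁ Φ₂ S S₁ S₂ D u r) : Sm U (wt Φ S D u r) := w.cu.s0.add w.cD.s00

theorem D_f (ok : σ.Ok U θ) (w : Wd U Φ Φ₁ Φ₂ S S₁ S₂ D u r) (hz : z ∈ U) (i : ι) :
    σ.D i (fun z => u z + S (r z)) z = σ.D i u z + S₁ (r z) * σ.D i r z := by
  rw [D_add σ ok.op w.cu.su w.cr.s0 i hz, D_comp ok.op w.cr i hz]

theorem D_wt (ok : σ.Ok U θ) (w : Wd U Φ Φ₁ Φ₂ S S₁ S₂ D u r) (hz : z ∈ U) (i : ι) :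
    σ.D i (wt Φ S D u r) z =
      (Φ₁ (u z) + D 1 0 (u z + S (r z)) (r z)) * σ.D i u z +
      (D 1 0 (u z + S (r z)) (r z) * S₁ (r z) + D 0 1 (u z + S (r z)) (r z)) * σ.D i r z := by
  have e : σ.D i (wt Φ S D u r) z = σ.D i (fun z => Φ (u z)) z +
      σ.D i (fun z => D 0 0 (u z + S (r z)) (r z)) z :=
    D_add σ ok.op w.cu.s0 w.cD.s00 i hz
  rw [e, D_comp ok.op w.cu i hz, D_comp2 ok.op w.cD (p := 0) (q := 0) (by norm_num) i hz,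
    D_f ok w hz i]
  ring

theorem gr_wt (ok : σ.Ok U θ) (w : Wd U Φ Φ₁ Φ₂ S S₁ S₂ D u r) (hz : z ∈ U) :
    gr σ (wt Φ S D u r) z =
      (Φ₁ (u z) + D 1 0 (u z + S (r z)) (r z)) • gr σ u z +
      (D 1 0 (u z + S (r z)) (r z) * S₁ (r z) + D 0 1 (u z + S (r z)) (r z)) • gr σ r z := by
  funext i
  simp only [gr, Pi.add_apply, Pi.smul_apply, smul_eq_mul]
  exact D_wt ok w hz i

theorem TH_wt (ok : σ.Ok U θ) (ot : τ.Ok U θ') (w : Wd U Φ Φ₁ Φ₂ S S₁ S₂ D u r) (hz : z ∈ U)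
    (A : ι → ℝ) (B : κ → ℝ) : TH σ τ (wt Φ S D u r) z A B =
      Φ₁ (u z) * TH σ τ u z A B + Φ₂ (u z) * GA σ τ u z A B ^ 2 +
      (D 1 0 (u z + S (r z)) (r z) * (TH σ τ u z A B + S₁ (r z) * TH σ τ r z A B +
        S₂ (r z) * GA σ τ r z A B ^ 2) +
        D 0 1 (u z + S (r z)) (r z) * TH σ τ r z A B) +
      (D 2 0 (u z + S (r z)) (r z) * (GA σ τ u z A B + S₁ (r z) * GA σ τ r z A B) ^ 2 +
        2 * D 1 1 (u z + S (r z)) (r z) *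
          ((GA σ τ u z A B + S₁ (r z) * GA σ τ r z A B) * GA σ τ r z A B) +
        D 0 2 (u z + S (r z)) (r z) * GA σ τ r z A B ^ 2) := by
  have e : TH σ τ (wt Φ S D u r) z A B = TH σ τ (fun z => Φ (u z)) z A B +
      TH σ τ (fun z => D 0 0 (u z + S (r z)) (r z)) z A B :=
    TH_add ok ot w.cu.s0 w.cD.s00 hz A B
  have ef : TH σ τ (fun z => u z + S (r z)) z A B = TH σ τ u z A B +
      (S₁ (r z) * TH σ τ r z A B + S₂ (r z) * GA σ τ r z A B ^ 2) := by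
    rw [TH_add ok ot w.cu.su w.cr.s0 hz, TH_comp ok ot w.cr hz]
  have gf : GA σ τ (fun z => u z + S (r z)) z A B = GA σ τ u z A B +
      S₁ (r z) * GA σ τ r z A B := by
    rw [GA_add ok ot w.cu.su w.cr.s0 hz, GA_comp ok ot w.cr hz]
  rw [e, TH_comp ok ot w.cu hz, TH_comp2 ok ot w.cD hz, ef, gf]
  ring

end pw

section cert

variable {σ τ : Sl E ι} {U : Set E} {θ θ' : E → ℝ} {u r : E → ℝ} {e h A B : ι → ℝ} {z : E}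
  {ε g : ℝ} {Φ Φ₁ Φ₂ S S₁ S₂ : ℝ → ℝ} {D : ℕ → ℕ → ℝ → ℝ → ℝ}

/-- The fields away from the diagonal: `γ = D₁₀/(4000 r) (± 22/5 h + e)`. -/
def gF (D : ℕ → ℕ → ℝ → ℝ → ℝ) (S : ℝ → ℝ) (u r : E → ℝ) (e : ι → ℝ) (h : ι → E → ℝ) (s : ℝ)
    (l : ι) (z : E) : ℝ :=
  D 1 0 (u z + S (r z)) (r z) / (4000 * r z) * (s * h l z + e l)

/-- **The certificate away from the diagonal for the composed weight.** -/
theorem cert_far_wt {h : ι → E → ℝ} {κ om ε₁ : ℝ} (ok : σ.Ok U θ) (ot : τ.Ok U θ')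
    (w : Wd U Φ Φ₁ Φ₂ S S₁ S₂ D u r) (hz : z ∈ U)
    (G : Geo σ τ u r e (fun l => h l z) ε g z) (hε : ε ≤ 1 / 10000000) (hε₁ : ε₁ ≤ 1 / 20000000)
    (G0 : 0 < D 1 0 (u z + S (r z)) (r z)) (L1 : 4 / 5 ≤ S₁ (r z)) (L2 : S₁ (r z) ≤ 21 / 10)
    (o1 : |om| ≤ 1 / 50)
    (μ1 : |D 0 1 (u z + S (r z)) (r z)| ≤ 1 / 50 * D 1 0 (u z + S (r z)) (r z))
    (hκ : 3 ≤ κ * r z)
    (k20 : D 2 0 (u z + S (r z)) (r z) = κ * D 1 0 (u z + S (r z)) (r z))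
    (k11 : |D 1 1 (u z + S (r z)) (r z) - κ * D 1 0 (u z + S (r z)) (r z) * om| ≤
      ε₁ * (D 1 0 (u z + S (r z)) (r z) / r z))
    (k02 : |D 0 2 (u z + S (r z)) (r z) - κ * D 1 0 (u z + S (r z)) (r z) * om ^ 2| ≤
      ε₁ * (D 1 0 (u z + S (r z)) (r z) / r z))
    (r1 : 400000 * (|S₂ (r z)| * r z) ≤ 1) (hr1 : 1 ≤ r z) (Φ0 : 0 ≤ Φ₁ (u z))
    (p1 : 0 < dd (gr σ (wt Φ S D u r) z) (gr σ (wt Φ S D u r) z))
    (p2 : 0 < dd (gr τ (wt Φ S D u r) z) (gr τ (wt Φ S D u r) z))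
    (q1 : 480000 * (ε * (Φ₁ (u z) + D 1 0 (u z + S (r z)) (r z))) ≤
      nn (gr σ (wt Φ S D u r) z))
    (q2 : 480000 * (ε * (Φ₁ (u z) + D 1 0 (u z + S (r z)) (r z))) ≤
      nn (gr τ (wt Φ S D u r) z))
    (A B : ι → ℝ) :
    (D 1 0 (u z + S (r z)) (r z) / (100000 * r z) +
        (Φ₁ (u z) + D 1 0 (u z + S (r z)) (r z)) * g) * (dd A A + dd B B) +
      Φ₂ (u z) * GA σ τ u z A B ^ 2 ≤
      TH σ τ (wt Φ S D u r) z A B +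
      tc σ (cf σ e (wt Φ S D u r) (gF D S u r e h (22 / 5))) (wt Φ S D u r) z A +
      tc τ (cf τ e (wt Φ S D u r) (gF D S u r e h (-(22 / 5)))) (wt Φ S D u r) z B :=
  cert_far_at G hε hε₁ G0 L1 L2 o1 μ1 hκ k20 k11 k02 r1 hr1 Φ0 (gr_wt ok w hz) (gr_wt ot w hz)
    p1 p2 q1 q2 (fun _ => rfl) (fun _ => rfl) A B (TH_wt ok ot w hz A B)

end cert

end Vale.Agent.P088.R2.H230.W
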