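import Vale.Agent.P088.R2.H230.W.Far5

/-!
# P088, stage 3: the robust certificate away from the diagonal, small slopes allowed
-/

noncomputable section

namespace Vale.Agent.P088.R2.H230.W

variable {ι : Type*} [Fintype ι]

/-- The normal form of the two covectors of the stiff direction. -/
lemma rob_dir5 {e h φ₁ φ₂ : ι → ℝ} {L Λ ε₀ ℓ₀ : ℝ}
    (he : dd e e = 1) (hh : dd h h = 1) (h0 : 0 < ℓ₀)
    (hφs : nn (φ₁ + φ₂ - e) ≤ ε₀) (hφd : nn (φ₁ - φ₂ - (2 * L) • h) ≤ ℓ₀ / 8)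
    (hε₀s : ε₀ ≤ 1 / 800) (hL : 5 / 4 * ℓ₀ ≤ L) (hΛ : L + 1 / (8 * ℓ₀) ≤ Λ) :
    ∃ (l L' : ℝ) (e' g : ι → ℝ), 0 < l ∧ 1 - ε₀ ≤ l ∧ dd e' e' = 1 ∧ nn (e - e') ≤ 2 * ε₀ ∧
      dd h g = 0 ∧ 2 * dd g g ≤ ℓ₀ ^ 2 ∧ ℓ₀ ≤ L' ∧ L' / 2 + 1 / (8 * ℓ₀) ≤ Λ ∧
      l⁻¹ • φ₁ + l⁻¹ • φ₂ = e' ∧
      l⁻¹ • φ₁ - l⁻¹ • φ₂ = (2 * L') • h + (2 : ℝ) • g := by
  have n_e := nn_one he
  have n_h := nn_one hh
  obtain ⟨l, hl⟩ : ∃ l : ℝ, l = nn (φ₁ + φ₂) := ⟨_, rfl⟩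
  have hl1a : |l - 1| ≤ ε₀ := by
    have := abs_nn_sub_le (φ₁ + φ₂) e
    rw [n_e, ← hl] at this
    exact this.trans hφs
  have hla := abs_le.1 hl1a
  have hl0 : 0 < l := by linarith
  obtain ⟨e', he'⟩ : ∃ e' : ι → ℝ, e' = l⁻¹ • (φ₁ + φ₂) := ⟨_, rfl⟩
  have hse : φ₁ + φ₂ = l • e' := by
    rw [he', smul_smul, mul_inv_cancel₀ hl0.ne', one_smul]
  have hsum : l⁻¹ • φ₁ + l⁻¹ • φ₂ = e' := by rw [he', smul_add]
  have hee' : dd e' e' = 1 := by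
    rw [he', dd_smul_left, dd_smul_right, ← nn_mul_self, ← hl]
    field_simp
  have n_e' := nn_one hee'
  have hde : nn (e - e') ≤ 2 * ε₀ := by
    have e1 : e - e' = -(φ₁ + φ₂ - e) + (l - 1) • e' := by
      rw [hse]; funext i
      simp only [Pi.add_apply, Pi.sub_apply, Pi.neg_apply, Pi.smul_apply, smul_eq_mul]
      ring
    rw [e1]
    refine (nn_add_le _ _).trans ?_
    rw [nn_neg, nn_smul, n_e']
    linarith
  obtain ⟨ρ, hρ⟩ : ∃ ρ : ι → ℝ, ρ = φ₁ - φ₂ - (2 * L) • h := ⟨_, rfl⟩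
  rw [← hρ] at hφd
  obtain ⟨x, hx⟩ : ∃ x : ℝ, x = dd h ρ := ⟨_, rfl⟩
  have hxa : |x| ≤ ℓ₀ / 8 := by
    have := dd_le_nn h ρ
    rw [n_h, one_mul, ← hx] at this
    exact this.trans hφd
  have hxb := abs_le.1 hxa
  have hlu : l ≤ 801 / 800 := by linarith
  have hll : 799 / 800 ≤ l := by linarith
  have L'lo : ℓ₀ ≤ (L + x / 2) / l := by
    rw [le_div_iff₀ hl0]
    have := mul_le_mul_of_nonneg_left hlu h0.le
    linarith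
  have L'hi : (L + x / 2) / l / 2 ≤ L := by
    rw [div_div, div_le_iff₀ (by positivity)]
    have := mul_le_mul_of_nonneg_left hll (by linarith : (0:ℝ) ≤ L)
    linarith
  refine ⟨l, (L + x / 2) / l, e', (2 * l)⁻¹ • (ρ - x • h), hl0, by linarith, hee', hde, ?_, ?_,
    L'lo, by linarith, hsum, ?_⟩
  · rw [dd_smul_right, dd_sub_right, dd_smul_right, hh, ← hx]; ring
  · have e1 : dd (ρ - x • h) (ρ - x • h) = dd ρ ρ - x ^ 2 := by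
      rw [dd_sub_left, dd_sub_right, dd_sub_right]
      simp only [dd_smul_left, dd_smul_right, hh, dd_comm ρ h, ← hx]
      ring
    have e2 : dd ρ ρ ≤ (ℓ₀ / 8) ^ 2 := by
      have := pow_le_pow_left₀ (nn_nonneg ρ) hφd 2
      rw [nn_sq] at this
      exact this
    have e3 : dd ((2 * l)⁻¹ • (ρ - x • h)) ((2 * l)⁻¹ • (ρ - x • h)) =
        ((2 * l)⁻¹) ^ 2 * dd (ρ - x • h) (ρ - x • h) := by
      rw [dd_smul_left, dd_smul_right]; ring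
    have e4 : (2 * l)⁻¹ ≤ 1 := inv_le_one_of_one_le₀ (by linarith)
    have e5 : ((2 * l)⁻¹) ^ 2 ≤ 1 := pow_le_one₀ (by positivity) e4
    have e6 : 0 ≤ dd (ρ - x • h) (ρ - x • h) := dd_self_nonneg _
    have e7 : dd (ρ - x • h) (ρ - x • h) ≤ (ℓ₀ / 8) ^ 2 := by
      rw [e1]; linarith [sq_nonneg x]
    rw [e3]
    have e8 : ((2 * l)⁻¹) ^ 2 * dd (ρ - x • h) (ρ - x • h) ≤ 1 * (ℓ₀ / 8) ^ 2 :=
      mul_le_mul e5 e7 e6 (by norm_num)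
    have e9 : (ℓ₀ / 8) ^ 2 = ℓ₀ ^ 2 / 64 := by ring
    rw [e9] at e8
    have := sq_nonneg ℓ₀
    linarith
  · have e1 : φ₁ - φ₂ = (2 * L) • h + ρ := by rw [hρ]; abel
    have e2 : l⁻¹ • φ₁ - l⁻¹ • φ₂ = l⁻¹ • (φ₁ - φ₂) := by rw [smul_sub]
    rw [e2, e1]
    funext i
    simp only [Pi.add_apply, Pi.sub_apply, Pi.smul_apply, smul_eq_mul]
    field_simp
    ring

/-- **The robust certificate away from the diagonal, small slopes allowed.**  `U`, `V` are the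
raised vectors of the covectors `A`, `B`; `φ₁`, `φ₂` the covectors of the stiff direction; `w₁`,
`w₂` the gradients of the weight; `T` the value of the form of the second derivatives. -/
theorem far_rob5 {e h φ₁ φ₂ w₁ w₂ U V A B : ι → ℝ} {ν₁ ℓ₁ ν₂ ℓ₂ L Λ κ k m δ ε ε₀ ℓ₀ T : ℝ}
    (he : dd e e = 1) (hh : dd h h = 1) (h0 : 0 < ℓ₀)
    (hφs : nn (φ₁ + φ₂ - e) ≤ ε₀) (hφd : nn (φ₁ - φ₂ - (2 * L) • h) ≤ ℓ₀ / 8)
    (hε₀ : 2 * ε₀ ≤ ε) (hε : 3200 * (ε * (4 * Λ + 1)) ≤ 1) (hε1 : 400 * ε ≤ 1)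
    (hL : 5 / 4 * ℓ₀ ≤ L) (hΛ : L + 1 / (8 * ℓ₀) ≤ Λ) (hδ : 0 < δ)
    (hδ1 : 7 * (δ * (4 * Λ + 1) ^ 2) ≤ κ * ℓ₀ ^ 2) (hδ2 : 6 * (δ * (4 * Λ + 1) ^ 2) ≤ k)
    (hm : 50 * m ≤ δ)
    (hl1 : 0 ≤ ℓ₁) (hl2 : 0 ≤ ℓ₂) (hl1' : ℓ₁ ≤ 2 * Λ * ν₁) (hl2' : ℓ₂ ≤ 2 * Λ * ν₂)
    (hw₁ : 0 < dd w₁ w₁) (hw₂ : 0 < dd w₂ w₂)
    (h₁ : nn (w₁ - (ν₁ • e + ℓ₁ • h)) + 2 * ε₀ * ν₁ ≤ ε * nn w₁)
    (h₂ : nn (w₂ - (ν₂ • e - ℓ₂ • h)) + 2 * ε₀ * ν₂ ≤ ε * nn w₂)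
    (hA : nn (A - U) ≤ ε * nn U) (hB : nn (B - V) ≤ ε * nn V)
    (hT : κ * (dd φ₁ U + dd φ₂ V) ^ 2 + (k * (dd (U - V) (U - V) - dd h (U - V) ^ 2)
      - m * dd h (U - V) ^ 2) - δ / 50 * (dd U U + dd V V) ≤ T) :
    δ / 11 * (dd A A + dd B B) ≤
      T + TM (fl e w₁ ((4 * Λ * δ) • h + δ • e)) w₁ A U
        + TM (fl e w₂ ((-(4 * Λ * δ)) • h + δ • e)) w₂ B V := by
  have hε₀' : 0 ≤ ε₀ := (nn_nonneg _).trans hφs
  have hε' : 0 ≤ ε := by linarith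
  have i0 : 0 < 1 / (8 * ℓ₀) := by positivity
  have hL0 : 0 < L := by linarith
  have hΛ0 : 0 < Λ := by linarith
  have n_e := nn_one he
  have n_h := nn_one hh
  have hε₀s : ε₀ ≤ 1 / 800 := by linarith
  have hν1 : 0 ≤ ν₁ := by
    by_contra hneg
    have := mul_pos hΛ0 (neg_pos.2 (not_le.1 hneg))
    linarith
  have hν2 : 0 ≤ ν₂ := by
    by_contra hneg
    have := mul_pos hΛ0 (neg_pos.2 (not_le.1 hneg))
    linarith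
  obtain ⟨l, L', e', g, hl0, hl1b, hee', hde, hhg, hgg, hL8, hL'Λ, hsum, hdiff⟩ :=
    rob_dir5 he hh h0 hφs hφd hε₀s hL hΛ
  have n_e' := nn_one hee'
  have b1 := rob_w1 hν1 hde h₁
  have b2 := rob_w2 hν2 hde h₂
  have p1 := pos_of_near hw₁ (by linarith) b1
  have p2 := pos_of_near hw₂ (by linarith) b2
  have hD0 : 0 < δ * (4 * Λ + 1) ^ 2 := by positivity
  have hκ0 : 0 < κ := by
    by_contra hneg
    have h3 : κ * ℓ₀ ^ 2 ≤ 0 := mul_nonpos_of_nonpos_of_nonneg (not_lt.1 hneg) (sq_nonneg _)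
    linarith
  have hl2 : (15 / 16 : ℝ) ≤ l ^ 2 := by
    have h3 : (1 - ε₀) ^ 2 ≤ l ^ 2 := pow_le_pow_left₀ (by linarith) hl1b 2
    have h4 := sq_nonneg ε₀
    linarith [show (1 - ε₀) ^ 2 = 1 - 2 * ε₀ + ε₀ ^ 2 by ring]
  have hκ' : 6 * (δ * (4 * Λ + 1) ^ 2) ≤ κ * l ^ 2 * ℓ₀ ^ 2 := by
    have h4 : κ * ℓ₀ ^ 2 * (15 / 16) ≤ κ * ℓ₀ ^ 2 * l ^ 2 :=
      mul_le_mul_of_nonneg_left hl2 (by positivity)
    have h5 : κ * l ^ 2 * ℓ₀ ^ 2 = κ * ℓ₀ ^ 2 * l ^ 2 := by ring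
    rw [h5]; linarith
  have cert := far_cert5 hee' hh hhg h0 hgg hL8 hL'Λ hδ hκ' hδ2 hm hl1 (by assumption) hl1'
    hl2' p1 p2 _ _ hsum hdiff U V
  have sqe : κ * l ^ 2 * (dd (l⁻¹ • φ₁) U + dd (l⁻¹ • φ₂) V) ^ 2 =
      κ * (dd φ₁ U + dd φ₂ V) ^ 2 := by
    simp only [dd_smul_left]
    field_simp
  rw [sqe] at cert
  have hUU := dd_self_nonneg U
  have hVV := dd_self_nonneg V
  have cg : ∀ (a : ℝ) (w U : ι → ℝ), 0 < dd w w →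
      TT (fl e' w (a • h + δ • e')) w U ≤ TT (fl e' w (a • h + δ • e)) w U +
        δ / 400 * dd U U := by
    intro a w U hw
    have gch : nn ((a • h + δ • e) - (a • h + δ • e')) ≤ δ / 400 := by
      have e1 : (a • h + δ • e) - (a • h + δ • e') = δ • (e - e') := by
        funext i
        simp only [Pi.add_apply, Pi.sub_apply, Pi.smul_apply, smul_eq_mul]
        ring
      rw [e1, nn_smul, abs_of_pos hδ]
      have h3 : nn (e - e') ≤ 1 / 400 := by linarith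
      have := mul_le_mul_of_nonneg_left h3 hδ.le
      linarith
    have c1 := TT_fl_g (e := e') (γ := a • h + δ • e) (γ' := a • h + δ • e') (U := U) hw
    rw [n_e', one_mul] at c1
    have c1' := (abs_le.1 c1).1
    have d1 := mul_le_mul_of_nonneg_right gch (dd_self_nonneg U)
    linarith
  have c1 := cg (4 * Λ * δ) _ U p1
  have c2 := cg (-(4 * Λ * δ)) _ V p2
  have cert2 : δ * (3 / 25) * (dd U U + dd V V) ≤
      (κ * (dd φ₁ U + dd φ₂ V) ^ 2 + (k * (dd (U - V) (U - V) - dd h (U - V) ^ 2)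
        - m * dd h (U - V) ^ 2))
      + TT (fl e' (v1 e' h ν₁ ℓ₁) ((4 * Λ * δ) • h + δ • e)) (v1 e' h ν₁ ℓ₁) U
      + TT (fl e' (v2 e' h ν₂ ℓ₂) ((-(4 * Λ * δ)) • h + δ • e)) (v2 e' h ν₂ ℓ₂) V := by
    have := mul_nonneg hδ.le hUU
    have := mul_nonneg hδ.le hVV
    linarith
  have hΛδ : 0 ≤ 4 * Λ * δ := by positivity
  have z1 := rob_sz (a := 4 * Λ * δ) n_e n_h hδ (abs_of_nonneg hΛδ) rfl
  have z2 := rob_sz (a := -(4 * Λ * δ)) n_e n_h hδ (by rw [abs_neg, abs_of_nonneg hΛδ]) rfl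
  have hy : ∀ y : ℝ, y ≤ δ * (4 * Λ + 1) → 48 * (8 * (ε * y)) ≤ δ * (3 / 25) := by
    intro y hy
    have h3 := mul_le_mul_of_nonneg_left hy hε'
    have h4 := mul_le_mul_of_nonneg_left hε hδ.le
    linarith
  have hT' : (κ * (dd φ₁ U + dd φ₂ V) ^ 2 + (k * (dd (U - V) (U - V) - dd h (U - V) ^ 2)
        - m * dd h (U - V) ^ 2)) - δ * (3 / 25) / 6 * (dd U U + dd V V) ≤ T := by
    linarith
  have fin := pert n_e'.le n_e.le (hde.trans hε₀) hw₁ p1 hw₂ p2 b1 b2 hA hB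
    (by positivity : 0 ≤ δ * (3 / 25)) (hy _ z1) (hy _ z2) (by linarith)
    cert2 hT'
  have hAA := mul_nonneg hδ.le (dd_self_nonneg A)
  have hBB := mul_nonneg hδ.le (dd_self_nonneg B)
  linarith

end Vale.Agent.P088.R2.H230.W
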