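import Vale.Agent.P088.R2.H230.W.CvH
import Vale.Agent.P088.R2.H230.W.Rob5

/-!
# P088, stage 3: the certificate away from the diagonal in curved slots, slopes in `[1/10, 21/10]`

The final version: `W = Φ(u) + Ψ(u + S(r), r)`, `1/10 ≤ S' ≤ 21/10`, fields
`γ = Ψ_f/(300000 r) (± 20 h + e)`.
-/

open Set Filter
open scoped ContDiff Topology

noncomputable section

namespace Vale.Agent.P088.R2.H230.W

open Vale.Agent.P088.R2.H961.GW Vale.Agent.P088.R2.H960.W Vale.Agent.P088.R2.H644.Ch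

variable {E ι : Type*} [NormedAddCommGroup E] [NormedSpace ℝ E] [Fintype ι]
variable {σ τ : Sl E ι} {u r W : E → ℝ} {e h A B : ι → ℝ} {z : E} {ε g : ℝ}

section far

/-- The lower bound of the main part. -/
lemma main_lb5 {G₀ D₀₁ D₂₀ D₁₁ D₀₂ Φ₁ Φ₂ L L₁ κ om ε₁ : ℝ} (G : Geo σ τ u r e h ε g z)
    (hε : ε ≤ 1 / 1000000000) (hε₁ : ε₁ ≤ 1 / 1000000000)
    (G0 : 0 < G₀) (L0 : 0 ≤ L) (L2 : L ≤ 21 / 10) (hL1 : |L₁| ≤ 1)
    (μ1 : |D₀₁| ≤ 1 / 50 * G₀) (μ2 : 0 ≤ G₀ * L + D₀₁)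
    (k20 : D₂₀ = κ * G₀) (k11 : |D₁₁ - κ * G₀ * om| ≤ ε₁ * (G₀ / r z))
    (k02 : |D₀₂ - κ * G₀ * om ^ 2| ≤ ε₁ * (G₀ / r z)) (r1 : |L₁| * r z ≤ 1)
    (Φ0 : 0 ≤ Φ₁)
    (A B : ι → ℝ) {T X Y : ℝ} (hY : Y = GA σ τ r z A B) (hX : X = GA σ τ u z A B + L * Y)
    (hT : T = Φ₁ * TH σ τ u z A B + Φ₂ * GA σ τ u z A B ^ 2 +
      (G₀ * (TH σ τ u z A B + L * TH σ τ r z A B + L₁ * Y ^ 2) + D₀₁ * TH σ τ r z A B) +
      (D₂₀ * X ^ 2 + 2 * D₁₁ * (X * Y) + D₀₂ * Y ^ 2)) :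
    Φ₂ * GA σ τ u z A B ^ 2 + (Φ₁ + G₀) * g * (dd A A + dd B B) +
      κ * G₀ * (X + om * Y) ^ 2 + (G₀ * L + D₀₁) / r z *
        (dd (sU σ z A - sU τ z B) (sU σ z A - sU τ z B) - dd h (sU σ z A - sU τ z B) ^ 2) -
      2 * G₀ * |L₁| * dd h (sU σ z A - sU τ z B) ^ 2 -
      G₀ / (15000000 * r z) * (dd (sU σ z A) (sU σ z A) + dd (sU τ z B) (sU τ z B)) ≤ T := by
  have hr := G.r0
  have ε0 := G.ε0
  obtain ⟨U, hU⟩ : ∃ U, U = sU σ z A := ⟨_, rfl⟩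
  obtain ⟨V, hV⟩ : ∃ V, V = sU τ z B := ⟨_, rfl⟩
  have tr := G.Tr A B
  have tu := G.Tu A B
  have yr := GAr G A B
  have ub := GAu G A B
  have hA := (up_A (by linarith) (G.nx A)).1
  have hB := (up_A (by linarith) (G.ny B)).1
  have hq := nn_hQ G.hh (sU σ z A) (sU τ z B)
  rw [← hU, ← hV] at *
  rw [← hY] at yr
  obtain ⟨s, hs⟩ : ∃ s, s = nn U + nn V := ⟨_, rfl⟩
  obtain ⟨w, hw⟩ : ∃ w, w = dd U U + dd V V := ⟨_, rfl⟩
  have s0 : 0 ≤ s := by rw [hs]; exact add_nonneg (nn_nonneg _) (nn_nonneg _)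
  have w0 : 0 ≤ w := by rw [hw]; exact add_nonneg (dd_self_nonneg _) (dd_self_nonneg _)
  have sw : s ^ 2 ≤ 2 * w := by
    rw [hs, hw, ← nn_sq, ← nn_sq]; exact sum_sq
  have AB : dd A A + dd B B ≤ 4 * w := by
    have h1 := pow_le_pow_left₀ (nn_nonneg A) hA 2
    have h2 := pow_le_pow_left₀ (nn_nonneg B) hB 2
    rw [mul_pow, nn_sq, nn_sq] at h1 h2
    rw [hw]; linarith
  rw [← hs] at yr ub hq
  obtain ⟨t, ht⟩ : ∃ t, t = dd h (U - V) := ⟨_, rfl⟩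
  rw [← ht] at yr hq tr ⊢
  rw [← hw]
  obtain ⟨Q, hQ⟩ : ∃ Q, Q = dd (U - V) (U - V) := ⟨_, rfl⟩
  rw [← hQ] at tr ⊢
  -- `Y`
  have yb : |Y| ≤ 101 / 100 * s := by
    have h1 : |Y| ≤ |Y - t| + |t| := by
      have := abs_add_le (Y - t) t
      rwa [sub_add_cancel] at this
    have : ε * s ≤ 1 / 100 * s := mul_le_mul_of_nonneg_right (by linarith) s0
    linarith
  have xb : |X| ≤ 4 * s := by
    rw [hX]
    have h1 : |L * Y| ≤ 21 / 10 * (101 / 100 * s) := by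
      rw [abs_mul, abs_of_nonneg L0]
      exact mul_le_mul L2 yb (abs_nonneg _) (by norm_num)
    have h2 : (1 + ε) * s ≤ (1 + 1 / 100) * s := mul_le_mul_of_nonneg_right (by linarith) s0
    have h3 := abs_add_le (GA σ τ u z A B) (L * Y)
    linarith
  have xy := num1 xb yb
  have y2 : Y ^ 2 ≤ 2 * t ^ 2 + w / 1000000000 := by
    have h1 : Y ^ 2 ≤ 2 * (t ^ 2 + (Y - t) ^ 2) := by
      have := sum_sq (x := t) (y := Y - t)
      rwa [add_sub_cancel] at this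
    have h2 : (Y - t) ^ 2 ≤ (ε * s) ^ 2 := by
      rw [← sq_abs]; exact pow_le_pow_left₀ (abs_nonneg _) yr 2
    have h3 : (ε * s) ^ 2 = ε * ε * s ^ 2 := by ring
    have h4 : ε * ε ≤ 1 / 1000000000 * (1 / 1000000000) :=
      mul_le_mul hε hε ε0 (by norm_num)
    have h5 : ε * ε * s ^ 2 ≤ 1 / 1000000000 * (1 / 1000000000) * (2 * w) :=
      mul_le_mul h4 sw (sq_nonneg _) (by norm_num)
    linarith
  -- the parts
  have ri : 0 < (r z)⁻¹ := inv_pos.2 hr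
  have p1 : (Φ₁ + G₀) * (g * (dd A A + dd B B)) ≤ (Φ₁ + G₀) * TH σ τ u z A B :=
    mul_le_mul_of_nonneg_left tu (by linarith)
  have p2 : (G₀ * L + D₀₁) * ((r z)⁻¹ * (Q - t ^ 2) - ε / r z * (4 * w)) ≤
      (G₀ * L + D₀₁) * TH σ τ r z A B := by
    refine mul_le_mul_of_nonneg_left ?_ μ2
    have h1 := (abs_le.1 tr).1
    have h2 : ε / r z * (dd A A + dd B B) ≤ ε / r z * (4 * w) :=
      mul_le_mul_of_nonneg_left AB (div_nonneg ε0 hr.le)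
    linarith
  have p3 : (G₀ * L + D₀₁) * (ε / r z * (4 * w)) ≤ G₀ * (r z)⁻¹ * (w * (1 / 50000000)) := by
    have h1 : G₀ * L + D₀₁ ≤ G₀ * (212 / 100) := by
      have := (abs_le.1 μ1).2
      have := mul_le_mul_of_nonneg_left L2 G0.le
      linarith
    have h2 : (G₀ * L + D₀₁) * (ε / r z * (4 * w)) ≤ G₀ * (212 / 100) * (ε / r z * (4 * w)) :=
      mul_le_mul_of_nonneg_right h1 (by positivity)
    have h3 : G₀ * (212 / 100) * (ε / r z * (4 * w)) = G₀ * (r z)⁻¹ * w * (848 / 100 * ε) := by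
      rw [div_eq_mul_inv]; ring
    have h4 : G₀ * (r z)⁻¹ * w * (848 / 100 * ε) ≤ G₀ * (r z)⁻¹ * w * (1 / 50000000) :=
      mul_le_mul_of_nonneg_left (by linarith) (by positivity)
    linarith
  have p4 : κ * G₀ * (X + om * Y) ^ 2 - G₀ * (r z)⁻¹ * (w * (1 / 50000000)) ≤
      D₂₀ * X ^ 2 + 2 * D₁₁ * (X * Y) + D₀₂ * Y ^ 2 := by
    have h1 : D₂₀ * X ^ 2 + 2 * D₁₁ * (X * Y) + D₀₂ * Y ^ 2 = κ * G₀ * (X + om * Y) ^ 2 +
        (2 * (D₁₁ - κ * G₀ * om) * (X * Y) + (D₀₂ - κ * G₀ * om ^ 2) * Y ^ 2) := by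
      rw [k20]; ring
    have h2 : |(D₁₁ - κ * G₀ * om) * (X * Y)| ≤ ε₁ * (G₀ / r z) * |X * Y| := by
      rw [abs_mul]; exact mul_le_mul_of_nonneg_right k11 (abs_nonneg _)
    have h3 : |(D₀₂ - κ * G₀ * om ^ 2) * Y ^ 2| ≤ ε₁ * (G₀ / r z) * Y ^ 2 := by
      rw [abs_mul, abs_of_nonneg (sq_nonneg Y)]
      exact mul_le_mul_of_nonneg_right k02 (sq_nonneg _)
    have h4 : ε₁ * (G₀ / r z) * (2 * |X * Y| + Y ^ 2) ≤
        1 / 1000000000 * (G₀ / r z) * (20 * w) := by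
      refine mul_le_mul ?_ ?_ (by positivity) (by positivity)
      · exact mul_le_mul_of_nonneg_right hε₁ (by positivity)
      · refine xy.trans ?_
        have : 2 * (4 * s * (101 / 100 * s)) + (101 / 100 * s) ^ 2 = 91001 / 10000 * s ^ 2 := by
          ring
        rw [this]
        linarith
    have h5 : 1 / 1000000000 * (G₀ / r z) * (20 * w) = G₀ * (r z)⁻¹ * (w * (1 / 50000000)) := by
      rw [div_eq_mul_inv]; ring
    rw [h5] at h4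
    rw [h1]
    have h2' := (abs_le.1 h2).1
    have h3' := (abs_le.1 h3).1
    linarith
  have p5 : -(2 * G₀ * |L₁| * t ^ 2) - G₀ * (r z)⁻¹ * (w * (1 / 1000000000)) ≤
      G₀ * (L₁ * Y ^ 2) := by
    have h1 : -(|L₁| * Y ^ 2) ≤ L₁ * Y ^ 2 := by
      have := mul_le_mul_of_nonneg_right (neg_abs_le L₁) (sq_nonneg Y)
      linarith
    have h2 : |L₁| * Y ^ 2 ≤ |L₁| * (2 * t ^ 2 + w / 1000000000) :=
      mul_le_mul_of_nonneg_left y2 (abs_nonneg _)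
    have h3 : |L₁| ≤ (r z)⁻¹ := by
      rw [← one_div, le_div_iff₀ hr]; exact r1
    have h4 : |L₁| * (w / 1000000000) ≤ (r z)⁻¹ * (w / 1000000000) :=
      mul_le_mul_of_nonneg_right h3 (by positivity)
    have h5 : -(|L₁| * (2 * t ^ 2) + (r z)⁻¹ * (w / 1000000000)) ≤ L₁ * Y ^ 2 := by linarith
    have h6 := mul_le_mul_of_nonneg_left h5 G0.le
    linarith
  have e1 : (G₀ * L + D₀₁) / r z * (Q - t ^ 2) = (G₀ * L + D₀₁) * ((r z)⁻¹ * (Q - t ^ 2)) := by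
    rw [div_eq_mul_inv]; ring
  have e2 : G₀ / (15000000 * r z) * w = G₀ * (r z)⁻¹ * (w * (1 / 15000000)) := by
    field_simp
  rw [e1, e2, hT]
  have e3 : 0 ≤ G₀ * (r z)⁻¹ * w := by positivity
  linarith

end far

lemma om_diff5 (G : Geo σ τ u r e h ε g z) {L om : ℝ} (L0 : 0 ≤ L)
    (L2 : L ≤ 21 / 10) (o1 : |om| ≤ 1 / 50) :
    nn ((1 / 2 : ℝ) • (gr σ u z + (L + om) • gr σ r z) -
      (1 / 2 : ℝ) • (gr τ u z + (L + om) • gr τ r z) - (2 * ((L + om) / 2)) • h) ≤ 4 * ε := by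
  have e1 : (1 / 2 : ℝ) • (gr σ u z + (L + om) • gr σ r z) -
      (1 / 2 : ℝ) • (gr τ u z + (L + om) • gr τ r z) - (2 * ((L + om) / 2)) • h =
      ((1 / 2 : ℝ) • (gr σ u z - e) - (1 / 2 : ℝ) • (gr τ u z - e)) +
      (((L + om) / 2) • (gr σ r z - h) - ((L + om) / 2) • (gr τ r z + h)) := by
    funext i
    simp only [Pi.add_apply, Pi.sub_apply, Pi.smul_apply, smul_eq_mul]
    ring
  have ob := abs_le.1 o1
  have ε0 := G.ε0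
  have hc : |(L + om) / 2| ≤ 11 / 10 := by
    rw [abs_le]; constructor <;> linarith
  have a1 : nn ((1 / 2 : ℝ) • (gr σ u z - e)) ≤ 1 / 2 * ε := by
    rw [nn_smul, abs_of_pos (by norm_num : (0:ℝ) < 1 / 2)]
    exact mul_le_mul_of_nonneg_left G.ux (by norm_num)
  have a2 : nn ((1 / 2 : ℝ) • (gr τ u z - e)) ≤ 1 / 2 * ε := by
    rw [nn_smul, abs_of_pos (by norm_num : (0:ℝ) < 1 / 2)]
    exact mul_le_mul_of_nonneg_left G.uy (by norm_num)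
  have a3 : nn (((L + om) / 2) • (gr σ r z - h)) ≤ 11 / 10 * ε := by
    rw [nn_smul]
    exact mul_le_mul hc G.rx (nn_nonneg _) (by norm_num)
  have a4 : nn (((L + om) / 2) • (gr τ r z + h)) ≤ 11 / 10 * ε := by
    rw [nn_smul]
    exact mul_le_mul hc G.ry (nn_nonneg _) (by norm_num)
  rw [e1]
  have b1 := nn_sub_le ((1 / 2 : ℝ) • (gr σ u z - e)) ((1 / 2 : ℝ) • (gr τ u z - e))
  have b2 := nn_sub_le (((L + om) / 2) • (gr σ r z - h)) (((L + om) / 2) • (gr τ r z + h))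
  refine (nn_add_le _ _).trans ?_
  linarith

/-- **The certificate for `W = Φ(u) + Ψ(f, r)`, `f = u + log S(r)`, away from the diagonal, in
curved slots.**  `G₀ = Ψ_f`, `D₀₁ = Ψ_r`, `D₂₀, D₁₁, D₀₂` the second derivatives of `Ψ`,
`L = S'/S`, `L₁ = L'`, `Φ₁ = Φ'(u)`, `Φ₂ = Φ''(u)`. -/
theorem cert_far_at5 {G₀ D₀₁ D₂₀ D₁₁ D₀₂ Φ₁ Φ₂ L L₁ κ om ε₁ : ℝ} {γ γ' : ι → E → ℝ}
    (G : Geo σ τ u r e h ε g z)
    (hε : ε ≤ 1 / 1000000000) (hε₁ : ε₁ ≤ 1 / 1000000000)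
    (G0 : 0 < G₀) (L1 : 1 / 10 ≤ L) (L2 : L ≤ 21 / 10) (o1 : |om| ≤ 1 / 50)
    (μ1 : |D₀₁| ≤ 1 / 50 * G₀) (hκ : 3 ≤ κ * r z)
    (k20 : D₂₀ = κ * G₀) (k11 : |D₁₁ - κ * G₀ * om| ≤ ε₁ * (G₀ / r z))
    (k02 : |D₀₂ - κ * G₀ * om ^ 2| ≤ ε₁ * (G₀ / r z)) (r1 : 30000000 * (|L₁| * r z) ≤ 1)
    (hr1 : 1 ≤ r z) (Φ0 : 0 ≤ Φ₁)
    (w1 : gr σ W z = (Φ₁ + G₀) • gr σ u z + (G₀ * L + D₀₁) • gr σ r z)
    (w2 : gr τ W z = (Φ₁ + G₀) • gr τ u z + (G₀ * L + D₀₁) • gr τ r z)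
    (p1 : 0 < dd (gr σ W z) (gr σ W z)) (p2 : 0 < dd (gr τ W z) (gr τ W z))
    (q1 : 1000000 * (ε * (Φ₁ + G₀)) ≤ nn (gr σ W z))
    (q2 : 1000000 * (ε * (Φ₁ + G₀)) ≤ nn (gr τ W z))
    (hγ : ∀ l, γ l z = G₀ / (300000 * r z) * (20 * h l + e l))
    (hγ' : ∀ l, γ' l z = G₀ / (300000 * r z) * (-20 * h l + e l))
    (A B : ι → ℝ)
    (hT : TH σ τ W z A B = Φ₁ * TH σ τ u z A B + Φ₂ * GA σ τ u z A B ^ 2 +
      (G₀ * (TH σ τ u z A B + L * TH σ τ r z A B + L₁ * GA σ τ r z A B ^ 2) +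
        D₀₁ * TH σ τ r z A B) +
      (D₂₀ * (GA σ τ u z A B + L * GA σ τ r z A B) ^ 2 +
        2 * D₁₁ * ((GA σ τ u z A B + L * GA σ τ r z A B) * GA σ τ r z A B) +
        D₀₂ * GA σ τ r z A B ^ 2)) :
    (G₀ / (3300000 * r z) + (Φ₁ + G₀) * g) * (dd A A + dd B B) + Φ₂ * GA σ τ u z A B ^ 2 ≤
      TH σ τ W z A B + tc σ (cf σ e W γ) W z A + tc τ (cf τ e W γ') W z B := by
  have hr := G.r0
  have ε0 := G.ε0
  have mb := abs_le.1 μ1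
  have ob := abs_le.1 o1
  have l1 : |L₁| * r z ≤ 1 := by
    have : 0 ≤ |L₁| * r z := mul_nonneg (abs_nonneg _) hr.le
    linarith
  have hL1 : |L₁| ≤ 1 := by
    have := mul_le_mul_of_nonneg_left hr1 (abs_nonneg L₁)
    linarith
  have μ2 : 0 ≤ G₀ * L + D₀₁ := by
    have := mul_le_mul_of_nonneg_left L1 G0.le
    linarith
  have main := main_lb5 (Φ₂ := Φ₂) (T := TH σ τ W z A B) G hε hε₁ G0 (by linarith) L2 hL1 μ1 μ2
    k20 k11 k02 l1 Φ0 A B rfl rfl hT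
  rw [tc_TM, tc_TM]
  obtain ⟨δ, hδ⟩ : ∃ δ, δ = G₀ / (300000 * r z) := ⟨_, rfl⟩
  have δ0 : 0 < δ := by rw [hδ]; positivity
  have hδr : δ * r z = G₀ / 300000 := by rw [hδ]; field_simp
  have c1 : (fun l => cf σ e W γ l z) =
      fl e (gr σ W z) ((4 * 5 * δ) • h + δ • e) := by
    refine cf_eq fun l => ?_
    rw [hγ l, ← hδ]
    simp only [Pi.add_apply, Pi.smul_apply, smul_eq_mul]
    ring
  have c2 : (fun l => cf τ e W γ' l z) =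
      fl e (gr τ W z) ((-(4 * 5 * δ)) • h + δ • e) := by
    refine cf_eq fun l => ?_
    rw [hγ' l, ← hδ]
    simp only [Pi.add_apply, Pi.smul_apply, smul_eq_mul]
    ring
  rw [c1, c2]
  have ν0 : 0 ≤ Φ₁ + G₀ := by linarith
  have εν : 0 ≤ ε * (Φ₁ + G₀) := mul_nonneg ε0 ν0
  have ℓν : G₀ * L + D₀₁ ≤ 22 / 10 * (Φ₁ + G₀) := by
    have := mul_le_mul_of_nonneg_left L2 G0.le
    linarith
  have nw1 : nn (gr σ W z - ((Φ₁ + G₀) • e + (G₀ * L + D₀₁) • h)) ≤ 4 * ε * (Φ₁ + G₀) := by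
    rw [w1]; exact w_near ν0 μ2 ℓν ε0 G.ux G.rx
  have nw2 : nn (gr τ W z - ((Φ₁ + G₀) • e - (G₀ * L + D₀₁) • h)) ≤ 4 * ε * (Φ₁ + G₀) := by
    have h3 : nn (gr τ r z - -h) ≤ ε := by rw [sub_neg_eq_add]; exact G.ry
    have := w_near ν0 μ2 ℓν ε0 G.uy h3
    rw [w2, sub_eq_add_neg ((Φ₁ + G₀) • e) ((G₀ * L + D₀₁) • h), ← smul_neg]
    exact this
  have s4 : (G₀ * L + D₀₁) / r z = 300000 * (L * δ) + D₀₁ / r z := by
    have : G₀ = 300000 * (δ * r z) := by rw [hδr]; ring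
    rw [add_div]
    congr 1
    rw [this]; field_simp
  have s5 : -(1 / 50 * (300000 * δ)) ≤ D₀₁ / r z := by
    rw [le_div_iff₀ hr]
    have : 1 / 50 * (300000 * δ) * r z = 1 / 50 * G₀ := by
      have : 1 / 50 * (300000 * δ) * r z = 1 / 50 * (300000 * (δ * r z)) := by ring
      rw [this, hδr]; ring
    linarith
  have t1 : 7 * (δ * (4 * 5 + 1) ^ 2) ≤ 4 * κ * G₀ * (4 / 125) ^ 2 := by
    have h1 : G₀ = 300000 * (δ * r z) := by rw [hδr]; ring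
    have h2 : 3 * δ ≤ κ * r z * δ := mul_le_mul_of_nonneg_right hκ δ0.le
    have h3 : 4 * κ * G₀ = 1200000 * (κ * r z * δ) := by rw [h1]; ring
    rw [h3]; linarith
  have t2 : 6 * (δ * (4 * 5 + 1) ^ 2) ≤ (G₀ * L + D₀₁) / r z := by
    rw [s4]
    have := mul_le_mul_of_nonneg_right L1 δ0.le
    linarith
  have t3 : 50 * (2 * G₀ * |L₁|) ≤ δ := by
    have h1 : G₀ = 300000 * (δ * r z) := by rw [hδr]; ring
    have h2 : 50 * (2 * G₀ * |L₁|) = 30000000 * (|L₁| * r z) * δ := by rw [h1]; ring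
    rw [h2]
    have := mul_le_mul_of_nonneg_right r1 δ0.le
    linarith
  have hA := (up_A (by linarith) (G.nx A)).2
  have hB := (up_A (by linarith) (G.ny B)).2
  have hA' : nn (A - sU σ z A) ≤ 1 / 67200 * nn (sU σ z A) :=
    hA.trans (mul_le_mul_of_nonneg_right (by linarith) (nn_nonneg _))
  have hB' : nn (B - sU τ z B) ≤ 1 / 67200 * nn (sU τ z B) :=
    hB.trans (mul_le_mul_of_nonneg_right (by linarith) (nn_nonneg _))
  have sq : 4 * κ * G₀ * (dd ((1 / 2 : ℝ) • (gr σ u z + (L + om) • gr σ r z)) (sU σ z A) +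
      dd ((1 / 2 : ℝ) • (gr τ u z + (L + om) • gr τ r z)) (sU τ z B)) ^ 2 =
      κ * G₀ * (GA σ τ u z A B + L * GA σ τ r z A B + om * GA σ τ r z A B) ^ 2 := by
    rw [GA_dd G.sσ G.sτ, GA_dd G.sσ G.sτ]
    simp only [dd_smul_left, dd_add_left]
    ring
  have fin := far_rob5 (ν₁ := Φ₁ + G₀) (ℓ₁ := G₀ * L + D₀₁) (ν₂ := Φ₁ + G₀) (ℓ₂ := G₀ * L + D₀₁)
    (L := (L + om) / 2) (Λ := 5) (κ := 4 * κ * G₀) (k := (G₀ * L + D₀₁) / r z)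
    (m := 2 * G₀ * |L₁|) (δ := δ) (ε := 1 / 67200) (ε₀ := 4 * ε) (ℓ₀ := 4 / 125)
    (T := TH σ τ W z A B - Φ₂ * GA σ τ u z A B ^ 2 - (Φ₁ + G₀) * g * (dd A A + dd B B))
    (U := sU σ z A) (V := sU τ z B) (A := A) (B := B)
    G.ee G.hh (by norm_num) (om_sum G (by linarith) L2 o1)
    ((om_diff5 G (by linarith) L2 o1).trans (by linarith))
    (by linarith) (by norm_num) (by norm_num) (by linarith) (by norm_num; linarith) δ0 t1 t2 t3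
    μ2 μ2 (by linarith) (by linarith) p1 p2 (by linarith) (by linarith) hA' hB' (by
      rw [sq]
      have h1 : δ / 50 = G₀ / (15000000 * r z) := by rw [hδ]; field_simp; norm_num
      rw [h1]
      linarith)
  have h2 : δ / 11 = G₀ / (3300000 * r z) := by rw [hδ]; field_simp; norm_num
  rw [h2] at fin
  linarith

section cert

variable {σ τ : Sl E ι} {U : Set E} {θ θ' : E → ℝ} {u r : E → ℝ} {e h A B : ι → ℝ} {z : E}
  {ε g : ℝ} {Φ Φ₁ Φ₂ S S₁ S₂ : ℝ → ℝ} {D : ℕ → ℕ → ℝ → ℝ → ℝ}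

/-- The fields away from the diagonal: `γ = D₁₀/(300000 r) (± 20 h + e)`. -/
def gF5 (D : ℕ → ℕ → ℝ → ℝ → ℝ) (S : ℝ → ℝ) (u r : E → ℝ) (e : ι → ℝ) (h : ι → E → ℝ) (s : ℝ)
    (l : ι) (z : E) : ℝ :=
  D 1 0 (u z + S (r z)) (r z) / (300000 * r z) * (s * h l z + e l)

/-- **The certificate away from the diagonal for the composed weight.** -/
theorem cert_far_wt5 {h : ι → E → ℝ} {κ om ε₁ : ℝ} (ok : σ.Ok U θ) (ot : τ.Ok U θ')
    (w : Wd U Φ Φ₁ Φ₂ S S₁ S₂ D u r) (hz : z ∈ U)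
    (G : Geo σ τ u r e (fun l => h l z) ε g z) (hε : ε ≤ 1 / 1000000000)
    (hε₁ : ε₁ ≤ 1 / 1000000000)
    (G0 : 0 < D 1 0 (u z + S (r z)) (r z)) (L1 : 1 / 10 ≤ S₁ (r z)) (L2 : S₁ (r z) ≤ 21 / 10)
    (o1 : |om| ≤ 1 / 50)
    (μ1 : |D 0 1 (u z + S (r z)) (r z)| ≤ 1 / 50 * D 1 0 (u z + S (r z)) (r z))
    (hκ : 3 ≤ κ * r z)
    (k20 : D 2 0 (u z + S (r z)) (r z) = κ * D 1 0 (u z + S (r z)) (r z))
    (k11 : |D 1 1 (u z + S (r z)) (r z) - κ * D 1 0 (u z + S (r z)) (r z) * om| ≤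
      ε₁ * (D 1 0 (u z + S (r z)) (r z) / r z))
    (k02 : |D 0 2 (u z + S (r z)) (r z) - κ * D 1 0 (u z + S (r z)) (r z) * om ^ 2| ≤
      ε₁ * (D 1 0 (u z + S (r z)) (r z) / r z))
    (r1 : 30000000 * (|S₂ (r z)| * r z) ≤ 1) (hr1 : 1 ≤ r z) (Φ0 : 0 ≤ Φ₁ (u z))
    (p1 : 0 < dd (gr σ (wt Φ S D u r) z) (gr σ (wt Φ S D u r) z))
    (p2 : 0 < dd (gr τ (wt Φ S D u r) z) (gr τ (wt Φ S D u r) z))
    (q1 : 1000000 * (ε * (Φ₁ (u z) + D 1 0 (u z + S (r z)) (r z))) ≤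
      nn (gr σ (wt Φ S D u r) z))
    (q2 : 1000000 * (ε * (Φ₁ (u z) + D 1 0 (u z + S (r z)) (r z))) ≤
      nn (gr τ (wt Φ S D u r) z))
    (A B : ι → ℝ) :
    (D 1 0 (u z + S (r z)) (r z) / (3300000 * r z) +
        (Φ₁ (u z) + D 1 0 (u z + S (r z)) (r z)) * g) * (dd A A + dd B B) +
      Φ₂ (u z) * GA σ τ u z A B ^ 2 ≤
      TH σ τ (wt Φ S D u r) z A B +
      tc σ (cf σ e (wt Φ S D u r) (gF5 D S u r e h 20)) (wt Φ S D u r) z A +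
      tc τ (cf τ e (wt Φ S D u r) (gF5 D S u r e h (-20))) (wt Φ S D u r) z B :=
  cert_far_at5 G hε hε₁ G0 L1 L2 o1 μ1 hκ k20 k11 k02 r1 hr1 Φ0 (gr_wt ok w hz) (gr_wt ot w hz)
    p1 p2 q1 q2 (fun _ => rfl) (fun _ => rfl) A B (TH_wt ok ot w hz A B)

end cert

end Vale.Agent.P088.R2.H230.W
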