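import Vale.Agent.P088.R2.H230.W.CvI

/-!
# P088, stage 3: the certificate away from the diagonal in curved slots, up to the critical sets

The final version: `W = Φ(u) + Ψ(u + S(r), r)`, `1/10 ≤ S' ≤ 21/10`, fields
`γ = Ψ_f/(300000 r) (± 20 h + e)`.  The gradients in the two slots are arbitrary nonzero vectors:
where one of them is small the direction `h` of the model is turned so that this gradient is
exactly of the model form.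
-/

open Set Filter
open scoped ContDiff Topology

noncomputable section

namespace Vale.Agent.P088.R2.H230.W

open Vale.Agent.P088.R2.H961.GW Vale.Agent.P088.R2.H960.W Vale.Agent.P088.R2.H644.Ch

section vec

variable {ι : Type*} [Fintype ι]

/-- Normalisation of a vector near a unit vector. -/
lemma unit_near {s e : ι → ℝ} {ε₀ : ℝ} (he : dd e e = 1) (h : nn (s - e) ≤ ε₀) (h1 : ε₀ < 1) :
    ∃ (l : ℝ) (e' : ι → ℝ), 0 < l ∧ |l - 1| ≤ ε₀ ∧ dd e' e' = 1 ∧ s = l • e' ∧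
      nn (e - e') ≤ 2 * ε₀ := by
  have n_e := nn_one he
  obtain ⟨l, hl⟩ : ∃ l : ℝ, l = nn s := ⟨_, rfl⟩
  have hl1a : |l - 1| ≤ ε₀ := by
    have := abs_nn_sub_le s e
    rw [n_e, ← hl] at this
    exact this.trans h
  have hla := abs_le.1 hl1a
  have hl0 : 0 < l := by linarith
  obtain ⟨e', he'⟩ : ∃ e' : ι → ℝ, e' = l⁻¹ • s := ⟨_, rfl⟩
  have hse : s = l • e' := by
    rw [he', smul_smul, mul_inv_cancel₀ hl0.ne', one_smul]
  have hee' : dd e' e' = 1 := by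
    rw [he', dd_smul_left, dd_smul_right, ← nn_mul_self, ← hl]
    field_simp
  refine ⟨l, e', hl0, hl1a, hee', hse, ?_⟩
  have e1 : e - e' = -(s - e) + (l - 1) • e' := by
    conv_rhs => rw [hse]
    funext i
    simp only [Pi.add_apply, Pi.sub_apply, Pi.neg_apply, Pi.smul_apply, smul_eq_mul]
    ring
  rw [e1]
  refine (nn_add_le _ _).trans ?_
  rw [nn_neg, nn_smul, nn_one hee']
  linarith

/-- The normal form of the two covectors of the stiff direction. -/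
lemma rob_dir6 {e' h φ₁ φ₂ : ι → ℝ} {L Λ ε₀ ℓ₀ l : ℝ} (hh : dd h h = 1) (h0 : 0 < ℓ₀)
    (hs : φ₁ + φ₂ = l • e') (hl1a : |l - 1| ≤ ε₀)
    (hφd : nn (φ₁ - φ₂ - (2 * L) • h) ≤ ℓ₀ / 8)
    (hε₀s : ε₀ ≤ 1 / 800) (hL : 5 / 4 * ℓ₀ ≤ L) (hΛ : L + 1 / (8 * ℓ₀) ≤ Λ) :
    ∃ (L' : ℝ) (g : ι → ℝ), 0 < l ∧ 1 - ε₀ ≤ l ∧
      dd h g = 0 ∧ 2 * dd g g ≤ ℓ₀ ^ 2 ∧ ℓ₀ ≤ L' ∧ L' / 2 + 1 / (8 * ℓ₀) ≤ Λ ∧
      l⁻¹ • φ₁ + l⁻¹ • φ₂ = e' ∧
      l⁻¹ • φ₁ - l⁻¹ • φ₂ = (2 * L') • h + (2 : ℝ) • g := by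
  have n_h := nn_one hh
  have hla := abs_le.1 hl1a
  have hl0 : 0 < l := by linarith
  have hsum : l⁻¹ • φ₁ + l⁻¹ • φ₂ = e' := by
    rw [← smul_add, hs, smul_smul, inv_mul_cancel₀ hl0.ne', one_smul]
  obtain ⟨ρ, hρ⟩ : ∃ ρ : ι → ℝ, ρ = φ₁ - φ₂ - (2 * L) • h := ⟨_, rfl⟩
  rw [← hρ] at hφd
  obtain ⟨x, hx⟩ : ∃ x : ℝ, x = dd h ρ := ⟨_, rfl⟩
  have hxa : |x| ≤ ℓ₀ / 8 := by
    have := dd_le_nn h ρ
    rw [n_h, one_mul, ← hx] at this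
    exact this.trans hφd
  have hxb := abs_le.1 hxa
  have hlu : l ≤ 801 / 800 := by linarith
  have hll : 799 / 800 ≤ l := by linarith
  have L'lo : ℓ₀ ≤ (L + x / 2) / l := by
    rw [le_div_iff₀ hl0]
    have := mul_le_mul_of_nonneg_left hlu h0.le
    linarith
  have L'hi : (L + x / 2) / l / 2 ≤ L := by
    rw [div_div, div_le_iff₀ (by positivity)]
    have := mul_le_mul_of_nonneg_left hll (by linarith : (0:ℝ) ≤ L)
    linarith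
  refine ⟨(L + x / 2) / l, (2 * l)⁻¹ • (ρ - x • h), hl0, by linarith, ?_, ?_,
    L'lo, by linarith, hsum, ?_⟩
  · rw [dd_smul_right, dd_sub_right, dd_smul_right, hh, ← hx]; ring
  · have e1 : dd (ρ - x • h) (ρ - x • h) = dd ρ ρ - x ^ 2 := by
      rw [dd_sub_left, dd_sub_right, dd_sub_right]
      simp only [dd_smul_left, dd_smul_right, hh, dd_comm ρ h, ← hx]
      ring
    have e2 : dd ρ ρ ≤ (ℓ₀ / 8) ^ 2 := by
      have := pow_le_pow_left₀ (nn_nonneg ρ) hφd 2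
      rw [nn_sq] at this
      exact this
    have e3 : dd ((2 * l)⁻¹ • (ρ - x • h)) ((2 * l)⁻¹ • (ρ - x • h)) =
        ((2 * l)⁻¹) ^ 2 * dd (ρ - x • h) (ρ - x • h) := by
      rw [dd_smul_left, dd_smul_right]; ring
    have e4 : (2 * l)⁻¹ ≤ 1 := inv_le_one_of_one_le₀ (by linarith)
    have e5 : ((2 * l)⁻¹) ^ 2 ≤ 1 := pow_le_one₀ (by positivity) e4
    have e6 : 0 ≤ dd (ρ - x • h) (ρ - x • h) := dd_self_nonneg _
    have e7 : dd (ρ - x • h) (ρ - x • h) ≤ (ℓ₀ / 8) ^ 2 := by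
      rw [e1]; linarith [sq_nonneg x]
    rw [e3]
    have e8 : ((2 * l)⁻¹) ^ 2 * dd (ρ - x • h) (ρ - x • h) ≤ 1 * (ℓ₀ / 8) ^ 2 :=
      mul_le_mul e5 e7 e6 (by norm_num)
    have e9 : (ℓ₀ / 8) ^ 2 = ℓ₀ ^ 2 / 64 := by ring
    rw [e9] at e8
    have := sq_nonneg ℓ₀
    linarith
  · have e1 : φ₁ - φ₂ = (2 * L) • h + ρ := by rw [hρ]; abel
    have e2 : l⁻¹ • φ₁ - l⁻¹ • φ₂ = l⁻¹ • (φ₁ - φ₂) := by rw [smul_sub]
    rw [e2, e1]
    funext i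
    simp only [Pi.add_apply, Pi.sub_apply, Pi.smul_apply, smul_eq_mul]
    field_simp
    ring

/-- **The robust certificate away from the diagonal**: the gradients of the weight are close to
`ν₁ e' + ℓ₁ h`, `ν₂ e' - ℓ₂ h` relative to their own size, where `e'` is the direction of the sum
of the stiff covectors and `h` is close to the given `h₀`. -/
theorem far_rob6 {e e' h h₀ φ₁ φ₂ w₁ w₂ U V A B : ι → ℝ}
    {ν₁ ℓ₁ ν₂ ℓ₂ L Λ κ k m δ ε ε₀ ℓ₀ l T : ℝ}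
    (he : dd e e = 1) (hee' : dd e' e' = 1) (hh : dd h h = 1) (hh₀ : dd h₀ h₀ = 1) (h0 : 0 < ℓ₀)
    (hs : φ₁ + φ₂ = l • e') (hl : |l - 1| ≤ ε₀) (hde : nn (e - e') ≤ 2 * ε₀)
    (hφd : nn (φ₁ - φ₂ - (2 * L) • h) ≤ ℓ₀ / 8) (hhh : 3200 * (Λ * nn (h₀ - h)) ≤ 1)
    (hε₀ : 2 * ε₀ ≤ ε) (hε : 3200 * (ε * (4 * Λ + 1)) ≤ 1) (hε1 : 800 * ε ≤ 1)
    (hL : 5 / 4 * ℓ₀ ≤ L) (hΛ : L + 1 / (8 * ℓ₀) ≤ Λ) (hδ : 0 < δ)
    (hδ1 : 7 * (δ * (4 * Λ + 1) ^ 2) ≤ κ * ℓ₀ ^ 2) (hδ2 : 6 * (δ * (4 * Λ + 1) ^ 2) ≤ k)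
    (hm : 50 * m ≤ δ)
    (hl1 : 0 ≤ ℓ₁) (hl2 : 0 ≤ ℓ₂) (hl1' : ℓ₁ ≤ 2 * Λ * ν₁) (hl2' : ℓ₂ ≤ 2 * Λ * ν₂)
    (hw₁ : 0 < dd w₁ w₁) (hw₂ : 0 < dd w₂ w₂)
    (b1 : nn (w₁ - v1 e' h ν₁ ℓ₁) ≤ ε * nn w₁) (b2 : nn (w₂ - v2 e' h ν₂ ℓ₂) ≤ ε * nn w₂)
    (hA : nn (A - U) ≤ ε * nn U) (hB : nn (B - V) ≤ ε * nn V)
    (hT : κ * (dd φ₁ U + dd φ₂ V) ^ 2 + (k * (dd (U - V) (U - V) - dd h (U - V) ^ 2)
      - m * dd h (U - V) ^ 2) - δ / 50 * (dd U U + dd V V) ≤ T) :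
    δ / 11 * (dd A A + dd B B) ≤
      T + TM (fl e w₁ ((4 * Λ * δ) • h₀ + δ • e)) w₁ A U
        + TM (fl e w₂ ((-(4 * Λ * δ)) • h₀ + δ • e)) w₂ B V := by
  have hε₀' : 0 ≤ ε₀ := (abs_nonneg _).trans hl
  have hε' : 0 ≤ ε := by linarith
  have i0 : 0 < 1 / (8 * ℓ₀) := by positivity
  have hL0 : 0 < L := by linarith
  have hΛ0 : 0 < Λ := by linarith
  have n_e := nn_one he
  have n_h := nn_one hh₀
  have hε₀s : ε₀ ≤ 1 / 1600 := by linarith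
  obtain ⟨L', g, hl0, hl1b, hhg, hgg, hL8, hL'Λ, hsum, hdiff⟩ :=
    rob_dir6 hh h0 hs hl hφd (by linarith) hL hΛ
  have n_e' := nn_one hee'
  have p1 := pos_of_near hw₁ (by linarith) b1
  have p2 := pos_of_near hw₂ (by linarith) b2
  have hD0 : 0 < δ * (4 * Λ + 1) ^ 2 := by positivity
  have hκ0 : 0 < κ := by
    by_contra hneg
    have h3 : κ * ℓ₀ ^ 2 ≤ 0 := mul_nonpos_of_nonpos_of_nonneg (not_lt.1 hneg) (sq_nonneg _)
    linarith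
  have hlsq : (15 / 16 : ℝ) ≤ l ^ 2 := by
    have h3 : (1 - ε₀) ^ 2 ≤ l ^ 2 := pow_le_pow_left₀ (by linarith) hl1b 2
    have h4 := sq_nonneg ε₀
    linarith [show (1 - ε₀) ^ 2 = 1 - 2 * ε₀ + ε₀ ^ 2 by ring]
  have hκ' : 6 * (δ * (4 * Λ + 1) ^ 2) ≤ κ * l ^ 2 * ℓ₀ ^ 2 := by
    have h4 : κ * ℓ₀ ^ 2 * (15 / 16) ≤ κ * ℓ₀ ^ 2 * l ^ 2 :=
      mul_le_mul_of_nonneg_left hlsq (by positivity)
    have h5 : κ * l ^ 2 * ℓ₀ ^ 2 = κ * ℓ₀ ^ 2 * l ^ 2 := by ring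
    rw [h5]; linarith
  have cert := far_cert5 hee' hh hhg h0 hgg hL8 hL'Λ hδ hκ' hδ2 hm hl1 hl2 hl1'
    hl2' p1 p2 _ _ hsum hdiff U V
  have sqe : κ * l ^ 2 * (dd (l⁻¹ • φ₁) U + dd (l⁻¹ • φ₂) V) ^ 2 =
      κ * (dd φ₁ U + dd φ₂ V) ^ 2 := by
    simp only [dd_smul_left]
    field_simp
  rw [sqe] at cert
  have hUU := dd_self_nonneg U
  have hVV := dd_self_nonneg V
  have cg : ∀ (a : ℝ) (w U : ι → ℝ), 0 < dd w w → |a| = 4 * Λ * δ →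
      TT (fl e' w (a • h + δ • e')) w U ≤ TT (fl e' w (a • h₀ + δ • e)) w U +
        δ / 400 * dd U U := by
    intro a w U hw ha
    have gch : nn ((a • h₀ + δ • e) - (a • h + δ • e')) ≤ δ / 400 := by
      have e1 : (a • h₀ + δ • e) - (a • h + δ • e') = a • (h₀ - h) + δ • (e - e') := by
        funext i
        simp only [Pi.add_apply, Pi.sub_apply, Pi.smul_apply, smul_eq_mul]
        ring
      rw [e1]
      refine (nn_add_le _ _).trans ?_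
      rw [nn_smul, nn_smul, abs_of_pos hδ, ha]
      have h3 : nn (e - e') ≤ 1 / 800 := by linarith
      have h4 := mul_le_mul_of_nonneg_left h3 hδ.le
      have h5 := mul_le_mul_of_nonneg_left hhh hδ.le
      linarith
    have c1 := TT_fl_g (e := e') (γ := a • h₀ + δ • e) (γ' := a • h + δ • e') (U := U) hw
    rw [n_e', one_mul] at c1
    have c1' := (abs_le.1 c1).1
    have d1 := mul_le_mul_of_nonneg_right gch (dd_self_nonneg U)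
    linarith
  have hΛδ : 0 ≤ 4 * Λ * δ := by positivity
  have c1 := cg (4 * Λ * δ) _ U p1 (abs_of_nonneg hΛδ)
  have c2 := cg (-(4 * Λ * δ)) _ V p2 (by rw [abs_neg, abs_of_nonneg hΛδ])
  have cert2 : δ * (3 / 25) * (dd U U + dd V V) ≤
      (κ * (dd φ₁ U + dd φ₂ V) ^ 2 + (k * (dd (U - V) (U - V) - dd h (U - V) ^ 2)
        - m * dd h (U - V) ^ 2))
      + TT (fl e' (v1 e' h ν₁ ℓ₁) ((4 * Λ * δ) • h₀ + δ • e)) (v1 e' h ν₁ ℓ₁) U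
      + TT (fl e' (v2 e' h ν₂ ℓ₂) ((-(4 * Λ * δ)) • h₀ + δ • e)) (v2 e' h ν₂ ℓ₂) V := by
    have := mul_nonneg hδ.le hUU
    have := mul_nonneg hδ.le hVV
    linarith
  have z1 := rob_sz (a := 4 * Λ * δ) n_e n_h hδ (abs_of_nonneg hΛδ) rfl
  have z2 := rob_sz (a := -(4 * Λ * δ)) n_e n_h hδ (by rw [abs_neg, abs_of_nonneg hΛδ]) rfl
  have hy : ∀ y : ℝ, y ≤ δ * (4 * Λ + 1) → 48 * (8 * (ε * y)) ≤ δ * (3 / 25) := by
    intro y hy
    have h3 := mul_le_mul_of_nonneg_left hy hε'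
    have h4 := mul_le_mul_of_nonneg_left hε hδ.le
    linarith
  have hT' : (κ * (dd φ₁ U + dd φ₂ V) ^ 2 + (k * (dd (U - V) (U - V) - dd h (U - V) ^ 2)
        - m * dd h (U - V) ^ 2)) - δ * (3 / 25) / 6 * (dd U U + dd V V) ≤ T := by
    linarith
  have fin := pert n_e'.le n_e.le (hde.trans hε₀) hw₁ p1 hw₂ p2 b1 b2 hA hB
    (by positivity : 0 ≤ δ * (3 / 25)) (hy _ z1) (hy _ z2) (by linarith)
    cert2 hT'
  have hAA := mul_nonneg hδ.le (dd_self_nonneg A)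
  have hBB := mul_nonneg hδ.le (dd_self_nonneg B)
  linarith

end vec

variable {E ι : Type*} [NormedAddCommGroup E] [NormedSpace ℝ E] [Fintype ι]
variable {σ τ : Sl E ι} {u r W : E → ℝ} {e h A B : ι → ℝ} {z : E} {ε g : ℝ}

lemma main_lb6 {G₀ D₀₁ D₂₀ D₁₁ D₀₂ Φ₁ Φ₂ L L₁ κ om ε₁ : ℝ} (G : Geo σ τ u r e h ε g z)
    (hε : ε ≤ 1 / 10000000000) (hε₁ : ε₁ ≤ 1 / 1000000000)
    (G0 : 0 < G₀) (L0 : 0 ≤ L) (L2 : L ≤ 21 / 10) (hL1 : |L₁| ≤ 1)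
    (μ1 : |D₀₁| ≤ 1 / 50 * G₀) (μ2 : 0 ≤ G₀ * L + D₀₁)
    (k20 : D₂₀ = κ * G₀) (k11 : |D₁₁ - κ * G₀ * om| ≤ ε₁ * (G₀ / r z))
    (k02 : |D₀₂ - κ * G₀ * om ^ 2| ≤ ε₁ * (G₀ / r z)) (r1 : |L₁| * r z ≤ 1)
    (Φ0 : 0 ≤ Φ₁)
    (A B : ι → ℝ) {T X Y : ℝ} (hY : Y = GA σ τ r z A B) (hX : X = GA σ τ u z A B + L * Y)
    (hT : T = Φ₁ * TH σ τ u z A B + Φ₂ * GA σ τ u z A B ^ 2 +
      (G₀ * (TH σ τ u z A B + L * TH σ τ r z A B + L₁ * Y ^ 2) + D₀₁ * TH σ τ r z A B) +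
      (D₂₀ * X ^ 2 + 2 * D₁₁ * (X * Y) + D₀₂ * Y ^ 2)) :
    Φ₂ * GA σ τ u z A B ^ 2 + (Φ₁ + G₀) * g * (dd A A + dd B B) +
      κ * G₀ * (X + om * Y) ^ 2 + (G₀ * L + D₀₁) / r z *
        (dd (sU σ z A - sU τ z B) (sU σ z A - sU τ z B) - dd h (sU σ z A - sU τ z B) ^ 2) -
      2 * G₀ * |L₁| * dd h (sU σ z A - sU τ z B) ^ 2 -
      G₀ / (30000000 * r z) * (dd (sU σ z A) (sU σ z A) + dd (sU τ z B) (sU τ z B)) ≤ T := by
  have hr := G.r0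
  have ε0 := G.ε0
  obtain ⟨U, hU⟩ : ∃ U, U = sU σ z A := ⟨_, rfl⟩
  obtain ⟨V, hV⟩ : ∃ V, V = sU τ z B := ⟨_, rfl⟩
  have tr := G.Tr A B
  have tu := G.Tu A B
  have yr := GAr G A B
  have ub := GAu G A B
  have hA := (up_A (by linarith) (G.nx A)).1
  have hB := (up_A (by linarith) (G.ny B)).1
  have hq := nn_hQ G.hh (sU σ z A) (sU τ z B)
  rw [← hU, ← hV] at *
  rw [← hY] at yr
  obtain ⟨s, hs⟩ : ∃ s, s = nn U + nn V := ⟨_, rfl⟩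
  obtain ⟨w, hw⟩ : ∃ w, w = dd U U + dd V V := ⟨_, rfl⟩
  have s0 : 0 ≤ s := by rw [hs]; exact add_nonneg (nn_nonneg _) (nn_nonneg _)
  have w0 : 0 ≤ w := by rw [hw]; exact add_nonneg (dd_self_nonneg _) (dd_self_nonneg _)
  have sw : s ^ 2 ≤ 2 * w := by
    rw [hs, hw, ← nn_sq, ← nn_sq]; exact sum_sq
  have AB : dd A A + dd B B ≤ 4 * w := by
    have h1 := pow_le_pow_left₀ (nn_nonneg A) hA 2
    have h2 := pow_le_pow_left₀ (nn_nonneg B) hB 2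
    rw [mul_pow, nn_sq, nn_sq] at h1 h2
    rw [hw]; linarith
  rw [← hs] at yr ub hq
  obtain ⟨t, ht⟩ : ∃ t, t = dd h (U - V) := ⟨_, rfl⟩
  rw [← ht] at yr hq tr ⊢
  rw [← hw]
  obtain ⟨Q, hQ⟩ : ∃ Q, Q = dd (U - V) (U - V) := ⟨_, rfl⟩
  rw [← hQ] at tr ⊢
  -- `Y`
  have yb : |Y| ≤ 101 / 100 * s := by
    have h1 : |Y| ≤ |Y - t| + |t| := by
      have := abs_add_le (Y - t) t
      rwa [sub_add_cancel] at this
    have : ε * s ≤ 1 / 100 * s := mul_le_mul_of_nonneg_right (by linarith) s0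
    linarith
  have xb : |X| ≤ 4 * s := by
    rw [hX]
    have h1 : |L * Y| ≤ 21 / 10 * (101 / 100 * s) := by
      rw [abs_mul, abs_of_nonneg L0]
      exact mul_le_mul L2 yb (abs_nonneg _) (by norm_num)
    have h2 : (1 + ε) * s ≤ (1 + 1 / 100) * s := mul_le_mul_of_nonneg_right (by linarith) s0
    have h3 := abs_add_le (GA σ τ u z A B) (L * Y)
    linarith
  have xy := num1 xb yb
  have y2 : Y ^ 2 ≤ 2 * t ^ 2 + w / 1000000000 := by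
    have h1 : Y ^ 2 ≤ 2 * (t ^ 2 + (Y - t) ^ 2) := by
      have := sum_sq (x := t) (y := Y - t)
      rwa [add_sub_cancel] at this
    have h2 : (Y - t) ^ 2 ≤ (ε * s) ^ 2 := by
      rw [← sq_abs]; exact pow_le_pow_left₀ (abs_nonneg _) yr 2
    have h3 : (ε * s) ^ 2 = ε * ε * s ^ 2 := by ring
    have h4 : ε * ε ≤ 1 / 10000000000 * (1 / 10000000000) :=
      mul_le_mul hε hε ε0 (by norm_num)
    have h5 : ε * ε * s ^ 2 ≤ 1 / 10000000000 * (1 / 10000000000) * (2 * w) :=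
      mul_le_mul h4 sw (sq_nonneg _) (by norm_num)
    linarith
  -- the parts
  have ri : 0 < (r z)⁻¹ := inv_pos.2 hr
  have p1 : (Φ₁ + G₀) * (g * (dd A A + dd B B)) ≤ (Φ₁ + G₀) * TH σ τ u z A B :=
    mul_le_mul_of_nonneg_left tu (by linarith)
  have p2 : (G₀ * L + D₀₁) * ((r z)⁻¹ * (Q - t ^ 2) - ε / r z * (4 * w)) ≤
      (G₀ * L + D₀₁) * TH σ τ r z A B := by
    refine mul_le_mul_of_nonneg_left ?_ μ2
    have h1 := (abs_le.1 tr).1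
    have h2 : ε / r z * (dd A A + dd B B) ≤ ε / r z * (4 * w) :=
      mul_le_mul_of_nonneg_left AB (div_nonneg ε0 hr.le)
    linarith
  have p3 : (G₀ * L + D₀₁) * (ε / r z * (4 * w)) ≤ G₀ * (r z)⁻¹ * (w * (1 / 1000000000)) := by
    have h1 : G₀ * L + D₀₁ ≤ G₀ * (212 / 100) := by
      have := (abs_le.1 μ1).2
      have := mul_le_mul_of_nonneg_left L2 G0.le
      linarith
    have h2 : (G₀ * L + D₀₁) * (ε / r z * (4 * w)) ≤ G₀ * (212 / 100) * (ε / r z * (4 * w)) :=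
      mul_le_mul_of_nonneg_right h1 (by positivity)
    have h3 : G₀ * (212 / 100) * (ε / r z * (4 * w)) = G₀ * (r z)⁻¹ * w * (848 / 100 * ε) := by
      rw [div_eq_mul_inv]; ring
    have h4 : G₀ * (r z)⁻¹ * w * (848 / 100 * ε) ≤ G₀ * (r z)⁻¹ * w * (1 / 1000000000) :=
      mul_le_mul_of_nonneg_left (by linarith) (by positivity)
    linarith
  have p4 : κ * G₀ * (X + om * Y) ^ 2 - G₀ * (r z)⁻¹ * (w * (1 / 50000000)) ≤
      D₂₀ * X ^ 2 + 2 * D₁₁ * (X * Y) + D₀₂ * Y ^ 2 := by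
    have h1 : D₂₀ * X ^ 2 + 2 * D₁₁ * (X * Y) + D₀₂ * Y ^ 2 = κ * G₀ * (X + om * Y) ^ 2 +
        (2 * (D₁₁ - κ * G₀ * om) * (X * Y) + (D₀₂ - κ * G₀ * om ^ 2) * Y ^ 2) := by
      rw [k20]; ring
    have h2 : |(D₁₁ - κ * G₀ * om) * (X * Y)| ≤ ε₁ * (G₀ / r z) * |X * Y| := by
      rw [abs_mul]; exact mul_le_mul_of_nonneg_right k11 (abs_nonneg _)
    have h3 : |(D₀₂ - κ * G₀ * om ^ 2) * Y ^ 2| ≤ ε₁ * (G₀ / r z) * Y ^ 2 := by
      rw [abs_mul, abs_of_nonneg (sq_nonneg Y)]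
      exact mul_le_mul_of_nonneg_right k02 (sq_nonneg _)
    have h4 : ε₁ * (G₀ / r z) * (2 * |X * Y| + Y ^ 2) ≤
        1 / 1000000000 * (G₀ / r z) * (20 * w) := by
      refine mul_le_mul ?_ ?_ (by positivity) (by positivity)
      · exact mul_le_mul_of_nonneg_right hε₁ (by positivity)
      · refine xy.trans ?_
        have : 2 * (4 * s * (101 / 100 * s)) + (101 / 100 * s) ^ 2 = 91001 / 10000 * s ^ 2 := by
          ring
        rw [this]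
        linarith
    have h5 : 1 / 1000000000 * (G₀ / r z) * (20 * w) = G₀ * (r z)⁻¹ * (w * (1 / 50000000)) := by
      rw [div_eq_mul_inv]; ring
    rw [h5] at h4
    rw [h1]
    have h2' := (abs_le.1 h2).1
    have h3' := (abs_le.1 h3).1
    linarith
  have p5 : -(2 * G₀ * |L₁| * t ^ 2) - G₀ * (r z)⁻¹ * (w * (1 / 1000000000)) ≤
      G₀ * (L₁ * Y ^ 2) := by
    have h1 : -(|L₁| * Y ^ 2) ≤ L₁ * Y ^ 2 := by
      have := mul_le_mul_of_nonneg_right (neg_abs_le L₁) (sq_nonneg Y)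
      linarith
    have h2 : |L₁| * Y ^ 2 ≤ |L₁| * (2 * t ^ 2 + w / 1000000000) :=
      mul_le_mul_of_nonneg_left y2 (abs_nonneg _)
    have h3 : |L₁| ≤ (r z)⁻¹ := by
      rw [← one_div, le_div_iff₀ hr]; exact r1
    have h4 : |L₁| * (w / 1000000000) ≤ (r z)⁻¹ * (w / 1000000000) :=
      mul_le_mul_of_nonneg_right h3 (by positivity)
    have h5 : -(|L₁| * (2 * t ^ 2) + (r z)⁻¹ * (w / 1000000000)) ≤ L₁ * Y ^ 2 := by linarith
    have h6 := mul_le_mul_of_nonneg_left h5 G0.le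
    linarith
  have e1 : (G₀ * L + D₀₁) / r z * (Q - t ^ 2) = (G₀ * L + D₀₁) * ((r z)⁻¹ * (Q - t ^ 2)) := by
    rw [div_eq_mul_inv]; ring
  have e2 : G₀ / (30000000 * r z) * w = G₀ * (r z)⁻¹ * (w * (1 / 30000000)) := by
    field_simp
  rw [e1, e2, hT]
  have e3 : 0 ≤ G₀ * (r z)⁻¹ * w := by positivity
  linarith

/-- Change of the direction `h` in the second derivatives. -/
lemma sq_h_change {h h' Q : ι → ℝ} {η : ℝ} (hh : dd h h = 1) (hh' : dd h' h' = 1)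
    (h1 : nn (h - h') ≤ η) : |dd h Q ^ 2 - dd h' Q ^ 2| ≤ 2 * η * dd Q Q := by
  have e1 : dd h Q ^ 2 - dd h' Q ^ 2 = dd (h - h') Q * (dd h Q + dd h' Q) := by
    rw [dd_sub_left]; ring
  rw [e1, abs_mul]
  have a1 := dd_le_nn (h - h') Q
  have a2 := dd_le_nn h Q
  have a3 := dd_le_nn h' Q
  rw [nn_one hh, one_mul] at a2
  rw [nn_one hh', one_mul] at a3
  have a4 : |dd h Q + dd h' Q| ≤ 2 * nn Q := (abs_add_le _ _).trans (by linarith)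
  have a5 : |dd (h - h') Q| ≤ η * nn Q := a1.trans (mul_le_mul_of_nonneg_right h1 (nn_nonneg _))
  have η0 : 0 ≤ η := (nn_nonneg _).trans h1
  calc |dd (h - h') Q| * |dd h Q + dd h' Q| ≤ η * nn Q * (2 * nn Q) :=
        mul_le_mul a5 a4 (abs_nonneg _) (mul_nonneg η0 (nn_nonneg _))
    _ = 2 * η * (nn Q * nn Q) := by ring
    _ = _ := by rw [nn_mul_self]

/-- The certificate from the model form of the gradients. -/
theorem cert_core6 {G₀ D₀₁ D₂₀ D₁₁ D₀₂ Φ₁ Φ₂ L L₁ κ om ε₁ : ℝ} {γ γ' : ι → E → ℝ}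
    (G : Geo σ τ u r e h ε g z)
    (hε : ε ≤ 1 / 10000000000) (hε₁ : ε₁ ≤ 1 / 1000000000)
    (G0 : 0 < G₀) (L1 : 1 / 10 ≤ L) (L2 : L ≤ 21 / 10) (o1 : |om| ≤ 1 / 50)
    (μ1 : |D₀₁| ≤ 1 / 50 * G₀) (hκ : 3 ≤ κ * r z)
    (k20 : D₂₀ = κ * G₀) (k11 : |D₁₁ - κ * G₀ * om| ≤ ε₁ * (G₀ / r z))
    (k02 : |D₀₂ - κ * G₀ * om ^ 2| ≤ ε₁ * (G₀ / r z)) (r1 : 30000000 * (|L₁| * r z) ≤ 1)
    (hr1 : 1 ≤ r z) (Φ0 : 0 ≤ Φ₁)
    {e' h' : ι → ℝ} {l ν₁ ℓ₁ ν₂ ℓ₂ : ℝ} (hee' : dd e' e' = 1) (hhh' : dd h' h' = 1)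
    (hs : (1 / 2 : ℝ) • (gr σ u z + (L + om) • gr σ r z) +
      (1 / 2 : ℝ) • (gr τ u z + (L + om) • gr τ r z) = l • e')
    (hl : |l - 1| ≤ 4 * ε) (hde : nn (e - e') ≤ 2 * (4 * ε)) (hdh : nn (h - h') ≤ 26 * ε)
    (hl1 : 0 ≤ ℓ₁) (hl2 : 0 ≤ ℓ₂) (hl1' : ℓ₁ ≤ 2 * 5 * ν₁) (hl2' : ℓ₂ ≤ 2 * 5 * ν₂)
    (p1 : 0 < dd (gr σ W z) (gr σ W z)) (p2 : 0 < dd (gr τ W z) (gr τ W z))
    (b1 : nn (gr σ W z - v1 e' h' ν₁ ℓ₁) ≤ 1 / 67200 * nn (gr σ W z))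
    (b2 : nn (gr τ W z - v2 e' h' ν₂ ℓ₂) ≤ 1 / 67200 * nn (gr τ W z))
    (hγ : ∀ l, γ l z = G₀ / (300000 * r z) * (20 * h l + e l))
    (hγ' : ∀ l, γ' l z = G₀ / (300000 * r z) * (-20 * h l + e l))
    (A B : ι → ℝ)
    (hT : TH σ τ W z A B = Φ₁ * TH σ τ u z A B + Φ₂ * GA σ τ u z A B ^ 2 +
      (G₀ * (TH σ τ u z A B + L * TH σ τ r z A B + L₁ * GA σ τ r z A B ^ 2) +
        D₀₁ * TH σ τ r z A B) +
      (D₂₀ * (GA σ τ u z A B + L * GA σ τ r z A B) ^ 2 +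
        2 * D₁₁ * ((GA σ τ u z A B + L * GA σ τ r z A B) * GA σ τ r z A B) +
        D₀₂ * GA σ τ r z A B ^ 2)) :
    (G₀ / (3300000 * r z) + (Φ₁ + G₀) * g) * (dd A A + dd B B) + Φ₂ * GA σ τ u z A B ^ 2 ≤
      TH σ τ W z A B + tc σ (cf σ e W γ) W z A + tc τ (cf τ e W γ') W z B := by
  have hr := G.r0
  have ε0 := G.ε0
  have mb := abs_le.1 μ1
  have ob := abs_le.1 o1
  have l1 : |L₁| * r z ≤ 1 := by
    have : 0 ≤ |L₁| * r z := mul_nonneg (abs_nonneg _) hr.le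
    linarith
  have hL1 : |L₁| ≤ 1 := by
    have := mul_le_mul_of_nonneg_left hr1 (abs_nonneg L₁)
    linarith
  have μ2 : 0 ≤ G₀ * L + D₀₁ := by
    have := mul_le_mul_of_nonneg_left L1 G0.le
    linarith
  have main := main_lb6 (Φ₂ := Φ₂) (T := TH σ τ W z A B) G hε hε₁ G0 (by linarith) L2 hL1 μ1 μ2
    k20 k11 k02 l1 Φ0 A B rfl rfl hT
  rw [tc_TM, tc_TM]
  obtain ⟨δ, hδ⟩ : ∃ δ, δ = G₀ / (300000 * r z) := ⟨_, rfl⟩
  have δ0 : 0 < δ := by rw [hδ]; positivity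
  have hδr : δ * r z = G₀ / 300000 := by rw [hδ]; field_simp
  have hG : G₀ = 300000 * (δ * r z) := by rw [hδr]; ring
  have c1 : (fun l => cf σ e W γ l z) =
      fl e (gr σ W z) ((4 * 5 * δ) • h + δ • e) := by
    refine cf_eq fun l => ?_
    rw [hγ l, ← hδ]
    simp only [Pi.add_apply, Pi.smul_apply, smul_eq_mul]
    ring
  have c2 : (fun l => cf τ e W γ' l z) =
      fl e (gr τ W z) ((-(4 * 5 * δ)) • h + δ • e) := by
    refine cf_eq fun l => ?_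
    rw [hγ' l, ← hδ]
    simp only [Pi.add_apply, Pi.smul_apply, smul_eq_mul]
    ring
  rw [c1, c2]
  have s4 : (G₀ * L + D₀₁) / r z = 300000 * (L * δ) + D₀₁ / r z := by
    rw [add_div]
    congr 1
    rw [hG]; field_simp
  have s5 : -(1 / 50 * (300000 * δ)) ≤ D₀₁ / r z := by
    rw [le_div_iff₀ hr]
    have : 1 / 50 * (300000 * δ) * r z = 1 / 50 * G₀ := by
      rw [hG]; ring
    linarith
  have t1 : 7 * (δ * (4 * 5 + 1) ^ 2) ≤ 4 * κ * G₀ * (4 / 125) ^ 2 := by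
    have h2 : 3 * δ ≤ κ * r z * δ := mul_le_mul_of_nonneg_right hκ δ0.le
    have h3 : 4 * κ * G₀ = 1200000 * (κ * r z * δ) := by rw [hG]; ring
    rw [h3]; linarith
  have t2 : 6 * (δ * (4 * 5 + 1) ^ 2) ≤ (G₀ * L + D₀₁) / r z := by
    rw [s4]
    have := mul_le_mul_of_nonneg_right L1 δ0.le
    linarith
  have t3 : 50 * (2 * G₀ * |L₁|) ≤ δ := by
    have h2 : 50 * (2 * G₀ * |L₁|) = 30000000 * (|L₁| * r z) * δ := by rw [hG]; ring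
    rw [h2]
    have := mul_le_mul_of_nonneg_right r1 δ0.le
    linarith
  have hA := (up_A (by linarith) (G.nx A)).2
  have hB := (up_A (by linarith) (G.ny B)).2
  have hA' : nn (A - sU σ z A) ≤ 1 / 67200 * nn (sU σ z A) :=
    hA.trans (mul_le_mul_of_nonneg_right (by linarith) (nn_nonneg _))
  have hB' : nn (B - sU τ z B) ≤ 1 / 67200 * nn (sU τ z B) :=
    hB.trans (mul_le_mul_of_nonneg_right (by linarith) (nn_nonneg _))
  have sq : 4 * κ * G₀ * (dd ((1 / 2 : ℝ) • (gr σ u z + (L + om) • gr σ r z)) (sU σ z A) +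
      dd ((1 / 2 : ℝ) • (gr τ u z + (L + om) • gr τ r z)) (sU τ z B)) ^ 2 =
      κ * G₀ * (GA σ τ u z A B + L * GA σ τ r z A B + om * GA σ τ r z A B) ^ 2 := by
    rw [GA_dd G.sσ G.sτ, GA_dd G.sσ G.sτ]
    simp only [dd_smul_left, dd_add_left]
    ring
  have hφd : nn ((1 / 2 : ℝ) • (gr σ u z + (L + om) • gr σ r z) -
      (1 / 2 : ℝ) • (gr τ u z + (L + om) • gr τ r z) - (2 * ((L + om) / 2)) • h') ≤
      4 / 125 / 8 := by
    have e1 : (1 / 2 : ℝ) • (gr σ u z + (L + om) • gr σ r z) -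
      (1 / 2 : ℝ) • (gr τ u z + (L + om) • gr τ r z) - (2 * ((L + om) / 2)) • h' =
      ((1 / 2 : ℝ) • (gr σ u z + (L + om) • gr σ r z) -
      (1 / 2 : ℝ) • (gr τ u z + (L + om) • gr τ r z) - (2 * ((L + om) / 2)) • h) +
      (L + om) • (h - h') := by
      funext i
      simp only [Pi.add_apply, Pi.sub_apply, Pi.smul_apply, smul_eq_mul]
      ring
    rw [e1]
    refine (nn_add_le _ _).trans ?_
    rw [nn_smul]
    have h1 := om_diff5 G (by linarith) L2 o1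
    have h2 : |L + om| ≤ 3 := by rw [abs_le]; constructor <;> linarith
    have h3 : |L + om| * nn (h - h') ≤ 3 * (26 * ε) :=
      mul_le_mul h2 hdh (nn_nonneg _) (by norm_num)
    linarith
  -- the change of `h`
  have hch := sq_h_change (Q := sU σ z A - sU τ z B) G.hh hhh' hdh
  have hQ : dd (sU σ z A - sU τ z B) (sU σ z A - sU τ z B) ≤
      2 * (dd (sU σ z A) (sU σ z A) + dd (sU τ z B) (sU τ z B)) := by
    have := dd_self_nonneg (sU σ z A + sU τ z B)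
    simp only [dd_add_left, dd_add_right, dd_sub_left, dd_sub_right,
      dd_comm (sU τ z B) (sU σ z A)] at this ⊢
    linarith
  have hTT : 4 * κ * G₀ * (dd ((1 / 2 : ℝ) • (gr σ u z + (L + om) • gr σ r z)) (sU σ z A) +
      dd ((1 / 2 : ℝ) • (gr τ u z + (L + om) • gr τ r z)) (sU τ z B)) ^ 2 +
      ((G₀ * L + D₀₁) / r z * (dd (sU σ z A - sU τ z B) (sU σ z A - sU τ z B) -
        dd h' (sU σ z A - sU τ z B) ^ 2) - 2 * G₀ * |L₁| * dd h' (sU σ z A - sU τ z B) ^ 2) -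
      δ / 50 * (dd (sU σ z A) (sU σ z A) + dd (sU τ z B) (sU τ z B)) ≤
      TH σ τ W z A B - Φ₂ * GA σ τ u z A B ^ 2 - (Φ₁ + G₀) * g * (dd A A + dd B B) := by
    rw [sq]
    have e1 : G₀ / (30000000 * r z) = δ / 100 := by rw [hδ]; field_simp; norm_num
    rw [e1] at main
    obtain ⟨w, hw⟩ : ∃ w, w = dd (sU σ z A) (sU σ z A) + dd (sU τ z B) (sU τ z B) := ⟨_, rfl⟩
    have w0 : 0 ≤ w := by rw [hw]; exact add_nonneg (dd_self_nonneg _) (dd_self_nonneg _)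
    rw [← hw] at main hQ ⊢
    obtain ⟨a, ha⟩ : ∃ a, a = dd h (sU σ z A - sU τ z B) ^ 2 := ⟨_, rfl⟩
    obtain ⟨b, hb⟩ : ∃ b, b = dd h' (sU σ z A - sU τ z B) ^ 2 := ⟨_, rfl⟩
    rw [← ha] at main hch
    rw [← hb] at hch ⊢
    have hd : |a - b| ≤ 104 * ε * w := by
      refine hch.trans ?_
      have := mul_le_mul_of_nonneg_left hQ (by positivity : 0 ≤ 2 * (26 * ε))
      linarith
    have hab := abs_le.1 hd
    have k1 : (G₀ * L + D₀₁) / r z ≤ 636000 * δ := by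
      rw [div_le_iff₀ hr]
      have := mul_le_mul_of_nonneg_left L2 G0.le
      have : 636000 * δ * r z = 212 / 100 * G₀ := by rw [hG]; ring
      linarith
    have k0 : 0 ≤ (G₀ * L + D₀₁) / r z := div_nonneg μ2 hr.le
    have m1 : 2 * G₀ * |L₁| ≤ δ / 50 := by linarith
    have m0 : 0 ≤ 2 * G₀ * |L₁| := by positivity
    have x0 : 0 ≤ 104 * ε * w := by positivity
    have x1 : ((G₀ * L + D₀₁) / r z + 2 * G₀ * |L₁|) * (a - b) ≤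
        (636001 * δ) * (104 * ε * w) := by
      refine (mul_le_mul_of_nonneg_left hab.2 (by linarith)).trans ?_
      exact mul_le_mul_of_nonneg_right (by linarith) x0
    have x2 : (636001 * δ) * (104 * ε * w) ≤ δ / 100 * w := by
      have h1 : (636001 * δ) * (104 * ε * w) = (66144104 * ε) * (δ * w) := by ring
      have h2 : 66144104 * ε ≤ 1 / 100 := by linarith
      rw [h1]
      have := mul_le_mul_of_nonneg_right h2 (mul_nonneg δ0.le w0)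
      linarith
    linarith
  have hν : 3200 * (5 * nn (h - h')) ≤ 1 := by linarith
  have fin := far_rob6 (ν₁ := ν₁) (ℓ₁ := ℓ₁) (ν₂ := ν₂) (ℓ₂ := ℓ₂)
    (L := (L + om) / 2) (Λ := 5) (κ := 4 * κ * G₀) (k := (G₀ * L + D₀₁) / r z)
    (m := 2 * G₀ * |L₁|) (δ := δ) (ε := 1 / 67200) (ε₀ := 4 * ε) (ℓ₀ := 4 / 125)
    (T := TH σ τ W z A B - Φ₂ * GA σ τ u z A B ^ 2 - (Φ₁ + G₀) * g * (dd A A + dd B B))
    (U := sU σ z A) (V := sU τ z B) (A := A) (B := B)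
    G.ee hee' hhh' G.hh (by norm_num) hs hl hde hφd hν
    (by linarith) (by norm_num) (by norm_num) (by linarith) (by norm_num; linarith) δ0 t1 t2 t3
    hl1 hl2 hl1' hl2' p1 p2 b1 b2 hA' hB' hTT
  have h2 : δ / 11 = G₀ / (3300000 * r z) := by rw [hδ]; field_simp; norm_num
  rw [h2] at fin
  linarith


end Vale.Agent.P088.R2.H230.W
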