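import Vale.Agent.P088.R2.H230.W.CvJ

/-!
# P088, stage 3: the certificate away from the diagonal in curved slots, no condition on the
size of the gradients
-/

open Set Filter
open scoped ContDiff Topology

noncomputable section

namespace Vale.Agent.P088.R2.H230.W

open Vale.Agent.P088.R2.H961.GW Vale.Agent.P088.R2.H960.W Vale.Agent.P088.R2.H644.Ch

section vec

variable {ι : Type*} [Fintype ι]

/-- Where the gradient is small the model direction can be turned so that the gradient has exactly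
the model form. -/
lemma turn {w e' h : ι → ℝ} {ν ℓ ε : ℝ} (he' : dd e' e' = 1) (hh : dd h h = 1) (hν : 0 < ν)
    (hℓ : 0 ≤ ℓ) (hℓν : ℓ ≤ 22 / 10 * ν) (hε : ε ≤ 1 / 10000000000)
    (h1 : nn (w - (ν • e' + ℓ • h)) ≤ 12 * ε * ν) (h2 : nn w ≤ 1 / 1000 * ν) :
    ∃ (h' : ι → ℝ) (ℓ₁ : ℝ), dd h' h' = 1 ∧ w = ν • e' + ℓ₁ • h' ∧ 0 ≤ ℓ₁ ∧ ℓ₁ ≤ 10 * ν ∧
      nn (h - h') ≤ 26 * ε := by
  have ε0 : 0 ≤ 12 * ε * ν := (nn_nonneg _).trans h1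
  have ε0' : 0 ≤ ε := by
    by_contra hneg
    have := mul_neg_of_neg_of_pos (not_le.1 hneg) hν
    linarith
  have εν : ε * ν ≤ 1 / 10000000000 * ν := mul_le_mul_of_nonneg_right hε hν.le
  obtain ⟨x, hx⟩ : ∃ x, x = w - ν • e' := ⟨_, rfl⟩
  have nx : ν ≤ nn x + nn w := by
    have e1 : ν • e' = w - x := by rw [hx]; abel
    have e2 := nn_sub_le w x
    rw [← e1, nn_smul, nn_one he', abs_of_pos hν] at e2
    linarith
  have nx2 : nn (x - ℓ • h) ≤ 12 * ε * ν := by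
    have e1 : x - ℓ • h = w - (ν • e' + ℓ • h) := by rw [hx]; abel
    rw [e1]; exact h1
  have nx3 : nn x ≤ ℓ + 12 * ε * ν := by
    have := nn_le_add x (ℓ • h)
    rw [nn_smul, nn_one hh, abs_of_nonneg hℓ] at this
    linarith
  have ℓlo : 99 / 100 * ν ≤ ℓ := by linarith
  have ℓ0 : 0 < ℓ := by linarith
  have n4 : nn (ℓ⁻¹ • x - h) ≤ 13 * ε := by
    have e1 : ℓ⁻¹ • x - h = ℓ⁻¹ • (x - ℓ • h) := by
      rw [smul_sub, smul_smul, inv_mul_cancel₀ ℓ0.ne', one_smul]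
    rw [e1, nn_smul, abs_of_pos (inv_pos.2 ℓ0), inv_mul_le_iff₀ ℓ0]
    have := mul_le_mul_of_nonneg_left ℓlo ε0'
    linarith
  obtain ⟨l', h', l'0, l'1, hh', hxe, hde⟩ := unit_near hh n4 (by linarith)
  have l'b := abs_le.1 l'1
  refine ⟨h', ℓ * l', hh', ?_, by positivity, ?_, by linarith⟩
  · have e1 : x = ℓ • (ℓ⁻¹ • x) := by rw [smul_smul, mul_inv_cancel₀ ℓ0.ne', one_smul]
    rw [hxe, smul_smul] at e1
    rw [← e1, hx]; abel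
  · have h3 : ℓ * l' ≤ 22 / 10 * ν * 2 :=
      mul_le_mul hℓν (by linarith) l'0.le (by linarith)
    linarith

/-- The gradient in the other slot is large. -/
lemma other {w₁ w₂ e' h h' : ι → ℝ} {ν ℓ ε : ℝ} (he' : dd e' e' = 1) (hν : 0 < ν)
    (hℓ : 0 ≤ ℓ) (hℓν : ℓ ≤ 22 / 10 * ν) (hε : ε ≤ 1 / 10000000000)
    (h1 : nn (w₁ - (ν • e' + ℓ • h)) ≤ 12 * ε * ν)
    (h2 : nn (w₂ - (ν • e' - ℓ • h)) ≤ 12 * ε * ν) (h3 : nn w₁ ≤ 1 / 1000 * ν)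
    (h4 : nn (h - h') ≤ 26 * ε) :
    nn (w₂ - (ν • e' - ℓ • h')) ≤ 1 / 67200 * nn w₂ := by
  have ε0' : 0 ≤ ε := by linarith [nn_nonneg (h - h')]
  have εν : ε * ν ≤ 1 / 10000000000 * ν := mul_le_mul_of_nonneg_right hε hν.le
  have big : 2 * ν ≤ nn w₁ + nn w₂ + 24 * ε * ν := by
    have e1 : (2 * ν) • e' = (w₁ + w₂) - ((w₁ - (ν • e' + ℓ • h)) + (w₂ - (ν • e' - ℓ • h))) := by
      funext i
      simp only [Pi.add_apply, Pi.sub_apply, Pi.smul_apply, smul_eq_mul]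
      ring
    have e2 := nn_sub_le (w₁ + w₂) ((w₁ - (ν • e' + ℓ • h)) + (w₂ - (ν • e' - ℓ • h)))
    rw [← e1, nn_smul, nn_one he', abs_of_pos (by linarith : 0 < 2 * ν)] at e2
    have e3 := nn_add_le w₁ w₂
    have e4 := nn_add_le (w₁ - (ν • e' + ℓ • h)) (w₂ - (ν • e' - ℓ • h))
    linarith
  have e1 : w₂ - (ν • e' - ℓ • h') = (w₂ - (ν • e' - ℓ • h)) - ℓ • (h - h') := by
    funext i
    simp only [Pi.sub_apply, Pi.smul_apply, smul_eq_mul]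
    ring
  rw [e1]
  refine (nn_sub_le _ _).trans ?_
  rw [nn_smul, abs_of_nonneg hℓ]
  have h5 : ℓ * nn (h - h') ≤ 22 / 10 * ν * (26 * ε) :=
    mul_le_mul hℓν h4 (nn_nonneg _) (by linarith)
  linarith

end vec

variable {E ι : Type*} [NormedAddCommGroup E] [NormedSpace ℝ E] [Fintype ι]

section at6

variable {σ τ : Sl E ι} {u r W : E → ℝ} {e h A B : ι → ℝ} {z : E} {ε g : ℝ}

/-- **The certificate for `W = Φ(u) + Ψ(f, r)`, `f = u + log S(r)`, away from the diagonal, in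
curved slots, wherever the two gradients do not vanish.**  `G₀ = Ψ_f`, `D₀₁ = Ψ_r`,
`D₂₀, D₁₁, D₀₂` the second derivatives of `Ψ`, `L = S'/S`, `L₁ = L'`, `Φ₁ = Φ'(u)`,
`Φ₂ = Φ''(u)`. -/
theorem cert_far_at6 {G₀ D₀₁ D₂₀ D₁₁ D₀₂ Φ₁ Φ₂ L L₁ κ om ε₁ : ℝ} {γ γ' : ι → E → ℝ}
    (G : Geo σ τ u r e h ε g z)
    (hε : ε ≤ 1 / 10000000000) (hε₁ : ε₁ ≤ 1 / 1000000000)
    (G0 : 0 < G₀) (L1 : 1 / 10 ≤ L) (L2 : L ≤ 21 / 10) (o1 : |om| ≤ 1 / 50)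
    (μ1 : |D₀₁| ≤ 1 / 50 * G₀) (hκ : 3 ≤ κ * r z)
    (k20 : D₂₀ = κ * G₀) (k11 : |D₁₁ - κ * G₀ * om| ≤ ε₁ * (G₀ / r z))
    (k02 : |D₀₂ - κ * G₀ * om ^ 2| ≤ ε₁ * (G₀ / r z)) (r1 : 30000000 * (|L₁| * r z) ≤ 1)
    (hr1 : 1 ≤ r z) (Φ0 : 0 ≤ Φ₁)
    (w1 : gr σ W z = (Φ₁ + G₀) • gr σ u z + (G₀ * L + D₀₁) • gr σ r z)
    (w2 : gr τ W z = (Φ₁ + G₀) • gr τ u z + (G₀ * L + D₀₁) • gr τ r z)
    (p1 : 0 < dd (gr σ W z) (gr σ W z)) (p2 : 0 < dd (gr τ W z) (gr τ W z))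
    (hγ : ∀ l, γ l z = G₀ / (300000 * r z) * (20 * h l + e l))
    (hγ' : ∀ l, γ' l z = G₀ / (300000 * r z) * (-20 * h l + e l))
    (A B : ι → ℝ)
    (hT : TH σ τ W z A B = Φ₁ * TH σ τ u z A B + Φ₂ * GA σ τ u z A B ^ 2 +
      (G₀ * (TH σ τ u z A B + L * TH σ τ r z A B + L₁ * GA σ τ r z A B ^ 2) +
        D₀₁ * TH σ τ r z A B) +
      (D₂₀ * (GA σ τ u z A B + L * GA σ τ r z A B) ^ 2 +
        2 * D₁₁ * ((GA σ τ u z A B + L * GA σ τ r z A B) * GA σ τ r z A B) +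
        D₀₂ * GA σ τ r z A B ^ 2)) :
    (G₀ / (3300000 * r z) + (Φ₁ + G₀) * g) * (dd A A + dd B B) + Φ₂ * GA σ τ u z A B ^ 2 ≤
      TH σ τ W z A B + tc σ (cf σ e W γ) W z A + tc τ (cf τ e W γ') W z B := by
  have ε0 := G.ε0
  have mb := abs_le.1 μ1
  obtain ⟨l, e', -, hl, hee', hs, hde⟩ :=
    unit_near G.ee (om_sum G (by linarith) L2 o1) (by linarith)
  obtain ⟨ν, hν⟩ : ∃ ν, ν = Φ₁ + G₀ := ⟨_, rfl⟩
  obtain ⟨ℓ, hℓ⟩ : ∃ ℓ, ℓ = G₀ * L + D₀₁ := ⟨_, rfl⟩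
  have ν0 : 0 < ν := by rw [hν]; linarith
  have ℓ0 : 0 ≤ ℓ := by
    rw [hℓ]
    have := mul_le_mul_of_nonneg_left L1 G0.le
    linarith
  have ℓν : ℓ ≤ 22 / 10 * ν := by
    rw [hℓ, hν]
    have := mul_le_mul_of_nonneg_left L2 G0.le
    linarith
  have εν : 0 ≤ ε * ν := mul_nonneg ε0 ν0.le
  have hεν : ε * ν ≤ 1 / 10000000000 * ν := mul_le_mul_of_nonneg_right hε ν0.le
  have ch : ∀ x : ι → ℝ, nn (x - ν • e) ≤ 4 * ε * ν → nn (x - ν • e') ≤ 12 * ε * ν := by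
    intro x hx
    have e1 : x - ν • e' = (x - ν • e) + ν • (e - e') := by
      rw [smul_sub]; abel
    rw [e1]
    refine (nn_add_le _ _).trans ?_
    rw [nn_smul, abs_of_pos ν0]
    have := mul_le_mul_of_nonneg_left hde ν0.le
    linarith
  have n1 : nn (gr σ W z - (ν • e' + ℓ • h)) ≤ 12 * ε * ν := by
    have h1 : nn (gr σ W z - (ν • e + ℓ • h)) ≤ 4 * ε * ν := by
      rw [w1, ← hν, ← hℓ]; exact w_near ν0.le ℓ0 ℓν ε0 G.ux G.rx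
    have e1 : gr σ W z - (ν • e' + ℓ • h) = (gr σ W z - ℓ • h) - ν • e' := by abel
    have e2 : gr σ W z - (ν • e + ℓ • h) = (gr σ W z - ℓ • h) - ν • e := by abel
    rw [e1]; rw [e2] at h1
    exact ch _ h1
  have n2 : nn (gr τ W z - (ν • e' - ℓ • h)) ≤ 12 * ε * ν := by
    have h1 : nn (gr τ W z - (ν • e - ℓ • h)) ≤ 4 * ε * ν := by
      have h3 : nn (gr τ r z - -h) ≤ ε := by rw [sub_neg_eq_add]; exact G.ry
      have := w_near ν0.le ℓ0 ℓν ε0 G.uy h3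
      rw [w2, ← hν, ← hℓ, sub_eq_add_neg (ν • e) (ℓ • h), ← smul_neg]
      exact this
    have e1 : gr τ W z - (ν • e' - ℓ • h) = (gr τ W z + ℓ • h) - ν • e' := by abel
    have e2 : gr τ W z - (ν • e - ℓ • h) = (gr τ W z + ℓ • h) - ν • e := by abel
    rw [e1]; rw [e2] at h1
    exact ch _ h1
  by_cases c1 : 1000000 * (ε * ν) ≤ nn (gr σ W z)
  · by_cases c2 : 1000000 * (ε * ν) ≤ nn (gr τ W z)
    · exact cert_core6 G hε hε₁ G0 L1 L2 o1 μ1 hκ k20 k11 k02 r1 hr1 Φ0 hee' G.hh hs hl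
        hde (by rw [sub_self]; have : nn (0 : ι → ℝ) = 0 := by simp [nn, dd]
                rw [this]; positivity) ℓ0 ℓ0 (by linarith) (by linarith) p1 p2
        (ν₁ := ν) (ℓ₁ := ℓ) (ν₂ := ν) (ℓ₂ := ℓ)
        (by unfold v1; linarith) (by unfold v2; linarith) hγ hγ' A B hT
    · -- the gradient in the second slot is small
      rw [not_le] at c2
      have c2' : nn (gr τ W z) ≤ 1 / 1000 * ν := by linarith
      have n2' : nn (gr τ W z - (ν • e' + ℓ • (-h))) ≤ 12 * ε * ν := by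
        rw [smul_neg, ← sub_eq_add_neg]; exact n2
      have n1' : nn (gr σ W z - (ν • e' - ℓ • (-h))) ≤ 12 * ε * ν := by
        rw [smul_neg, sub_neg_eq_add]; exact n1
      have hhn : dd (-h) (-h) = 1 := by
        rw [← G.hh]; simp only [dd, Pi.neg_apply]
        exact Finset.sum_congr rfl fun i _ => by ring
      obtain ⟨h'', ℓ₂, hh'', hw, hℓ2, hℓ2', hdh⟩ := turn hee' hhn ν0 ℓ0 ℓν hε n2' c2'
      have ot := other hee' ν0 ℓ0 ℓν hε n2' n1' c2' hdh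
      have hhn' : dd (-h'') (-h'') = 1 := by
        rw [← hh'']; simp only [dd, Pi.neg_apply]
        exact Finset.sum_congr rfl fun i _ => by ring
      have hdh' : nn (h - -h'') ≤ 26 * ε := by
        have e1 : h - -h'' = -(-h - h'') := by abel
        rw [e1, nn_neg]; exact hdh
      refine cert_core6 G hε hε₁ G0 L1 L2 o1 μ1 hκ k20 k11 k02 r1 hr1 Φ0 hee' hhn' hs hl
        hde hdh' ℓ0 hℓ2 (by linarith) (by linarith) p1 p2
        (ν₁ := ν) (ℓ₁ := ℓ) (ν₂ := ν) (ℓ₂ := ℓ₂) ?_ ?_ hγ hγ' A B hT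
      · unfold v1
        rw [smul_neg, ← sub_eq_add_neg]
        exact ot
      · unfold v2
        have e1 : gr τ W z - (ν • e' - ℓ₂ • -h'') = 0 := by
          rw [smul_neg, sub_neg_eq_add, ← hw, sub_self]
        rw [e1]
        have : nn (0 : ι → ℝ) = 0 := by simp [nn, dd]
        rw [this]
        have := nn_nonneg (gr τ W z)
        positivity
  · -- the gradient in the first slot is small
    rw [not_le] at c1
    have c1' : nn (gr σ W z) ≤ 1 / 1000 * ν := by linarith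
    obtain ⟨h', ℓ₁, hh', hw, hℓ1, hℓ1', hdh⟩ := turn hee' G.hh ν0 ℓ0 ℓν hε n1 c1'
    have ot := other hee' ν0 ℓ0 ℓν hε n1 n2 c1' hdh
    refine cert_core6 G hε hε₁ G0 L1 L2 o1 μ1 hκ k20 k11 k02 r1 hr1 Φ0 hee' hh' hs hl
      hde hdh hℓ1 ℓ0 (by linarith) (by linarith) p1 p2
      (ν₁ := ν) (ℓ₁ := ℓ₁) (ν₂ := ν) (ℓ₂ := ℓ) ?_ ?_ hγ hγ' A B hT
    · unfold v1
      have e1 : gr σ W z - (ν • e' + ℓ₁ • h') = 0 := by rw [← hw, sub_self]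
      rw [e1]
      have : nn (0 : ι → ℝ) = 0 := by simp [nn, dd]
      rw [this]
      have := nn_nonneg (gr σ W z)
      positivity
    · unfold v2; exact ot

end at6

section cert

variable {σ τ : Sl E ι} {U : Set E} {θ θ' : E → ℝ} {u r : E → ℝ} {e h A B : ι → ℝ} {z : E}
  {ε g : ℝ} {Φ Φ₁ Φ₂ S S₁ S₂ : ℝ → ℝ} {D : ℕ → ℕ → ℝ → ℝ → ℝ}

/-- **The certificate away from the diagonal for the composed weight, wherever the two gradients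
do not vanish.** -/
theorem cert_far_wt6 {h : ι → E → ℝ} {κ om ε₁ : ℝ} (ok : σ.Ok U θ) (ot : τ.Ok U θ')
    (w : Wd U Φ Φ₁ Φ₂ S S₁ S₂ D u r) (hz : z ∈ U)
    (G : Geo σ τ u r e (fun l => h l z) ε g z) (hε : ε ≤ 1 / 10000000000)
    (hε₁ : ε₁ ≤ 1 / 1000000000)
    (G0 : 0 < D 1 0 (u z + S (r z)) (r z)) (L1 : 1 / 10 ≤ S₁ (r z)) (L2 : S₁ (r z) ≤ 21 / 10)
    (o1 : |om| ≤ 1 / 50)
    (μ1 : |D 0 1 (u z + S (r z)) (r z)| ≤ 1 / 50 * D 1 0 (u z + S (r z)) (r z))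
    (hκ : 3 ≤ κ * r z)
    (k20 : D 2 0 (u z + S (r z)) (r z) = κ * D 1 0 (u z + S (r z)) (r z))
    (k11 : |D 1 1 (u z + S (r z)) (r z) - κ * D 1 0 (u z + S (r z)) (r z) * om| ≤
      ε₁ * (D 1 0 (u z + S (r z)) (r z) / r z))
    (k02 : |D 0 2 (u z + S (r z)) (r z) - κ * D 1 0 (u z + S (r z)) (r z) * om ^ 2| ≤
      ε₁ * (D 1 0 (u z + S (r z)) (r z) / r z))
    (r1 : 30000000 * (|S₂ (r z)| * r z) ≤ 1) (hr1 : 1 ≤ r z) (Φ0 : 0 ≤ Φ₁ (u z))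
    (p1 : 0 < dd (gr σ (wt Φ S D u r) z) (gr σ (wt Φ S D u r) z))
    (p2 : 0 < dd (gr τ (wt Φ S D u r) z) (gr τ (wt Φ S D u r) z))
    (A B : ι → ℝ) :
    (D 1 0 (u z + S (r z)) (r z) / (3300000 * r z) +
        (Φ₁ (u z) + D 1 0 (u z + S (r z)) (r z)) * g) * (dd A A + dd B B) +
      Φ₂ (u z) * GA σ τ u z A B ^ 2 ≤
      TH σ τ (wt Φ S D u r) z A B +
      tc σ (cf σ e (wt Φ S D u r) (gF5 D S u r e h 20)) (wt Φ S D u r) z A +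
      tc τ (cf τ e (wt Φ S D u r) (gF5 D S u r e h (-20))) (wt Φ S D u r) z B :=
  cert_far_at6 G hε hε₁ G0 L1 L2 o1 μ1 hκ k20 k11 k02 r1 hr1 Φ0 (gr_wt ok w hz) (gr_wt ot w hz)
    p1 p2 (fun _ => rfl) (fun _ => rfl) A B (TH_wt ok ot w hz A B)

end cert

end Vale.Agent.P088.R2.H230.W
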