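import Vale.Agent.P088.R2.H230.W.FlT

/-!
# P088, stage 3: the fields with a variable direction `e`

`cv σ e W γ` is `cf` with a direction `e` which depends on the point. `Cb` is an abstract bound of
the coefficients, `smS_cb` gives the conditions `SmS` of zone A from it, `smS_cv` for the fields
`cv`.
-/

open Set
open scoped ContDiff

noncomputable section

namespace Vale.Agent.P088.R2.H230.W

open Vale.Agent.P088.R2.H961.GW Vale.Agent.P088.R2.H960.W Vale.Agent.P088.R2.H747.S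
open Vale.Agent.P088.R2.H747.SW

variable {E ι : Type*} [NormedAddCommGroup E] [NormedSpace ℝ E] [Fintype ι]
variable {σ : Sl E ι} {U : Set E} {θ : E → ℝ} {W m v : E → ℝ} {z : E} {B g₀ g₁ H : ℝ}

/-- The field of a slot with a variable direction. -/
def cv (σ : Sl E ι) (e : ι → E → ℝ) (W : E → ℝ) (γ : ι → E → ℝ) (l : ι) (z : E) : ℝ :=
  fl (fun j => e j z) (gr σ W z) (fun j => γ j z) l

/-- The bounds of the coefficients at a point. -/
structure Cb (σ : Sl E ι) (c : ι → E → ℝ) (W : E → ℝ) (B g₀ g₁ H : ℝ) (z : E) : Prop where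
  w0 : 0 < dd (gr σ W z) (gr σ W z)
  s : ∀ i j, |σ.s i j z| ≤ 2
  ds : ∀ l i j, |σ.D l (σ.s i j) z| ≤ B
  k : ∀ l, |σ.k l z| ≤ B
  et : ∀ l, |eta σ l z| ≤ B
  B0 : 0 ≤ B
  G0 : 0 ≤ g₀
  gg : (1 + B) * g₀ ≤ g₁
  c0 : nn (fun l => c l z) ≤ g₀ / nn (gr σ W z)
  c1 : ∀ i l, |σ.D i (c l) z| ≤ 3 * (H * g₀ / nn (gr σ W z) ^ 2) + g₁ / nn (gr σ W z)
  H : ∀ i, nn (fun j => σ.D i (σ.D j W) z) ≤ H

section abs

variable {c : ι → E → ℝ}

/-- The dummy direction `0`: the bounds `Bp` without the field. -/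
lemma Cb.bp (b : Cb σ c W B g₀ g₁ H z) :
    Bp σ (fun _ => 0) W (fun _ _ => 0) B g₀ g₁ H z where
  w0 := b.w0
  e1 := by
    have : nn (fun _ : ι => (0:ℝ)) = 0 := by simp [nn, dd]
    rw [this]; norm_num
  s := b.s
  ds := b.ds
  k := b.k
  et := b.et
  B0 := b.B0
  g0 := by
    have : nn (fun _ : ι => (0:ℝ)) = 0 := by simp [nn, dd]
    rw [this]; exact b.G0
  gg := b.gg
  g1 := fun i => by
    have e1 : (fun _ : ι => σ.D i (fun _ : E => (0:ℝ)) z) = fun _ => 0 := by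
      funext j; exact D_const σ 0 i z
    have : nn (fun _ : ι => (0:ℝ)) = 0 := by simp [nn, dd]
    show nn (fun _ : ι => σ.D i (fun _ : E => (0:ℝ)) z) ≤ g₁
    rw [e1, this]
    exact (mul_nonneg (by linarith [b.B0]) b.G0).trans b.gg
  H := b.H

lemma Cb.c0' (b : Cb σ c W B g₀ g₁ H z) (l : ι) : |c l z| ≤ g₀ / nn (gr σ W z) :=
  (abs_le_nn (fun l => c l z) l).trans b.c0

/-- The bound of `div (F c)`. -/
theorem dF_cb (b : Cb σ c W B g₀ g₁ H z) (ok : σ.Ok U θ) (hW : Sm U W) (hc : ∀ l, Sm U (c l))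
    (hz : z ∈ U) :
    |dF σ c W z| ≤ 10 * (Fintype.card ι : ℝ) ^ 2 * (H * g₀ + g₁ * nn (gr σ W z)) := by
  have hU := ok.op
  have hn := nn_pos b.w0
  obtain ⟨N, hN⟩ : ∃ N : ℝ, N = Fintype.card ι := ⟨_, rfl⟩
  obtain ⟨w, hw⟩ : ∃ w : ℝ, w = nn (gr σ W z) := ⟨_, rfl⟩
  have N0 : (0:ℝ) ≤ N := by rw [hN]; exact Nat.cast_nonneg _
  have G0 := b.G0
  have B0 := b.B0
  have G1 : 0 ≤ g₁ := (mul_nonneg (by linarith) G0).trans b.gg
  have hF := F_le b.bp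
  rw [← hN, ← hw] at hF
  rw [← hw] at hn
  rw [← hN, ← hw]
  have t : ∀ j, |σ.D j (fun z => σ.F W z * c j z) z +
      σ.k j z * (σ.F W z * c j z)| ≤ N * (10 * (H * g₀ + g₁ * w)) := by
    intro j
    have H0 : 0 ≤ H := (nn_nonneg _).trans (b.H j)
    have c0 := b.c0' j
    have c1 := b.c1 j j
    have d1 := DF_le b.bp ok hW hz j
    have k1 := b.k j
    rw [← hN, ← hw] at d1
    rw [← hw] at c0 c1
    rw [D_mul σ hU (ok.sF hW) (hc j) j hz]
    have x1 : |σ.D j (σ.F W) z * c j z| ≤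
        N * (B * w ^ 2 + 4 * (H * w)) * (g₀ / w) := by
      rw [abs_mul]
      exact mul_le_mul d1 c0 (abs_nonneg _) (by positivity)
    have x2 : |σ.F W z * σ.D j (c j) z| ≤
        2 * (N * w ^ 2) * (3 * (H * g₀ / w ^ 2) + g₁ / w) := by
      rw [abs_mul]
      exact mul_le_mul hF c1 (abs_nonneg _) (by positivity)
    have x3 : |σ.k j z * (σ.F W z * c j z)| ≤ B * (2 * (N * w ^ 2) * (g₀ / w)) := by
      rw [abs_mul, abs_mul]
      exact mul_le_mul k1 (mul_le_mul hF c0 (abs_nonneg _) (by positivity)) (by positivity) B0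
    have y1 : N * (B * w ^ 2 + 4 * (H * w)) * (g₀ / w) = N * (B * g₀ * w + 4 * (H * g₀)) := by
      field_simp
    have y2 : 2 * (N * w ^ 2) * (3 * (H * g₀ / w ^ 2) + g₁ / w) =
        N * (6 * (H * g₀) + 2 * (g₁ * w)) := by
      field_simp
      ring
    have y3 : B * (2 * (N * w ^ 2) * (g₀ / w)) = N * (2 * (B * g₀ * w)) := by
      field_simp
    rw [y1] at x1
    rw [y2] at x2
    rw [y3] at x3
    have z1 : B * g₀ * w ≤ g₁ * w := mul_le_mul_of_nonneg_right (by linarith [b.gg]) hn.le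
    have z2 := mul_le_mul_of_nonneg_left z1 N0
    have z3 : 0 ≤ N * (g₁ * w) := by positivity
    calc _ ≤ |σ.D j (σ.F W) z * c j z| + |σ.F W z * σ.D j (c j) z| +
          |σ.k j z * (σ.F W z * c j z)| :=
          (abs_add_le _ _).trans (add_le_add (abs_add_le _ _) le_rfl)
      _ ≤ _ := by linarith
  unfold dF
  calc _ ≤ ∑ j, |σ.D j (fun z => σ.F W z * c j z) z +
        σ.k j z * (σ.F W z * c j z)| := Finset.abs_sum_le_sum_abs _ _
    _ ≤ ∑ _j : ι, N * (10 * (H * g₀ + g₁ * w)) := Finset.sum_le_sum fun j _ => t j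
    _ = _ := by
        rw [Finset.sum_const, Finset.card_univ, nsmul_eq_mul, ← hN]; ring

/-- The bound of the error density of the field. -/
theorem eC_cb (b : Cb σ c W B g₀ g₁ H z) (hv : v z = 0) (hH : 0 ≤ H) (a : E → ℝ) :
    |eC σ c v W a z| ≤ 9 * (Fintype.card ι : ℝ) ^ 2 *
      (H * g₀ / nn (gr σ W z) ^ 2 + g₁ / nn (gr σ W z)) * ∑ i, YY σ W a i z ^ 2 := by
  have hn := nn_pos b.w0
  have G0 := b.G0
  have B0 := b.B0
  have G1 : 0 ≤ g₁ := (mul_nonneg (by linarith) G0).trans b.gg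
  obtain ⟨N, hN⟩ : ∃ N : ℝ, N = Fintype.card ι := ⟨_, rfl⟩
  obtain ⟨w, hw⟩ : ∃ w : ℝ, w = nn (gr σ W z) := ⟨_, rfl⟩
  have N0 : (0:ℝ) ≤ N := by rw [hN]; exact Nat.cast_nonneg _
  have NN : N ≤ N ^ 2 := by
    rw [hN]
    exact_mod_cast Nat.le_self_pow two_ne_zero _
  have h := eC_bd (v := v) (W := W) (a := a) (c := c) (S := 2) (B := B)
    (A₀ := g₀ / nn (gr σ W z)) (A₁ := 3 * (H * g₀ / nn (gr σ W z) ^ 2) + g₁ / nn (gr σ W z))
    b.s b.ds b.k b.et b.c0' b.c1 (by norm_num) B0 (by positivity) (by positivity)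
  rw [hv, zero_mul, ← hN, ← hw] at h
  rw [← hw] at hn
  rw [← hN, ← hw]
  have hY : 0 ≤ ∑ i, YY σ W a i z ^ 2 := Finset.sum_nonneg fun i _ => sq_nonneg _
  refine h.trans ?_
  have e1 : N ^ 2 * (3 / 2 * 2 * (3 * (H * g₀ / w ^ 2) + g₁ / w) +
      (5 / 2 * 2 + 1 / 2) * B * (g₀ / w)) * (∑ i, YY σ W a i z ^ 2) +
      1 / 2 * (g₀ / w) * (0 ^ 2 + N * ∑ i, YY σ W a i z ^ 2) =
      (N ^ 2 * (9 * (H * g₀ / w ^ 2) + 3 * (g₁ / w) + 11 / 2 * (B * g₀ / w)) +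
        N * (1 / 2 * (g₀ / w))) * ∑ i, YY σ W a i z ^ 2 := by ring
  rw [e1]
  refine mul_le_mul_of_nonneg_right ?_ hY
  have g1 : (1 + B) * g₀ / w ≤ g₁ / w := div_le_div_of_nonneg_right b.gg hn.le
  have g2 : (1 + B) * g₀ / w = g₀ / w + B * g₀ / w := by ring
  have g3 : 0 ≤ g₀ / w := by positivity
  have g4 : 0 ≤ B * g₀ / w := by positivity
  have g5 : N * (1 / 2 * (g₀ / w)) ≤ N ^ 2 * (1 / 2 * (g₀ / w)) :=
    mul_le_mul_of_nonneg_right NN (by positivity)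
  have N2 : 0 ≤ N ^ 2 := sq_nonneg N
  have g6 : 9 * (H * g₀ / w ^ 2) + 3 * (g₁ / w) + 11 / 2 * (B * g₀ / w) + 1 / 2 * (g₀ / w) ≤
      9 * (H * g₀ / w ^ 2 + g₁ / w) := by linarith
  have g7 := mul_le_mul_of_nonneg_left g6 N2
  linarith

/-- **The smallness conditions `SmS` of zone A from the bounds `Cb` of the coefficients.** -/
theorem smS_cb (b : Cb σ c W B g₀ g₁ H z) (ok : σ.Ok U θ) (hW : Sm U W)
    (hc : ∀ l, Sm U (c l)) (hv : v z = 0) (hz : z ∈ U) {η K M₁ : ℝ} (hη : 0 ≤ η) (hH : 0 ≤ H)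
    (m0 : 0 ≤ m z)
    (lo : ∀ A : ι → ℝ, ∑ i, A i ^ 2 ≤ 2 * ss σ A z)
    (sK : ∀ A B : ι → ℝ,
      (∑ i, ∑ j, σ.s i j z * A i * B j) ^ 2 ≤ K ^ 2 * ((∑ i, A i ^ 2) * ∑ i, B i ^ 2))
    (hm : ∀ i, |σ.D i m z| ≤ M₁)
    (c1 : 20 * (Fintype.card ι : ℝ) ^ 2 * (H * g₀ + g₁ * nn (gr σ W z)) ≤
      η * (m z * nn (gr σ W z) ^ 2))
    (c2 : 2 * (2 + m z) * g₀ ^ 2 ≤ η ^ 4 * (m z ^ 2 * nn (gr σ W z) ^ 2))
    (c3 : 6 * (Fintype.card ι : ℝ) ^ 2 * (m z * (H + B * nn (gr σ W z)) +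
      M₁ * nn (gr σ W z)) ≤ η * (m z * nn (gr σ W z) ^ 2)) :
    SmS σ W m c v η K z := by
  have hn := nn_pos b.w0
  have hF : nn (gr σ W z) ^ 2 ≤ 2 * σ.F W z := by
    have := lo (gr σ W z)
    have e1 : nn (gr σ W z) ^ 2 = ∑ i, gr σ W z i ^ 2 := by
      rw [nn_sq]; unfold dd; exact Finset.sum_congr rfl fun i _ => by ring
    rw [e1]
    exact this
  have hηm : 0 ≤ η * m z := mul_nonneg hη m0
  have hF2 := mul_le_mul_of_nonneg_left hF hηm
  refine ⟨m0, lo, sK, ?_, ?_, fun a => ?_, ?_⟩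
  · have := w1_bd b.bp m0 hm
    linarith
  · have := dF_cb b ok hW hc hz
    linarith
  · have h := eC_cb (v := v) b hv hH a
    have e2 : Ys σ W a z = ∑ i, YY σ W a i z ^ 2 := rfl
    rw [e2]
    refine h.trans ?_
    have e3 : η * (1 / 2 * m z * ∑ i, YY σ W a i z ^ 2) =
        η * (1 / 2 * m z) * ∑ i, YY σ W a i z ^ 2 := by ring
    rw [e3]
    refine mul_le_mul_of_nonneg_right ?_ (Finset.sum_nonneg fun i _ => sq_nonneg _)
    have e1 : 9 * (Fintype.card ι : ℝ) ^ 2 *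
        (H * g₀ / nn (gr σ W z) ^ 2 + g₁ / nn (gr σ W z)) =
        9 * (Fintype.card ι : ℝ) ^ 2 * (H * g₀ + g₁ * nn (gr σ W z)) / nn (gr σ W z) ^ 2 := by
      field_simp
    rw [e1, div_le_iff₀ (by positivity)]
    have G0 := b.G0
    have B0 := b.B0
    have G1 : 0 ≤ g₁ := (mul_nonneg (by linarith) G0).trans b.gg
    have : 0 ≤ (Fintype.card ι : ℝ) ^ 2 * (H * g₀ + g₁ * nn (gr σ W z)) := by positivity
    linarith
  · have e1 : ∑ i, c i z ^ 2 = nn (fun i => c i z) ^ 2 := by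
      rw [nn_sq]; unfold dd; exact Finset.sum_congr rfl fun i _ => by ring
    have h2 := pow_le_pow_left₀ (nn_nonneg _) b.c0 2
    rw [e1]
    have h3 : (2 + m z) * (g₀ / nn (gr σ W z)) ^ 2 ≤ η ^ 4 * (1 / 2 * m z ^ 2) := by
      rw [div_pow, ← mul_div_assoc, div_le_iff₀ (by positivity)]
      linarith
    exact (mul_le_mul_of_nonneg_left h2 (by linarith)).trans h3

end abs

/-! ### Variable directions -/

section lin

lemma dd_single [DecidableEq ι] (w : ι → ℝ) (k : ι) : dd w (Pi.single k 1) = w k := by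
  simp [dd, Pi.single_apply]

lemma sum_single [DecidableEq ι] (e : ι → ℝ) (l : ι) :
    ∑ k, e k * (Pi.single k (1:ℝ) : ι → ℝ) l = e l := by
  simp [Pi.single_apply]

lemma fm_lin [DecidableEq ι] (e w γ : ι → ℝ) (l : ι) :
    fm e w γ l = ∑ k, e k * fm (Pi.single k 1) w γ l := by
  simp only [fm, Pi.add_apply, Pi.sub_apply, Pi.smul_apply, smul_eq_mul, dd_single, mul_add,
    mul_sub, Finset.sum_add_distrib, Finset.sum_sub_distrib]
  have e1 : ∑ k, e k * (dd γ w * (Pi.single k (1:ℝ) : ι → ℝ) l) = dd γ w * e l := by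
    rw [← sum_single e l, Finset.mul_sum]
    exact Finset.sum_congr rfl fun k _ => by ring
  have e2 : ∑ k, e k * (w k * γ l) = dd w e * γ l := by
    unfold dd
    rw [Finset.sum_mul]
    exact Finset.sum_congr rfl fun k _ => by ring
  have e3 : ∑ k, e k * (γ k * w l) = dd γ e * w l := by
    unfold dd
    rw [Finset.sum_mul]
    exact Finset.sum_congr rfl fun k _ => by ring
  rw [e1, e2, e3]

lemma fl_lin [DecidableEq ι] (e w γ : ι → ℝ) (l : ι) :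
    fl e w γ l = ∑ k, e k * fl (Pi.single k 1) w γ l := by
  simp only [fl_eq, Pi.smul_apply, smul_eq_mul]
  rw [fm_lin, Finset.mul_sum]
  exact Finset.sum_congr rfl fun k _ => by ring

lemma dfl_lin [DecidableEq ι] (e w γ w' γ' : ι → ℝ) (l : ι) :
    dfl e w γ w' γ' l = ∑ k, e k * dfl (Pi.single k 1) w γ w' γ' l := by
  simp only [dfl, Pi.sub_apply, Pi.smul_apply, Pi.add_apply, smul_eq_mul]
  rw [fm_lin e w' γ, fm_lin e w γ', fl_lin e w γ, ← Finset.sum_add_distrib, Finset.mul_sum,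
    Finset.mul_sum, ← Finset.sum_sub_distrib]
  exact Finset.sum_congr rfl fun k _ => by ring

end lin

section var

variable {e γ : ι → E → ℝ}

/-- The field is smooth where `D W ≠ 0`. -/
theorem sm_cv (ok : σ.Ok U θ) (hW : Sm U W) (he : ∀ i, Sm U (e i)) (hγ : ∀ i, Sm U (γ i))
    (h0 : ∀ z ∈ U, 0 < dd (gr σ W z) (gr σ W z)) (l : ι) : Sm U (cv σ e W γ l) := by
  classical
  have e1 : cv σ e W γ l = fun z => ∑ k, e k z * cf σ (Pi.single k 1) W γ l z := by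
    funext z
    exact fl_lin _ _ _ l
  rw [e1]
  exact Sm.sum _ fun k _ => (he k).mul (sm_cf ok hW hγ h0 l)

/-- The derivations of a slot on the field. -/
theorem D_cv (hU : IsOpen U) (ok : σ.Ok U θ) (hW : Sm U W) (he : ∀ i, Sm U (e i))
    (hγ : ∀ i, Sm U (γ i)) (h0 : ∀ z ∈ U, 0 < dd (gr σ W z) (gr σ W z)) (hz : z ∈ U) (i l : ι) :
    σ.D i (cv σ e W γ l) z =
      fl (fun j => σ.D i (e j) z) (gr σ W z) (fun j => γ j z) l +
      dfl (fun j => e j z) (gr σ W z) (fun j => γ j z) (fun j => σ.D i (σ.D j W) z)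
        (fun j => σ.D i (γ j) z) l := by
  classical
  have e1 : cv σ e W γ l = fun z => ∑ k, e k z * cf σ (Pi.single k 1) W γ l z := by
    funext z
    exact fl_lin _ _ _ l
  rw [e1, D_sum σ hU _ (fun k _ => (he k).mul (sm_cf ok hW hγ h0 l)) i hz]
  have e2 : ∀ k, σ.D i (fun z => e k z * cf σ (Pi.single k 1) W γ l z) z =
      σ.D i (e k) z * fl (Pi.single k 1) (gr σ W z) (fun j => γ j z) l +
      e k z * dfl (Pi.single k 1) (gr σ W z) (fun j => γ j z) (fun j => σ.D i (σ.D j W) z)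
        (fun j => σ.D i (γ j) z) l := by
    intro k
    rw [D_mul σ hU (he k) (sm_cf ok hW hγ h0 l) i hz]
    have h := D_fl (e := Pi.single k 1) σ hU (fun j => ok.sD hW j) hγ hz (h0 z hz) i l
    have h' : σ.D i (cf σ (Pi.single k 1) W γ l) z = dfl (Pi.single k 1) (gr σ W z)
      (fun j => γ j z) (fun j => σ.D i (σ.D j W) z) (fun j => σ.D i (γ j) z) l := h
    rw [h']
    rfl
  simp only [e2, Finset.sum_add_distrib]
  rw [← fl_lin (fun k => σ.D i (e k) z), ← dfl_lin (fun k => e k z)]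

/-- The bounds at a point. -/
structure Bv (σ : Sl E ι) (e : ι → E → ℝ) (W : E → ℝ) (γ : ι → E → ℝ) (B g₀ g₁ H : ℝ) (z : E) :
    Prop where
  w0 : 0 < dd (gr σ W z) (gr σ W z)
  e1 : nn (fun j => e j z) ≤ 1
  de : ∀ i, nn (fun j => σ.D i (e j) z) ≤ B
  s : ∀ i j, |σ.s i j z| ≤ 2
  ds : ∀ l i j, |σ.D l (σ.s i j) z| ≤ B
  k : ∀ l, |σ.k l z| ≤ B
  et : ∀ l, |eta σ l z| ≤ B
  B0 : 0 ≤ B
  g0 : nn (fun j => γ j z) ≤ g₀
  gg : (1 + B) * g₀ ≤ g₁
  g1 : ∀ i, nn (fun j => σ.D i (γ j) z) ≤ g₁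
  H : ∀ i, nn (fun j => σ.D i (σ.D j W) z) ≤ H

/-- The bounds of the coefficients of the fields `cv`. -/
theorem Bv.cb (b : Bv σ e W γ B g₀ g₁ H z) (ok : σ.Ok U θ) (hW : Sm U W)
    (he : ∀ i, Sm U (e i)) (hγ : ∀ i, Sm U (γ i))
    (h0 : ∀ z ∈ U, 0 < dd (gr σ W z) (gr σ W z)) (hz : z ∈ U) :
    Cb σ (cv σ e W γ) W B g₀ (2 * g₁) H z := by
  have hn := nn_pos b.w0
  have G0 : 0 ≤ g₀ := (nn_nonneg _).trans b.g0
  have G1 : 0 ≤ g₁ := (mul_nonneg (by linarith [b.B0]) G0).trans b.gg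
  refine ⟨b.w0, b.s, b.ds, b.k, b.et, b.B0, G0, by linarith [b.gg], ?_, fun i l => ?_, b.H⟩
  · have h2 : nn (fl (fun j => e j z) (gr σ W z) fun j => γ j z) ≤
        nn (fun j => e j z) * nn (fun j => γ j z) / nn (gr σ W z) := nn_fl_le b.w0
    refine le_trans h2 (div_le_div_of_nonneg_right ?_ hn.le)
    calc nn (fun j => e j z) * nn (fun j => γ j z) ≤ 1 * g₀ :=
          mul_le_mul b.e1 b.g0 (nn_nonneg _) (by norm_num)
      _ = g₀ := one_mul _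
  · rw [D_cv ok.op ok hW he hγ h0 hz i l]
    have H0 : 0 ≤ H := (nn_nonneg _).trans (b.H i)
    have x1 : |fl (fun j => σ.D i (e j) z) (gr σ W z) (fun j => γ j z) l| ≤
        g₁ / nn (gr σ W z) := by
      refine (abs_le_nn _ l).trans ((nn_fl_le b.w0).trans
        (div_le_div_of_nonneg_right ?_ hn.le))
      have h3 := mul_le_mul (b.de i) b.g0 (nn_nonneg _) b.B0
      have h4 := b.gg
      linarith
    have x2 : |dfl (fun j => e j z) (gr σ W z) (fun j => γ j z) (fun j => σ.D i (σ.D j W) z)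
        (fun j => σ.D i (γ j) z) l| ≤
        3 * (H * g₀ / nn (gr σ W z) ^ 2) + g₁ / nn (gr σ W z) := by
      refine (abs_le_nn _ l).trans ((nn_dfl_le b.w0).trans ?_)
      have h1 : nn (fun j => σ.D i (σ.D j W) z) * nn (fun j => γ j z) ≤ H * g₀ :=
        mul_le_mul (b.H i) b.g0 (nn_nonneg _) H0
      have h2 := div_le_div_of_nonneg_right h1 (sq_nonneg (nn (gr σ W z)))
      have h3 := div_le_div_of_nonneg_right (b.g1 i) hn.le
      have h4 : 0 ≤ 3 * (nn (fun j => σ.D i (σ.D j W) z) * nn (fun j => γ j z) /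
          nn (gr σ W z) ^ 2) + nn (fun j => σ.D i (γ j) z) / nn (gr σ W z) := by
        have := nn_nonneg (fun j => σ.D i (σ.D j W) z)
        have := nn_nonneg (fun j => γ j z)
        have := nn_nonneg (fun j => σ.D i (γ j) z)
        positivity
      calc nn (fun j => e j z) * _ ≤ 1 * _ := mul_le_mul_of_nonneg_right b.e1 h4
        _ ≤ _ := by linarith
    refine (abs_add_le _ _).trans ?_
    have e3 : 2 * g₁ / nn (gr σ W z) = g₁ / nn (gr σ W z) + g₁ / nn (gr σ W z) := by ring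
    rw [e3]
    linarith

/-- **The smallness conditions `SmS` of zone A for the fields with a variable direction.** -/
theorem smS_cv (b : Bv σ e W γ B g₀ g₁ H z) (ok : σ.Ok U θ) (hW : Sm U W)
    (he : ∀ i, Sm U (e i)) (hγ : ∀ i, Sm U (γ i))
    (h0 : ∀ z ∈ U, 0 < dd (gr σ W z) (gr σ W z))
    (hv : v z = 0) (hz : z ∈ U) {η K M₁ : ℝ} (hη : 0 ≤ η) (hH : 0 ≤ H) (m0 : 0 ≤ m z)
    (lo : ∀ A : ι → ℝ, ∑ i, A i ^ 2 ≤ 2 * ss σ A z)
    (sK : ∀ A B : ι → ℝ,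
      (∑ i, ∑ j, σ.s i j z * A i * B j) ^ 2 ≤ K ^ 2 * ((∑ i, A i ^ 2) * ∑ i, B i ^ 2))
    (hm : ∀ i, |σ.D i m z| ≤ M₁)
    (c1 : 40 * (Fintype.card ι : ℝ) ^ 2 * (H * g₀ + g₁ * nn (gr σ W z)) ≤
      η * (m z * nn (gr σ W z) ^ 2))
    (c2 : 2 * (2 + m z) * g₀ ^ 2 ≤ η ^ 4 * (m z ^ 2 * nn (gr σ W z) ^ 2))
    (c3 : 6 * (Fintype.card ι : ℝ) ^ 2 * (m z * (H + B * nn (gr σ W z)) +
      M₁ * nn (gr σ W z)) ≤ η * (m z * nn (gr σ W z) ^ 2)) :
    SmS σ W m (cv σ e W γ) v η K z := by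
  refine smS_cb (b.cb ok hW he hγ h0 hz) ok hW (sm_cv ok hW he hγ h0) hv hz hη hH m0 lo sK hm
    ?_ c2 c3
  have G0 : 0 ≤ g₀ := (nn_nonneg _).trans b.g0
  have h1 : 0 ≤ (Fintype.card ι : ℝ) ^ 2 * (H * g₀) := by positivity
  linarith

end var

end Vale.Agent.P088.R2.H230.W
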