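import Vale.Agent.P088.R2.H230.W.CvK
import Vale.Agent.P088.R2.H230.W.FlV

/-!
# P088, stage 3: the far certificate for a level function with `|∇l| = ρ ≠ 1` and a variable
direction

`Geo` is asked for `u / ρ`; the direction `e` and the number `ρ` may depend on the point.
-/

open Set Filter
open scoped ContDiff Topology

noncomputable section

namespace Vale.Agent.P088.R2.H230.W

open Vale.Agent.P088.R2.H961.GW Vale.Agent.P088.R2.H960.W Vale.Agent.P088.R2.H644.Ch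

variable {E ι κ : Type*} [NormedAddCommGroup E] [NormedSpace ℝ E] [Fintype ι] [Fintype κ]

section scale

variable {σ : Sl E ι} {τ : Sl E κ} {U : Set E} {θ θ' : E → ℝ} {u : E → ℝ} {z : E}

lemma gr_cmul (ok : σ.Ok U θ) (hu : Sm U u) (hz : z ∈ U) (a : ℝ) :
    gr σ (fun z => a * u z) z = a • gr σ u z := by
  funext i
  simp only [gr, Pi.smul_apply, smul_eq_mul]
  exact D_cmul σ ok.op a hu i hz

lemma GA_cmul (ok : σ.Ok U θ) (ot : τ.Ok U θ') (hu : Sm U u) (hz : z ∈ U) (a : ℝ)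
    (A : ι → ℝ) (B : κ → ℝ) : GA σ τ (fun z => a * u z) z A B = a * GA σ τ u z A B := by
  unfold GA Gr
  have e1 : ∀ j, σ.D j (fun z => a * u z) z = a * σ.D j u z := fun j =>
    D_cmul σ ok.op a hu j hz
  have e2 : ∀ j, τ.D j (fun z => a * u z) z = a * τ.D j u z := fun j =>
    D_cmul τ ot.op a hu j hz
  simp only [e1, e2, mul_add, Finset.mul_sum, Finset.sum_mul]
  congr 1 <;>
  · refine Finset.sum_congr rfl fun i _ => Finset.sum_congr rfl fun j _ => ?_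
    ring

end scale

section cert

variable {σ τ : Sl E ι} {U : Set E} {θ θ' : E → ℝ} {u r ρ : E → ℝ} {e h : ι → E → ℝ} {z : E}
  {ε g : ℝ} {Φ Φ₁ Φ₂ S S₁ S₂ : ℝ → ℝ} {D : ℕ → ℕ → ℝ → ℝ → ℝ}

/-- A field with a variable direction has the same certificate form. -/
lemma tc_cv (σ : Sl E ι) (e : ι → E → ℝ) (W : E → ℝ) (γ : ι → E → ℝ) (z : E) (A : ι → ℝ) :
    tc σ (cv σ e W γ) W z A = tc σ (cf σ (fun l => e l z) W γ) W z A := by
  rw [tc_TM, tc_TM]; rfl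

/-- The fields away from the diagonal: `γ = ρ D₁₀/(300000 r) (± 20 h + e)`. -/
def gV (D : ℕ → ℕ → ℝ → ℝ → ℝ) (S : ℝ → ℝ) (u r ρ : E → ℝ) (e h : ι → E → ℝ) (s : ℝ)
    (l : ι) (z : E) : ℝ :=
  ρ z * D 1 0 (u z + S (r z)) (r z) / (300000 * r z) * (s * h l z + e l z)

/-- **The certificate away from the diagonal, variable direction and scale** (`a = ρ z`). -/
theorem cert_far_wtv {κ om ε₁ a : ℝ} (ok : σ.Ok U θ) (ot : τ.Ok U θ')
    (w : Wd U Φ Φ₁ Φ₂ S S₁ S₂ D u r) (hz : z ∈ U) (ha : ρ z = a) (ρ0 : 1 / 2 ≤ a) (ρ1 : a ≤ 2)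
    (G : Geo σ τ (fun x => a⁻¹ * u x) r (fun l => e l z) (fun l => h l z) ε g z)
    (hε : ε ≤ 1 / 10000000000) (hε₁ : ε₁ ≤ 1 / 4000000000)
    (G0 : 0 < D 1 0 (u z + S (r z)) (r z)) (L1 : 1 / 10 * a ≤ S₁ (r z))
    (L2 : S₁ (r z) ≤ 21 / 10 * a) (o1 : |om| ≤ 1 / 50 * a)
    (μ1 : |D 0 1 (u z + S (r z)) (r z)| ≤ 1 / 50 * (a * D 1 0 (u z + S (r z)) (r z)))
    (hκ : 6 ≤ κ * r z)
    (k20 : D 2 0 (u z + S (r z)) (r z) = κ * D 1 0 (u z + S (r z)) (r z))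
    (k11 : |D 1 1 (u z + S (r z)) (r z) - κ * D 1 0 (u z + S (r z)) (r z) * om| ≤
      ε₁ * (D 1 0 (u z + S (r z)) (r z) / r z))
    (k02 : |D 0 2 (u z + S (r z)) (r z) - κ * D 1 0 (u z + S (r z)) (r z) * om ^ 2| ≤
      ε₁ * (D 1 0 (u z + S (r z)) (r z) / r z))
    (r1 : 60000000 * (|S₂ (r z)| * r z) ≤ 1) (hr1 : 1 ≤ r z) (Φ0 : 0 ≤ Φ₁ (u z))
    (p1 : 0 < dd (gr σ (wt Φ S D u r) z) (gr σ (wt Φ S D u r) z))
    (p2 : 0 < dd (gr τ (wt Φ S D u r) z) (gr τ (wt Φ S D u r) z))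
    (A B : ι → ℝ) :
    (a * D 1 0 (u z + S (r z)) (r z) / (3300000 * r z) +
        (Φ₁ (u z) + D 1 0 (u z + S (r z)) (r z)) * (a * g)) * (dd A A + dd B B) +
      Φ₂ (u z) * GA σ τ u z A B ^ 2 ≤
      TH σ τ (wt Φ S D u r) z A B +
      tc σ (cv σ e (wt Φ S D u r) (gV D S u r ρ e h 20)) (wt Φ S D u r) z A +
      tc τ (cv τ e (wt Φ S D u r) (gV D S u r ρ e h (-20))) (wt Φ S D u r) z B := by
  have hr := G.r0
  have w1 := gr_wt ok w hz
  have w2 := gr_wt ot w hz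
  have wT := TH_wt ok ot w hz A B
  have g1 := gr_cmul ok w.cu.su hz a⁻¹
  have g2 := gr_cmul ot w.cu.su hz a⁻¹
  have T1 : TH σ τ (fun x => a⁻¹ * u x) z A B = a⁻¹ * TH σ τ u z A B :=
    TH_cmul ok ot _ w.cu.su hz A B
  have A1 := GA_cmul ok ot w.cu.su hz a⁻¹ A B
  have hγ : ∀ s l, gV D S u r ρ e h s l z =
      a * D 1 0 (u z + S (r z)) (r z) / (300000 * r z) * (s * h l z + e l z) := by
    intro s l; unfold gV; rw [ha]
  obtain ⟨d, hd⟩ : ∃ d, d = D 1 0 (u z + S (r z)) (r z) := ⟨_, rfl⟩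
  rw [← hd] at G0 μ1 k20 k11 k02 w1 w2 wT hγ ⊢
  have a0 : 0 < a := by linarith
  have ia : a⁻¹ ≤ 2 := by
    rw [inv_le_comm₀ a0 (by norm_num)]; linarith
  have ia0 : 0 < a⁻¹ := inv_pos.2 a0
  have g1' : gr σ u z = a • gr σ (fun x => a⁻¹ * u x) z := by
    rw [g1, smul_smul, mul_inv_cancel₀ a0.ne', one_smul]
  have g2' : gr τ u z = a • gr τ (fun x => a⁻¹ * u x) z := by
    rw [g2, smul_smul, mul_inv_cancel₀ a0.ne', one_smul]
  have T1' : TH σ τ u z A B = a * TH σ τ (fun x => a⁻¹ * u x) z A B := by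
    rw [T1]; field_simp
  have A1' : GA σ τ u z A B = a * GA σ τ (fun x => a⁻¹ * u x) z A B := by
    rw [A1]; field_simp
  rw [tc_cv, tc_cv]
  have key := cert_far_at6 (W := wt Φ S D u r) (G₀ := a * d) (D₀₁ := D 0 1 (u z + S (r z)) (r z))
    (D₂₀ := a ^ 2 * D 2 0 (u z + S (r z)) (r z)) (D₁₁ := a * D 1 1 (u z + S (r z)) (r z))
    (D₀₂ := D 0 2 (u z + S (r z)) (r z)) (Φ₁ := a * Φ₁ (u z)) (Φ₂ := a ^ 2 * Φ₂ (u z))
    (L := a⁻¹ * S₁ (r z)) (L₁ := a⁻¹ * S₂ (r z)) (κ := κ * a) (om := a⁻¹ * om)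
    (ε₁ := 2 * ε₁) (γ := gV D S u r ρ e h 20) (γ' := gV D S u r ρ e h (-20)) G hε
    (by linarith) (mul_pos a0 G0) ?_ ?_ ?_ (by linarith) ?_ ?_ ?_ ?_ ?_ hr1
    (mul_nonneg a0.le Φ0) ?_ ?_ p1 p2 ?_ ?_ A B ?_
  · have e1 : (a * d / (3300000 * r z) + (a * Φ₁ (u z) + a * d) * g) =
        (a * d / (3300000 * r z) + (Φ₁ (u z) + d) * (a * g)) := by ring
    have e2 : a ^ 2 * Φ₂ (u z) * GA σ τ (fun x => a⁻¹ * u x) z A B ^ 2 =
        Φ₂ (u z) * GA σ τ u z A B ^ 2 := by rw [A1']; ring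
    rw [e1, e2] at key
    exact key
  · rw [inv_mul_eq_div, le_div_iff₀ a0]; linarith
  · rw [inv_mul_eq_div, div_le_iff₀ a0]; linarith
  · rw [abs_mul, abs_of_pos ia0, inv_mul_eq_div, div_le_iff₀ a0]; linarith
  · have h1 : κ * r z * (1 / 2) ≤ κ * r z * a :=
      mul_le_mul_of_nonneg_left ρ0 (by linarith)
    have h2 : κ * a * r z = κ * r z * a := by ring
    linarith
  · rw [k20]; ring
  · have e1 : a * D 1 1 (u z + S (r z)) (r z) - κ * a * (a * d) * (a⁻¹ * om) =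
        a * (D 1 1 (u z + S (r z)) (r z) - κ * d * om) := by field_simp
    rw [e1, abs_mul, abs_of_pos a0]
    have h1 := mul_le_mul_of_nonneg_left k11 a0.le
    have h2 : 0 ≤ ε₁ * (d / r z) := (abs_nonneg _).trans k11
    have h3 : 2 * ε₁ * (a * d / r z) = a * (ε₁ * (d / r z)) + a * (ε₁ * (d / r z)) := by ring
    have h4 := mul_nonneg a0.le h2
    linarith
  · have e1 : κ * a * (a * d) * (a⁻¹ * om) ^ 2 = κ * d * om ^ 2 := by field_simp
    rw [e1]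
    refine k02.trans ?_
    have h2 : 0 ≤ ε₁ * (d / r z) := (abs_nonneg _).trans k02
    have h3 : 2 * ε₁ * (a * d / r z) = 2 * a * (ε₁ * (d / r z)) := by ring
    rw [h3]
    have h4 : 1 * (ε₁ * (d / r z)) ≤ 2 * a * (ε₁ * (d / r z)) :=
      mul_le_mul_of_nonneg_right (by linarith) h2
    linarith
  · rw [abs_mul, abs_of_pos ia0]
    have h0 : 0 ≤ |S₂ (r z)| * r z := mul_nonneg (abs_nonneg _) hr.le
    have h1 := mul_le_mul_of_nonneg_right ia h0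
    have h2 : 30000000 * (a⁻¹ * |S₂ (r z)| * r z) = 30000000 * (a⁻¹ * (|S₂ (r z)| * r z)) := by
      ring
    rw [h2]; linarith
  · rw [w1, g1', smul_smul]
    congr 2
    · ring
    · field_simp
  · rw [w2, g2', smul_smul]
    congr 2
    · ring
    · field_simp
  · exact hγ 20
  · exact hγ (-20)
  · rw [wT, T1', A1']
    field_simp

end cert

end Vale.Agent.P088.R2.H230.W
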