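import Mathlib

/-!
# P088, stage 3: the pointwise certificate away from the diagonal (slow isotropic profile)

`W = N p_n + S`, `S = e^{p_n} χ(r)`, `p = (x+y)/2`, `q = x - y`, `r = |q|`, `L = χ'/χ`.  Divided by `S` the second
derivative of `W` is `(P_n + L t)² + k (|Q|² - t²) - m t²`, `P = (U+V)/2`, `Q = U - V`, `t = q̂·Q`, `k = L/r`,
`m = -L'`.  With the Lee fields `c₁`, `c₂` below the sum with the multiplier forms is strictly positive.
-/

noncomputable section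

namespace Vale.Agent.P088.R2.H230.W

variable {ι : Type*} [Fintype ι]

/-- The scalar product. -/
def dd (u v : ι → ℝ) : ℝ := ∑ i, u i * v i

lemma dd_comm (u v : ι → ℝ) : dd u v = dd v u := by
  unfold dd; exact Finset.sum_congr rfl fun i _ => mul_comm _ _

lemma dd_add_left (u v w : ι → ℝ) : dd (u + v) w = dd u w + dd v w := by
  simp [dd, add_mul, Finset.sum_add_distrib]

lemma dd_add_right (u v w : ι → ℝ) : dd u (v + w) = dd u v + dd u w := by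
  simp [dd, mul_add, Finset.sum_add_distrib]

lemma dd_sub_left (u v w : ι → ℝ) : dd (u - v) w = dd u w - dd v w := by
  simp [dd, sub_mul, Finset.sum_sub_distrib]

lemma dd_sub_right (u v w : ι → ℝ) : dd u (v - w) = dd u v - dd u w := by
  simp [dd, mul_sub, Finset.sum_sub_distrib]

lemma dd_smul_left (a : ℝ) (u v : ι → ℝ) : dd (a • u) v = a * dd u v := by
  simp [dd, Finset.mul_sum, mul_assoc]

lemma dd_smul_right (a : ℝ) (u v : ι → ℝ) : dd u (a • v) = a * dd u v := by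
  rw [dd_comm, dd_smul_left, dd_comm]

lemma dd_self_nonneg (u : ι → ℝ) : 0 ≤ dd u u :=
  Finset.sum_nonneg fun _ _ => mul_self_nonneg _

lemma dd_cs (u v : ι → ℝ) : dd u v ^ 2 ≤ dd u u * dd v v := by
  have := Finset.sum_mul_sq_le_sq_mul_sq Finset.univ u v
  simpa [dd, sq] using this

/-- The multiplier form `(c·w)|U|² - 2 (c·U)(w·U)`. -/
def TT (c w U : ι → ℝ) : ℝ := dd c w * dd U U - 2 * dd c U * dd w U

/-- Its bilinear form. -/
def TB (c w U V : ι → ℝ) : ℝ := dd c w * dd U V - dd c U * dd w V - dd c V * dd w U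

lemma TT_add (c w U V : ι → ℝ) : TT c w (U + V) = TT c w U + 2 * TB c w U V + TT c w V := by
  simp only [TT, TB, dd_add_left, dd_add_right, dd_comm V U]
  ring

lemma TT_sub (c w U V : ι → ℝ) : TT c w (U - V) = TT c w U - 2 * TB c w U V + TT c w V := by
  simp only [TT, TB, dd_sub_left, dd_sub_right, dd_comm V U]
  ring

/-- `|(c·w)|U|² - 2(c·U)(w·U)| ≤ |c||w||U|²`. -/
lemma TT_sq_le (c w U : ι → ℝ) : TT c w U ^ 2 ≤ dd c c * dd w w * dd U U ^ 2 := by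
  have h := dd_cs (dd U U • c - (2 * dd c U) • U) w
  have h1 : dd (dd U U • c - (2 * dd c U) • U) w = TT c w U := by
    simp only [TT, dd_sub_left, dd_smul_left, dd_comm U w]; ring
  have h2 : dd (dd U U • c - (2 * dd c U) • U) (dd U U • c - (2 * dd c U) • U)
      = dd U U ^ 2 * dd c c := by
    simp only [dd_sub_left, dd_sub_right, dd_smul_left, dd_smul_right, dd_comm U c]; ring
  rw [h1, h2] at h
  nlinarith [h]

lemma TT_abs_le (c w U : ι → ℝ) {τ : ℝ} (hτ : 0 ≤ τ) (h : dd c c * dd w w ≤ τ ^ 2) :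
    |TT c w U| ≤ τ * dd U U := by
  have h1 := TT_sq_le c w U
  have h2 : dd c c * dd w w * dd U U ^ 2 ≤ (τ * dd U U) ^ 2 := by
    have := mul_le_mul_of_nonneg_right h (sq_nonneg (dd U U))
    nlinarith [this]
  exact abs_le_of_sq_le_sq (h1.trans h2) (mul_nonneg hτ (dd_self_nonneg U))

/-- `|2 B(U,V)| ≤ τ (η |U|² + |V|²/η)`. -/
lemma TB_abs_le (c w U V : ι → ℝ) {τ η : ℝ} (hτ : 0 ≤ τ) (hη : 0 < η)
    (h : dd c c * dd w w ≤ τ ^ 2) :
    |2 * TB c w U V| ≤ τ * (η * dd U U + dd V V / η) := by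
  -- polarisation with `U' = √η U`, `V' = V / √η`
  set a := Real.sqrt η with ha
  have ha0 : 0 < a := Real.sqrt_pos.2 hη
  have haa : a * a = η := Real.mul_self_sqrt hη.le
  have h1 := TT_abs_le c w (a • U + a⁻¹ • V) hτ h
  have h2 := TT_abs_le c w (a • U - a⁻¹ • V) hτ h
  have e1 : 4 * TB c w U V = TT c w (a • U + a⁻¹ • V) - TT c w (a • U - a⁻¹ • V) := by
    rw [TT_add, TT_sub]
    have : TB c w (a • U) (a⁻¹ • V) = TB c w U V := by
      simp only [TB, dd_smul_left, dd_smul_right]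
      field_simp
    rw [this]; ring
  have e2 : dd (a • U + a⁻¹ • V) (a • U + a⁻¹ • V) + dd (a • U - a⁻¹ • V) (a • U - a⁻¹ • V)
      = 2 * (η * dd U U + dd V V / η) := by
    simp only [dd_add_left, dd_add_right, dd_sub_left, dd_sub_right, dd_smul_left, dd_smul_right]
    have : a⁻¹ * (a⁻¹ * dd V V) = dd V V / η := by rw [← haa]; field_simp
    have h' : a * (a * dd U U) = η * dd U U := by rw [← haa]; ring
    linarith [this, h']
  have e3 : |4 * TB c w U V| ≤ τ * (2 * (η * dd U U + dd V V / η)) := by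
    rw [e1, ← e2, mul_add]
    exact (abs_sub _ _).trans (add_le_add h1 h2)
  have e4 : |4 * TB c w U V| = 2 * |2 * TB c w U V| := by
    rw [show (4 : ℝ) * TB c w U V = 2 * (2 * TB c w U V) by ring, abs_mul, abs_of_pos (by norm_num : (0:ℝ) < 2)]
  rw [e4] at e3
  linarith

/-- The scalar identity behind the certificate. -/
lemma key_id (a b N c ν L δ D₁ D₂ : ℝ) (hL : L ≠ 0) (h1 : D₁ ≠ 0) (h2 : D₂ ≠ 0)
    (e1 : D₁ = ν ^ 2 + L ^ 2 + 2 * c * ν * L) (e2 : D₂ = ν ^ 2 + L ^ 2 - 2 * c * ν * L) :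
    ((((4 * L * δ) * ν - δ * L) * (ν * c + L)
        + ((4 * L * δ) * L + δ * ν + 2 * c * δ * L) * (ν + L * c)) / D₁
        * (N - a / L * b + a ^ 2 / (4 * L ^ 2))
      - 2 * ((((4 * L * δ) * ν - δ * L) * (b - a / (2 * L))
        + ((4 * L * δ) * L + δ * ν + 2 * c * δ * L) * (a - a / (2 * L) * c)) / D₁)
        * (ν * (a - a / (2 * L) * c) + L * (b - a / (2 * L))))
    + ((-((4 * L * δ) * ν - δ * L) * (ν * c - L)
        + ((4 * L * δ) * L + δ * ν - 2 * c * δ * L) * (ν - L * c)) / D₂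
        * (N + a / L * b + a ^ 2 / (4 * L ^ 2))
      - 2 * ((-((4 * L * δ) * ν - δ * L) * (b + a / (2 * L))
        + ((4 * L * δ) * L + δ * ν - 2 * c * δ * L) * (a + a / (2 * L) * c)) / D₂)
        * (ν * (a + a / (2 * L) * c) - L * (b + a / (2 * L))))
    = 2 * δ * N + δ * (4 - (2 * c ^ 2 - 1) / (2 * L ^ 2)) * a ^ 2
      + 4 * δ * L ^ 2 * (ν ^ 2 + L ^ 2) * (4 * ν - 1)
        * ((1 - c ^ 2) * N - a ^ 2 - b ^ 2 + 2 * a * b * c) / (D₁ * D₂) := by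
  field_simp
  subst e1 e2
  ring

/-- `W_x / S`. -/
def w1 (e h : ι → ℝ) (ν L : ℝ) : ι → ℝ := ν • e + L • h

/-- `W_y / S`. -/
def w2 (e h : ι → ℝ) (ν L : ℝ) : ι → ℝ := ν • e - L • h

/-- The first Lee field. -/
def c1 (e h : ι → ℝ) (ν L δ : ℝ) : ι → ℝ :=
  (ν ^ 2 + L ^ 2 + 2 * dd e h * ν * L)⁻¹ •
    (((4 * L * δ) * ν - δ * L) • h + ((4 * L * δ) * L + δ * ν + 2 * dd e h * δ * L) • e)

/-- The second Lee field. -/
def c2 (e h : ι → ℝ) (ν L δ : ℝ) : ι → ℝ :=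
  (ν ^ 2 + L ^ 2 - 2 * dd e h * ν * L)⁻¹ •
    ((-((4 * L * δ) * ν - δ * L)) • h + ((4 * L * δ) * L + δ * ν - 2 * dd e h * δ * L) • e)

section
variable {e h : ι → ℝ} (he : dd e e = 1) (hh : dd h h = 1)
include he hh

lemma dd_w1 (ν L : ℝ) : dd (w1 e h ν L) (w1 e h ν L) = ν ^ 2 + L ^ 2 + 2 * dd e h * ν * L := by
  simp only [w1, dd_add_left, dd_add_right, dd_smul_left, dd_smul_right, he, hh, dd_comm h e]
  ring

lemma dd_w2 (ν L : ℝ) : dd (w2 e h ν L) (w2 e h ν L) = ν ^ 2 + L ^ 2 - 2 * dd e h * ν * L := by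
  simp only [w2, dd_sub_left, dd_sub_right, dd_smul_left, dd_smul_right, he, hh, dd_comm h e]
  ring

lemma abs_dd_le : |dd e h| ≤ 1 := by
  have := dd_cs e h
  rw [he, hh] at this
  exact abs_le_of_sq_le_sq (by linarith) (by norm_num)

lemma c1_w1 (ν L δ : ℝ) (hD : ν ^ 2 + L ^ 2 + 2 * dd e h * ν * L ≠ 0) :
    dd (c1 e h ν L δ) (c1 e h ν L δ) * dd (w1 e h ν L) (w1 e h ν L)
      = δ ^ 2 * (16 * L ^ 2 + 1 + 8 * L * dd e h) := by
  rw [dd_w1 he hh]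
  simp only [c1, dd_add_left, dd_add_right, dd_smul_left, dd_smul_right, he, hh, dd_comm h e]
  generalize hD' : ν ^ 2 + L ^ 2 + 2 * dd e h * ν * L = D at *
  field_simp
  subst hD'
  ring

lemma c2_w2 (ν L δ : ℝ) (hD : ν ^ 2 + L ^ 2 - 2 * dd e h * ν * L ≠ 0) :
    dd (c2 e h ν L δ) (c2 e h ν L δ) * dd (w2 e h ν L) (w2 e h ν L)
      = δ ^ 2 * (16 * L ^ 2 + 1 - 8 * L * dd e h) := by
  rw [dd_w2 he hh]
  simp only [c2, dd_add_left, dd_add_right, dd_smul_left, dd_smul_right, he, hh, dd_comm h e]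
  generalize hD' : ν ^ 2 + L ^ 2 - 2 * dd e h * ν * L = D at *
  field_simp
  subst hD'
  ring

lemma c1_w1_le {ν L δ : ℝ} (hL : 0 ≤ L) (hD : ν ^ 2 + L ^ 2 + 2 * dd e h * ν * L ≠ 0) :
    dd (c1 e h ν L δ) (c1 e h ν L δ) * dd (w1 e h ν L) (w1 e h ν L) ≤ ((4 * L + 1) * δ) ^ 2 := by
  rw [c1_w1 he hh ν L δ hD]
  have := (abs_le.1 (abs_dd_le he hh)).2
  nlinarith [mul_nonneg (mul_nonneg hL (sub_nonneg.2 this)) (sq_nonneg δ)]

lemma c2_w2_le {ν L δ : ℝ} (hL : 0 ≤ L) (hD : ν ^ 2 + L ^ 2 - 2 * dd e h * ν * L ≠ 0) :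
    dd (c2 e h ν L δ) (c2 e h ν L δ) * dd (w2 e h ν L) (w2 e h ν L) ≤ ((4 * L + 1) * δ) ^ 2 := by
  rw [c2_w2 he hh ν L δ hD]
  have := (abs_le.1 (abs_dd_le he hh)).1
  nlinarith [mul_nonneg (mul_nonneg hL (neg_le_iff_add_nonneg'.1 this)) (sq_nonneg δ)]

/-- The Gram determinant of three vectors is nonnegative. -/
lemma gram3 (P : ι → ℝ) :
    0 ≤ (1 - dd e h ^ 2) * dd P P - dd P e ^ 2 - dd P h ^ 2 + 2 * dd P e * dd P h * dd e h := by
  have := dd_cs (h - dd e h • e) (P - dd P e • e)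
  simp only [dd_sub_left, dd_sub_right, dd_smul_left, dd_smul_right, he, hh, dd_comm h e,
    dd_comm e P, dd_comm h P] at this
  nlinarith [this]

/-- The form on the null space of the main part. -/
lemma null_ge (P : ι → ℝ) {ν L δ : ℝ} (hL : 2 / 5 ≤ L) (hν : 1 / 2 ≤ ν) (hδ : 0 ≤ δ)
    (h1 : 0 < ν ^ 2 + L ^ 2 + 2 * dd e h * ν * L) (h2 : 0 < ν ^ 2 + L ^ 2 - 2 * dd e h * ν * L) :
    2 * δ * dd P P ≤ TT (c1 e h ν L δ) (w1 e h ν L) (P - (dd P e / (2 * L)) • h)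
      + TT (c2 e h ν L δ) (w2 e h ν L) (P + (dd P e / (2 * L)) • h) := by
  have hL0 : 0 < L := by linarith
  have key := key_id (dd P e) (dd P h) (dd P P) (dd e h) ν L δ _ _ hL0.ne' h1.ne' h2.ne' rfl rfl
  have hc := abs_dd_le he hh
  have hc2 : dd e h ^ 2 ≤ 1 := by
    have := sq_le_one_iff_abs_le_one _ |>.2 hc
    exact this
  have eq1 : TT (c1 e h ν L δ) (w1 e h ν L) (P - (dd P e / (2 * L)) • h)
      + TT (c2 e h ν L δ) (w2 e h ν L) (P + (dd P e / (2 * L)) • h)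
      = 2 * δ * dd P P + δ * (4 - (2 * dd e h ^ 2 - 1) / (2 * L ^ 2)) * dd P e ^ 2
      + 4 * δ * L ^ 2 * (ν ^ 2 + L ^ 2) * (4 * ν - 1)
        * ((1 - dd e h ^ 2) * dd P P - dd P e ^ 2 - dd P h ^ 2 + 2 * dd P e * dd P h * dd e h)
        / ((ν ^ 2 + L ^ 2 + 2 * dd e h * ν * L) * (ν ^ 2 + L ^ 2 - 2 * dd e h * ν * L)) := by
    rw [← key]
    simp only [TT, c1, c2, w1, w2, dd_add_left, dd_add_right, dd_sub_left, dd_sub_right,
      dd_smul_left, dd_smul_right, he, hh, dd_comm h e, dd_comm e P, dd_comm h P]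
    ring
  rw [eq1]
  have g := gram3 he hh P
  have t1 : 0 ≤ δ * (4 - (2 * dd e h ^ 2 - 1) / (2 * L ^ 2)) * dd P e ^ 2 := by
    apply mul_nonneg (mul_nonneg hδ _) (sq_nonneg _)
    rw [sub_nonneg, div_le_iff₀ (by positivity)]
    nlinarith
  have t2 : 0 ≤ 4 * δ * L ^ 2 * (ν ^ 2 + L ^ 2) * (4 * ν - 1)
        * ((1 - dd e h ^ 2) * dd P P - dd P e ^ 2 - dd P h ^ 2 + 2 * dd P e * dd P h * dd e h)
        / ((ν ^ 2 + L ^ 2 + 2 * dd e h * ν * L) * (ν ^ 2 + L ^ 2 - 2 * dd e h * ν * L)) := by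
    apply div_nonneg (mul_nonneg (mul_nonneg (by positivity) (by linarith)) g)
    positivity
  linarith

end

/-- The main part: second derivative of `N p_n + e^{p_n} χ(r)` divided by `S`. -/
def Hm (e h : ι → ℝ) (L k m : ℝ) (U V : ι → ℝ) : ℝ :=
  (1 / 2 * (dd U e + dd V e) + L * dd h (U - V)) ^ 2
    + k * (dd (U - V) (U - V) - dd h (U - V) ^ 2) - m * dd h (U - V) ^ 2

/-- Vectors: decomposition along the null space of the main part. -/
lemma far_dec {e h : ι → ℝ} (he : dd e e = 1) (hh : dd h h = 1) {L : ℝ} (hL : 2 / 5 ≤ L) (k m : ℝ)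
    (U V : ι → ℝ) : ∃ (P X : ι → ℝ) (A t q : ℝ), 0 ≤ q ∧
    U = (P - (dd P e / (2 * L)) • h) + X ∧ V = (P + (dd P e / (2 * L)) • h) - X ∧
    dd P e ^ 2 ≤ dd P P ∧ t ^ 2 ≤ 25 / 2 * (A ^ 2 + dd P e ^ 2) ∧
    dd X X ≤ 25 / 16 * A ^ 2 + q / 4 ∧ dd U U + dd V V = 2 * dd P P + (t ^ 2 + q) / 2 ∧
    Hm e h L k m U V = A ^ 2 + k * q - m * t ^ 2 ∧
    dd (P - (dd P e / (2 * L)) • h) (P - (dd P e / (2 * L)) • h)
      + dd (P + (dd P e / (2 * L)) • h) (P + (dd P e / (2 * L)) • h)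
      ≤ 41 / 8 * dd P P := by
  have hL0 : 0 < L := by linarith
  refine ⟨(1 / 2 : ℝ) • (U + V),
    ((dd ((1 / 2 : ℝ) • (U + V)) e + L * dd h (U - V)) / (2 * L)) • h
      + (1 / 2 : ℝ) • ((U - V) - dd h (U - V) • h),
    dd ((1 / 2 : ℝ) • (U + V)) e + L * dd h (U - V), dd h (U - V),
    dd ((U - V) - dd h (U - V) • h) ((U - V) - dd h (U - V) • h), dd_self_nonneg _, ?_, ?_, ?_, ?_,
    ?_, ?_, ?_, ?_⟩
  · funext i
    simp only [Pi.add_apply, Pi.sub_apply, Pi.smul_apply, smul_eq_mul]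
    field_simp
    ring
  · funext i
    simp only [Pi.add_apply, Pi.sub_apply, Pi.smul_apply, smul_eq_mul]
    field_simp
    ring
  · have := dd_cs ((1 / 2 : ℝ) • (U + V)) e; rw [he, mul_one] at this; exact this
  · generalize dd ((1 / 2 : ℝ) • (U + V)) e = a
    generalize dd h (U - V) = t
    have e2 : (L * t) ^ 2 ≤ 2 * ((a + L * t) ^ 2 + a ^ 2) := by nlinarith [sq_nonneg (2 * a + L * t)]
    have e3 : (2 / 5 : ℝ) ^ 2 * t ^ 2 ≤ L ^ 2 * t ^ 2 :=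
      mul_le_mul_of_nonneg_right (by nlinarith) (sq_nonneg _)
    nlinarith
  · have hhQ : dd h ((U - V) - dd h (U - V) • h) = 0 := by
      rw [dd_sub_right, dd_smul_right, hh]; ring
    have e0 : ∀ (b : ℝ) (Z : ι → ℝ), dd h Z = 0 → dd (b • h + (1 / 2 : ℝ) • Z) (b • h + (1 / 2 : ℝ) • Z)
        = b ^ 2 + dd Z Z / 4 := by
      intro b Z hZ
      simp only [dd_add_left, dd_add_right, dd_smul_left, dd_smul_right, dd_comm Z h, hZ, hh]
      ring
    rw [e0 _ _ hhQ]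
    generalize dd ((1 / 2 : ℝ) • (U + V)) e + L * dd h (U - V) = A
    have : (A / (2 * L)) ^ 2 ≤ 25 / 16 * A ^ 2 := by
      rw [div_pow, div_le_iff₀ (by positivity)]
      nlinarith [mul_nonneg (sq_nonneg A) (show (0:ℝ) ≤ 25 / 4 * L ^ 2 - 1 by nlinarith)]
    linarith
  · simp only [dd_add_left, dd_add_right, dd_sub_left, dd_sub_right, dd_smul_left,
        dd_smul_right, dd_comm V U, dd_comm U h, dd_comm V h, hh]
    ring
  · simp only [Hm, dd_add_left, dd_sub_left, dd_sub_right, dd_smul_left,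
        dd_smul_right, dd_comm V U, dd_comm U h, dd_comm V h, hh]
    ring
  · generalize (1 / 2 : ℝ) • (U + V) = P
    have f6 : dd (P - (dd P e / (2 * L)) • h) (P - (dd P e / (2 * L)) • h)
      + dd (P + (dd P e / (2 * L)) • h) (P + (dd P e / (2 * L)) • h)
        = 2 * dd P P + dd P e ^ 2 / (2 * L ^ 2) := by
      simp only [dd_add_left, dd_add_right, dd_sub_left, dd_sub_right, dd_smul_left, dd_smul_right,
        hh, dd_comm h P]
      field_simp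
      ring
    have f1 : dd P e ^ 2 ≤ dd P P := by
      have := dd_cs P e; rw [he, mul_one] at this; exact this
    have f6' : dd P e ^ 2 / (2 * L ^ 2) ≤ 25 / 8 * dd P P := by
      rw [div_le_iff₀ (by positivity)]
      nlinarith [mul_nonneg (dd_self_nonneg P) (show (0:ℝ) ≤ 25 / 4 * L ^ 2 - 1 by nlinarith)]
    rw [f6]; linarith

/-- The final scalar inequality. -/
lemma far_fin {δ G k m PP a A t q x : ℝ} (hδ : 0 < δ) (hG : δ ≤ G) (hG1 : 600 * G ≤ 1)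
    (hG2 : 80 * G ≤ k) (hm : 50 * m ≤ δ) (ha : a ^ 2 ≤ PP) (ht : t ^ 2 ≤ 25 / 2 * (A ^ 2 + a ^ 2))
    (hq : 0 ≤ q) (hx : x ≤ 25 / 16 * A ^ 2 + q / 4) :
    δ / 9 * (2 * PP + (t ^ 2 + q) / 2) ≤ A ^ 2 + k * q - m * t ^ 2
      + 2 * δ * PP - δ / 8 * (41 / 8 * PP) - 18 * G * x := by
  have hG0 : 0 ≤ G := by linarith
  have hGX : G * x ≤ G * (25 / 16 * A ^ 2 + q / 4) := mul_le_mul_of_nonneg_left hx hG0
  have hGA : G * A ^ 2 ≤ 1 / 600 * A ^ 2 := mul_le_mul_of_nonneg_right (by linarith) (sq_nonneg A)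
  have hGq : G * q ≤ k / 80 * q := mul_le_mul_of_nonneg_right (by linarith) hq
  have hmt : m * t ^ 2 ≤ δ / 50 * t ^ 2 := mul_le_mul_of_nonneg_right (by linarith) (sq_nonneg t)
  have hdq : δ * q ≤ k / 80 * q := mul_le_mul_of_nonneg_right (by linarith) hq
  have hdA : δ * A ^ 2 ≤ 1 / 600 * A ^ 2 :=
    mul_le_mul_of_nonneg_right (by linarith) (sq_nonneg A)
  have hda : δ * a ^ 2 ≤ δ * PP := mul_le_mul_of_nonneg_left ha hδ.le
  have hdt : δ * t ^ 2 ≤ δ * (25 / 2 * (A ^ 2 + a ^ 2)) := mul_le_mul_of_nonneg_left ht hδ.le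
  have hPP : 0 ≤ PP := (sq_nonneg a).trans ha
  have hdP : 0 ≤ δ * PP := mul_nonneg hδ.le hPP
  have hkq : 0 ≤ k * q := mul_nonneg (by linarith) hq
  have hA2 := sq_nonneg A
  linarith

/-- The certificate away from the diagonal. -/
theorem far_cert {e h : ι → ℝ} (he : dd e e = 1) (hh : dd h h = 1) {ν L k m δ : ℝ}
    (hL : 2 / 5 ≤ L) (hν : 1 / 2 ≤ ν) (hδ : 0 < δ) (hδ1 : 600 * (δ * (4 * L + 1) ^ 2) ≤ 1)
    (hδ2 : 80 * (δ * (4 * L + 1) ^ 2) ≤ k) (hm : 50 * m ≤ δ)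
    (h1 : 0 < ν ^ 2 + L ^ 2 + 2 * dd e h * ν * L) (h2 : 0 < ν ^ 2 + L ^ 2 - 2 * dd e h * ν * L)
    (U V : ι → ℝ) :
    δ / 9 * (dd U U + dd V V) ≤ Hm e h L k m U V
      + TT (c1 e h ν L δ) (w1 e h ν L) U + TT (c2 e h ν L δ) (w2 e h ν L) V := by
  have hL0 : 0 < L := by linarith
  obtain ⟨P, X, A, t, q, hq0, hU, hV, f1, f2, f3, f4, f5, f6⟩ := far_dec he hh hL k m U V
  have hN := null_ge he hh P hL hν hδ.le h1 h2
  have c1b := c1_w1_le he hh (δ := δ) hL0.le h1.ne'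
  have c2b := c2_w2_le he hh (δ := δ) hL0.le h2.ne'
  have hτ0 : 0 ≤ (4 * L + 1) * δ := by positivity
  have hη0 : 0 < 1 / (8 * (4 * L + 1)) := by positivity
  have b1 := TB_abs_le _ _ (P - (dd P e / (2 * L)) • h) X hτ0 hη0 c1b
  have b2 := TB_abs_le _ _ (P + (dd P e / (2 * L)) • h) X hτ0 hη0 c2b
  have b3 := TT_abs_le _ _ X hτ0 c1b
  have b4 := TT_abs_le _ _ X hτ0 c2b
  have e1 := TT_add (c1 e h ν L δ) (w1 e h ν L) (P - (dd P e / (2 * L)) • h) X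
  have e2 := TT_sub (c2 e h ν L δ) (w2 e h ν L) (P + (dd P e / (2 * L)) • h) X
  rw [← hU] at e1
  rw [← hV] at e2
  have hXX := dd_self_nonneg X
  have fin := far_fin (PP := dd P P) (a := dd P e) (G := δ * (4 * L + 1) ^ 2) hδ
    (by nlinarith [mul_pos hδ hL0, mul_pos (mul_pos hδ hL0) hL0]) hδ1 hδ2 hm f1 f2 hq0 f3
  rw [f4, f5, e1, e2]
  clear hU hV e1 e2 f4 f5 c1b c2b
  generalize TT (c1 e h ν L δ) (w1 e h ν L) (P - (dd P e / (2 * L)) • h) = T1 at *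
  generalize TT (c2 e h ν L δ) (w2 e h ν L) (P + (dd P e / (2 * L)) • h) = T2 at *
  generalize TT (c1 e h ν L δ) (w1 e h ν L) X = T3 at *
  generalize TT (c2 e h ν L δ) (w2 e h ν L) X = T4 at *
  generalize TB (c1 e h ν L δ) (w1 e h ν L) (P - (dd P e / (2 * L)) • h) X = B1 at *
  generalize TB (c2 e h ν L δ) (w2 e h ν L) (P + (dd P e / (2 * L)) • h) X = B2 at *
  generalize dd (P - (dd P e / (2 * L)) • h) (P - (dd P e / (2 * L)) • h) = n1 at *
  generalize dd (P + (dd P e / (2 * L)) • h) (P + (dd P e / (2 * L)) • h) = n2 at *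
  generalize dd X X = x at *
  generalize dd P P = PP at *
  have g1 : ∀ z : ℝ, (4 * L + 1) * δ * (1 / (8 * (4 * L + 1)) * z + x / (1 / (8 * (4 * L + 1))))
      = δ / 8 * z + 8 * (δ * (4 * L + 1) ^ 2) * x := by
    intro z; field_simp
  rw [g1] at b1 b2
  have b1' := (abs_le.1 b1).1
  have b2' := (abs_le.1 b2).2
  have b3' := (abs_le.1 b3).1
  have b4' := (abs_le.1 b4).1
  have g3 : (4 * L + 1) * δ * x ≤ δ * (4 * L + 1) ^ 2 * x := by
    apply mul_le_mul_of_nonneg_right _ hXX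
    nlinarith [mul_pos hδ hL0, mul_pos (mul_pos hδ hL0) hL0]
  have g6 : δ / 8 * (n1 + n2) ≤ δ / 8 * (41 / 8 * PP) :=
    mul_le_mul_of_nonneg_left f6 (by positivity)
  linarith

end Vale.Agent.P088.R2.H230.W
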