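import Vale.Agent.P088.R2.H230.W.Far

/-!
# P088, stage 3: the certificate away from the diagonal, general gradients

The stiff part `S = e^φ` enters through `φ_x`, `φ_y`, the full gradients (divided by `S`) are
`w₁ = ν₁ e + ℓ₁ h`, `w₂ = ν₂ e - ℓ₂ h` with `0 ≤ ℓᵢ ≤ 2 L νᵢ`.
-/

noncomputable section

namespace Vale.Agent.P088.R2.H230.W

variable {ι : Type*} [Fintype ι]

/-- The scalar identity behind the certificate, different slopes on the two sides. -/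
lemma key_id2 (a b N c ν₁ ℓ₁ ν₂ ℓ₂ L s δ D₁ D₂ : ℝ) (hL : L ≠ 0) (h1 : D₁ ≠ 0) (h2 : D₂ ≠ 0)
    (e1 : D₁ = ν₁ ^ 2 + ℓ₁ ^ 2 + 2 * c * ν₁ * ℓ₁) (e2 : D₂ = ν₂ ^ 2 + ℓ₂ ^ 2 - 2 * c * ν₂ * ℓ₂) :
    (((s * ν₁ - δ * ℓ₁) * (ν₁ * c + ℓ₁)
        + (s * ℓ₁ + δ * ν₁ + 2 * c * δ * ℓ₁) * (ν₁ + ℓ₁ * c)) / D₁
        * (N - a / L * b + a ^ 2 / (4 * L ^ 2))
      - 2 * (((s * ν₁ - δ * ℓ₁) * (b - a / (2 * L))
        + (s * ℓ₁ + δ * ν₁ + 2 * c * δ * ℓ₁) * (a - a / (2 * L) * c)) / D₁)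
        * (ν₁ * (a - a / (2 * L) * c) + ℓ₁ * (b - a / (2 * L))))
    + ((-(s * ν₂ - δ * ℓ₂) * (ν₂ * c - ℓ₂)
        + (s * ℓ₂ + δ * ν₂ - 2 * c * δ * ℓ₂) * (ν₂ - ℓ₂ * c)) / D₂
        * (N + a / L * b + a ^ 2 / (4 * L ^ 2))
      - 2 * ((-(s * ν₂ - δ * ℓ₂) * (b + a / (2 * L))
        + (s * ℓ₂ + δ * ν₂ - 2 * c * δ * ℓ₂) * (a + a / (2 * L) * c)) / D₂)
        * (ν₂ * (a + a / (2 * L) * c) - ℓ₂ * (b + a / (2 * L))))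
    = 2 * δ * N + (2 * s / L - 4 * δ - δ * (2 * c ^ 2 - 1) / (2 * L ^ 2)) * a ^ 2
      + (2 * s * (ν₁ * ℓ₁ * (ν₂ ^ 2 + ℓ₂ ^ 2) + ν₂ * ℓ₂ * (ν₁ ^ 2 + ℓ₁ ^ 2))
          - 2 * δ * (ℓ₁ ^ 2 * D₂ + ℓ₂ ^ 2 * D₁))
        * ((1 - c ^ 2) * N - a ^ 2 - b ^ 2 + 2 * a * b * c) / (D₁ * D₂) := by
  field_simp
  subst e1 e2
  ring

/-- The first full gradient divided by `S`. -/
def v1 (e h : ι → ℝ) (ν ℓ : ℝ) : ι → ℝ := ν • e + ℓ • h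

/-- The second full gradient divided by `S`. -/
def v2 (e h : ι → ℝ) (ν ℓ : ℝ) : ι → ℝ := ν • e - ℓ • h

/-- The first Lee field. -/
def f1 (e h : ι → ℝ) (ν ℓ s δ : ℝ) : ι → ℝ :=
  (ν ^ 2 + ℓ ^ 2 + 2 * dd e h * ν * ℓ)⁻¹ •
    ((s * ν - δ * ℓ) • h + (s * ℓ + δ * ν + 2 * dd e h * δ * ℓ) • e)

/-- The second Lee field. -/
def f2 (e h : ι → ℝ) (ν ℓ s δ : ℝ) : ι → ℝ :=
  (ν ^ 2 + ℓ ^ 2 - 2 * dd e h * ν * ℓ)⁻¹ •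
    ((-(s * ν - δ * ℓ)) • h + (s * ℓ + δ * ν - 2 * dd e h * δ * ℓ) • e)

/-- In plane coefficient. -/
lemma t1_nonneg {L s δ c : ℝ} (hL : 2 / 5 ≤ L) (hs : s = 4 * L * δ) (hδ : 0 ≤ δ)
    (hc : c ^ 2 ≤ 1) : 0 ≤ 2 * s / L - 4 * δ - δ * (2 * c ^ 2 - 1) / (2 * L ^ 2) := by
  have hL0 : 0 < L := by linarith
  have e1 : 2 * s / L = 8 * δ := by rw [hs]; field_simp; ring
  have e2 : δ * (2 * c ^ 2 - 1) / (2 * L ^ 2) ≤ 4 * δ := by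
    rw [div_le_iff₀ (by positivity)]
    have h1 : (0:ℝ) ≤ 8 * L ^ 2 - 1 := by nlinarith
    nlinarith [mul_nonneg hδ h1, mul_nonneg hδ (sub_nonneg.2 hc)]
  rw [e1]; linarith

/-- Out of plane coefficient. -/
lemma t2_nonneg {L δ c ν₁ ℓ₁ ν₂ ℓ₂ : ℝ} (hL : 0 < L) (hδ : 0 ≤ δ) (hc : |c| ≤ 1)
    (hl1 : 0 ≤ ℓ₁) (hl2 : 0 ≤ ℓ₂) (hl1' : ℓ₁ ≤ 2 * L * ν₁) (hl2' : ℓ₂ ≤ 2 * L * ν₂)
    (h1 : 0 < ν₁ ^ 2 + ℓ₁ ^ 2 + 2 * c * ν₁ * ℓ₁) (h2 : 0 < ν₂ ^ 2 + ℓ₂ ^ 2 - 2 * c * ν₂ * ℓ₂) :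
    0 ≤ 2 * (4 * L * δ) * (ν₁ * ℓ₁ * (ν₂ ^ 2 + ℓ₂ ^ 2) + ν₂ * ℓ₂ * (ν₁ ^ 2 + ℓ₁ ^ 2))
          - 2 * δ * (ℓ₁ ^ 2 * (ν₂ ^ 2 + ℓ₂ ^ 2 - 2 * c * ν₂ * ℓ₂)
            + ℓ₂ ^ 2 * (ν₁ ^ 2 + ℓ₁ ^ 2 + 2 * c * ν₁ * ℓ₁)) := by
  have hν1 : 0 ≤ ν₁ := by
    by_contra hneg
    have := mul_pos hL (neg_pos.2 (not_le.1 hneg))
    linarith
  have hν2 : 0 ≤ ν₂ := by
    by_contra hneg
    have := mul_pos hL (neg_pos.2 (not_le.1 hneg))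
    linarith
  have hc1 := (abs_le.1 hc).1
  have hc1' := (abs_le.1 hc).2
  have hp1 : 0 ≤ ν₁ * ℓ₁ := mul_nonneg hν1 hl1
  have hp2 : 0 ≤ ν₂ * ℓ₂ := mul_nonneg hν2 hl2
  have d1 : ν₁ ^ 2 + ℓ₁ ^ 2 + 2 * c * ν₁ * ℓ₁ ≤ 2 * (ν₁ ^ 2 + ℓ₁ ^ 2) := by
    nlinarith [sq_nonneg (ν₁ - ℓ₁), mul_nonneg hp1 (sub_nonneg.2 hc1')]
  have d2 : ν₂ ^ 2 + ℓ₂ ^ 2 - 2 * c * ν₂ * ℓ₂ ≤ 2 * (ν₂ ^ 2 + ℓ₂ ^ 2) := by
    nlinarith [sq_nonneg (ν₂ - ℓ₂), mul_nonneg hp2 (neg_le_iff_add_nonneg'.1 hc1)]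
  have q1 : ℓ₁ ^ 2 ≤ 2 * L * (ν₁ * ℓ₁) := by
    have := mul_le_mul_of_nonneg_right hl1' hl1
    linarith [sq ℓ₁]
  have q2 : ℓ₂ ^ 2 ≤ 2 * L * (ν₂ * ℓ₂) := by
    have := mul_le_mul_of_nonneg_right hl2' hl2
    linarith [sq ℓ₂]
  have m1 : ℓ₁ ^ 2 * (ν₂ ^ 2 + ℓ₂ ^ 2 - 2 * c * ν₂ * ℓ₂)
      ≤ 2 * L * (ν₁ * ℓ₁) * (2 * (ν₂ ^ 2 + ℓ₂ ^ 2)) :=
    mul_le_mul q1 d2 h2.le (by positivity)
  have m2 : ℓ₂ ^ 2 * (ν₁ ^ 2 + ℓ₁ ^ 2 + 2 * c * ν₁ * ℓ₁)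
      ≤ 2 * L * (ν₂ * ℓ₂) * (2 * (ν₁ ^ 2 + ℓ₁ ^ 2)) :=
    mul_le_mul q2 d1 h1.le (by positivity)
  have := mul_le_mul_of_nonneg_left (add_le_add m1 m2) (mul_nonneg (by norm_num : (0:ℝ) ≤ 2) hδ)
  linarith

section
variable {e h : ι → ℝ} (he : dd e e = 1) (hh : dd h h = 1)
include he hh

lemma dd_v1 (ν ℓ : ℝ) : dd (v1 e h ν ℓ) (v1 e h ν ℓ) = ν ^ 2 + ℓ ^ 2 + 2 * dd e h * ν * ℓ :=
  dd_w1 he hh ν ℓ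

lemma dd_v2 (ν ℓ : ℝ) : dd (v2 e h ν ℓ) (v2 e h ν ℓ) = ν ^ 2 + ℓ ^ 2 - 2 * dd e h * ν * ℓ :=
  dd_w2 he hh ν ℓ

lemma f1_v1 (ν ℓ s δ : ℝ) (hD : ν ^ 2 + ℓ ^ 2 + 2 * dd e h * ν * ℓ ≠ 0) :
    dd (f1 e h ν ℓ s δ) (f1 e h ν ℓ s δ) * dd (v1 e h ν ℓ) (v1 e h ν ℓ)
      = s ^ 2 + δ ^ 2 + 2 * s * δ * dd e h := by
  rw [dd_v1 he hh]
  simp only [f1, dd_add_left, dd_add_right, dd_smul_left, dd_smul_right, he, hh, dd_comm h e]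
  generalize hD' : ν ^ 2 + ℓ ^ 2 + 2 * dd e h * ν * ℓ = D at *
  field_simp
  subst hD'
  ring

lemma f2_v2 (ν ℓ s δ : ℝ) (hD : ν ^ 2 + ℓ ^ 2 - 2 * dd e h * ν * ℓ ≠ 0) :
    dd (f2 e h ν ℓ s δ) (f2 e h ν ℓ s δ) * dd (v2 e h ν ℓ) (v2 e h ν ℓ)
      = s ^ 2 + δ ^ 2 - 2 * s * δ * dd e h := by
  rw [dd_v2 he hh]
  simp only [f2, dd_add_left, dd_add_right, dd_smul_left, dd_smul_right, he, hh, dd_comm h e]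
  generalize hD' : ν ^ 2 + ℓ ^ 2 - 2 * dd e h * ν * ℓ = D at *
  field_simp
  subst hD'
  ring

/-- `|f₁| |v₁| ≤ s + δ`. -/
lemma f1_v1_le {ν ℓ s δ : ℝ} (hs : 0 ≤ s) (hδ : 0 ≤ δ)
    (hD : ν ^ 2 + ℓ ^ 2 + 2 * dd e h * ν * ℓ ≠ 0) :
    dd (f1 e h ν ℓ s δ) (f1 e h ν ℓ s δ) * dd (v1 e h ν ℓ) (v1 e h ν ℓ) ≤ (s + δ) ^ 2 := by
  rw [f1_v1 he hh ν ℓ s δ hD]
  have := (abs_le.1 (abs_dd_le he hh)).2
  nlinarith [mul_nonneg (mul_nonneg hs hδ) (sub_nonneg.2 this)]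

/-- `|f₂| |v₂| ≤ s + δ`. -/
lemma f2_v2_le {ν ℓ s δ : ℝ} (hs : 0 ≤ s) (hδ : 0 ≤ δ)
    (hD : ν ^ 2 + ℓ ^ 2 - 2 * dd e h * ν * ℓ ≠ 0) :
    dd (f2 e h ν ℓ s δ) (f2 e h ν ℓ s δ) * dd (v2 e h ν ℓ) (v2 e h ν ℓ) ≤ (s + δ) ^ 2 := by
  rw [f2_v2 he hh ν ℓ s δ hD]
  have := (abs_le.1 (abs_dd_le he hh)).1
  nlinarith [mul_nonneg (mul_nonneg hs hδ) (neg_le_iff_add_nonneg'.1 this)]

/-- The form on the null space of the main part. -/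
lemma null_ge2 (P : ι → ℝ) {ν₁ ℓ₁ ν₂ ℓ₂ L s δ : ℝ} (hL : 2 / 5 ≤ L) (hs : s = 4 * L * δ)
    (hδ : 0 ≤ δ) (hl1 : 0 ≤ ℓ₁) (hl2 : 0 ≤ ℓ₂) (hl1' : ℓ₁ ≤ 2 * L * ν₁) (hl2' : ℓ₂ ≤ 2 * L * ν₂)
    (h1 : 0 < ν₁ ^ 2 + ℓ₁ ^ 2 + 2 * dd e h * ν₁ * ℓ₁)
    (h2 : 0 < ν₂ ^ 2 + ℓ₂ ^ 2 - 2 * dd e h * ν₂ * ℓ₂) :
    2 * δ * dd P P ≤ TT (f1 e h ν₁ ℓ₁ s δ) (v1 e h ν₁ ℓ₁) (P - (dd P e / (2 * L)) • h)
      + TT (f2 e h ν₂ ℓ₂ s δ) (v2 e h ν₂ ℓ₂) (P + (dd P e / (2 * L)) • h) := by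
  have hL0 : 0 < L := by linarith
  have key := key_id2 (dd P e) (dd P h) (dd P P) (dd e h) ν₁ ℓ₁ ν₂ ℓ₂ L s δ _ _ hL0.ne' h1.ne'
    h2.ne' rfl rfl
  have hc := abs_dd_le he hh
  have hc2 : dd e h ^ 2 ≤ 1 := sq_le_one_iff_abs_le_one _ |>.2 hc
  have eq1 : TT (f1 e h ν₁ ℓ₁ s δ) (v1 e h ν₁ ℓ₁) (P - (dd P e / (2 * L)) • h)
      + TT (f2 e h ν₂ ℓ₂ s δ) (v2 e h ν₂ ℓ₂) (P + (dd P e / (2 * L)) • h)
      = 2 * δ * dd P P + (2 * s / L - 4 * δ - δ * (2 * dd e h ^ 2 - 1) / (2 * L ^ 2)) * dd P e ^ 2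
      + (2 * s * (ν₁ * ℓ₁ * (ν₂ ^ 2 + ℓ₂ ^ 2) + ν₂ * ℓ₂ * (ν₁ ^ 2 + ℓ₁ ^ 2))
          - 2 * δ * (ℓ₁ ^ 2 * (ν₂ ^ 2 + ℓ₂ ^ 2 - 2 * dd e h * ν₂ * ℓ₂)
            + ℓ₂ ^ 2 * (ν₁ ^ 2 + ℓ₁ ^ 2 + 2 * dd e h * ν₁ * ℓ₁)))
        * ((1 - dd e h ^ 2) * dd P P - dd P e ^ 2 - dd P h ^ 2 + 2 * dd P e * dd P h * dd e h)
        / ((ν₁ ^ 2 + ℓ₁ ^ 2 + 2 * dd e h * ν₁ * ℓ₁)
          * (ν₂ ^ 2 + ℓ₂ ^ 2 - 2 * dd e h * ν₂ * ℓ₂)) := by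
    rw [← key]
    simp only [TT, f1, f2, v1, v2, dd_add_left, dd_add_right, dd_sub_left, dd_sub_right,
      dd_smul_left, dd_smul_right, he, hh, dd_comm h e, dd_comm e P, dd_comm h P]
    ring
  rw [eq1]
  have g := gram3 he hh P
  have t1 := mul_nonneg (t1_nonneg hL hs hδ hc2) (sq_nonneg (dd P e))
  have t2 := t2_nonneg hL0 hδ hc hl1 hl2 hl1' hl2' h1 h2
  rw [← hs] at t2
  have t3 := div_nonneg (mul_nonneg t2 g) (mul_pos h1 h2).le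
  linarith

end

/-- Decomposition along the null space of the main part, general gradients. -/
lemma far_dec2 {e h g : ι → ℝ} (he : dd e e = 1) (hh : dd h h = 1) (hg : dd h g = 0)
    (hgg : dd g g ≤ 1 / 100) {L : ℝ} (hL : 2 / 5 ≤ L) (k m : ℝ) (φ₁ φ₂ : ι → ℝ)
    (hs : φ₁ + φ₂ = e) (hd : φ₁ - φ₂ = (2 * L) • h + (2 : ℝ) • g)
    (U V : ι → ℝ) : ∃ (P X : ι → ℝ) (A t q : ℝ), 0 ≤ q ∧
    U = (P - (dd P e / (2 * L)) • h) + X ∧ V = (P + (dd P e / (2 * L)) • h) - X ∧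
    dd P e ^ 2 ≤ dd P P ∧ t ^ 2 ≤ 75 / 4 * (A ^ 2 + dd P e ^ 2 + q / 100) ∧
    dd X X ≤ 25 / 8 * A ^ 2 + 29 / 100 * q ∧ dd U U + dd V V = 2 * dd P P + (t ^ 2 + q) / 2 ∧
    (dd φ₁ U + dd φ₂ V) ^ 2 + k * (dd (U - V) (U - V) - dd h (U - V) ^ 2) - m * dd h (U - V) ^ 2
      = A ^ 2 + k * q - m * t ^ 2 ∧
    dd (P - (dd P e / (2 * L)) • h) (P - (dd P e / (2 * L)) • h)
      + dd (P + (dd P e / (2 * L)) • h) (P + (dd P e / (2 * L)) • h)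
      ≤ 41 / 8 * dd P P := by
  have hL0 : 0 < L := by linarith
  have hφ1 : φ₁ = (1 / 2 : ℝ) • e + L • h + g := by
    funext i
    have a1 := congrFun hs i
    have a2 := congrFun hd i
    simp only [Pi.add_apply, Pi.sub_apply, Pi.smul_apply, smul_eq_mul] at a1 a2 ⊢
    linarith
  have hφ2 : φ₂ = (1 / 2 : ℝ) • e - L • h - g := by
    funext i
    have a1 := congrFun hs i
    have a2 := congrFun hd i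
    simp only [Pi.add_apply, Pi.sub_apply, Pi.smul_apply, smul_eq_mul] at a1 a2 ⊢
    linarith
  obtain ⟨Q, hQ⟩ : ∃ Q : ι → ℝ, Q = U - V := ⟨_, rfl⟩
  obtain ⟨P, hP⟩ : ∃ P : ι → ℝ, P = (1 / 2 : ℝ) • (U + V) := ⟨_, rfl⟩
  have hU : U = P + (1 / 2 : ℝ) • Q := by
    rw [hQ, hP]; funext i; simp only [Pi.add_apply, Pi.sub_apply, Pi.smul_apply, smul_eq_mul]; ring
  have hV : V = P - (1 / 2 : ℝ) • Q := by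
    rw [hQ, hP]; funext i; simp only [Pi.add_apply, Pi.sub_apply, Pi.smul_apply, smul_eq_mul]; ring
  obtain ⟨t, ht⟩ : ∃ t : ℝ, t = dd h Q := ⟨_, rfl⟩
  obtain ⟨Z, hZ⟩ : ∃ Z : ι → ℝ, Z = Q - t • h := ⟨_, rfl⟩
  have hhZ : dd h Z = 0 := by rw [hZ, dd_sub_right, dd_smul_right, hh, ht]; ring
  have hQZ : Q = t • h + Z := by rw [hZ]; abel
  have hgQ : dd g Q = dd g Z := by
    rw [hQZ, dd_add_right, dd_smul_right, dd_comm g h, hg]; ring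
  have hgZ : dd g Z ^ 2 ≤ dd Z Z / 100 := by
    have := dd_cs g Z
    nlinarith [dd_self_nonneg Z]
  have hA : dd φ₁ U + dd φ₂ V = dd P e + L * t + dd g Z := by
    rw [hφ1, hφ2, hU, hV, ← hgQ, ht]
    simp only [dd_add_left, dd_add_right, dd_sub_left, dd_sub_right, dd_smul_left, dd_smul_right,
      dd_comm e P, dd_comm e Q]
    ring
  have hQQ : dd Q Q = t ^ 2 + dd Z Z := by
    rw [hQZ]
    simp only [dd_add_left, dd_add_right, dd_smul_left, dd_smul_right, dd_comm Z h, hhZ, hh]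
    ring
  have f1 : dd P e ^ 2 ≤ dd P P := by
    have := dd_cs P e; rw [he, mul_one] at this; exact this
  refine ⟨P, ((dd P e + L * t) / (2 * L)) • h + (1 / 2 : ℝ) • Z, dd φ₁ U + dd φ₂ V, t, dd Z Z,
    dd_self_nonneg Z, ?_, ?_, f1, ?_, ?_, ?_, ?_, ?_⟩
  · rw [hU, hQZ]; funext i
    simp only [Pi.add_apply, Pi.sub_apply, Pi.smul_apply, smul_eq_mul]
    field_simp
    ring
  · rw [hV, hQZ]; funext i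
    simp only [Pi.add_apply, Pi.sub_apply, Pi.smul_apply, smul_eq_mul]
    field_simp
    ring
  · rw [hA]
    generalize dd P e = a at *
    generalize dd g Z = b at *
    generalize dd Z Z = q at *
    have e2 : (L * t) ^ 2 ≤ 3 * ((a + L * t + b) ^ 2 + a ^ 2 + b ^ 2) := by
      nlinarith [sq_nonneg ((a + L * t + b) + a), sq_nonneg ((a + L * t + b) + b),
        sq_nonneg (a - b)]
    have e3 : (2 / 5 : ℝ) ^ 2 * t ^ 2 ≤ L ^ 2 * t ^ 2 :=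
      mul_le_mul_of_nonneg_right (by nlinarith) (sq_nonneg _)
    nlinarith
  · rw [hA]
    have e0 : ∀ b : ℝ, dd (b • h + (1 / 2 : ℝ) • Z) (b • h + (1 / 2 : ℝ) • Z)
        = b ^ 2 + dd Z Z / 4 := by
      intro b
      simp only [dd_add_left, dd_add_right, dd_smul_left, dd_smul_right, dd_comm Z h, hhZ, hh]
      ring
    rw [e0]
    generalize dd P e = a at *
    generalize dd g Z = b at *
    generalize dd Z Z = q at *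
    have e4 : ((a + L * t) / (2 * L)) ^ 2 ≤ 25 / 8 * ((a + L * t + b) ^ 2 + b ^ 2) := by
      rw [div_pow, div_le_iff₀ (by positivity)]
      have : (a + L * t) ^ 2 ≤ 2 * ((a + L * t + b) ^ 2 + b ^ 2) := by
        nlinarith [sq_nonneg (a + L * t + 2 * b)]
      nlinarith [mul_nonneg (add_nonneg (sq_nonneg (a + L * t + b)) (sq_nonneg b))
        (show (0:ℝ) ≤ 25 / 4 * L ^ 2 - 1 by nlinarith)]
    have hq0 : 0 ≤ q := by nlinarith [sq_nonneg b]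
    linarith
  · rw [hU, hV]
    simp only [dd_add_left, dd_add_right, dd_sub_left, dd_sub_right, dd_smul_left, dd_smul_right,
      dd_comm Q P]
    have := hQQ
    linarith
  · rw [← hQ, ← ht, hQQ]; ring
  · have f6 : dd (P - (dd P e / (2 * L)) • h) (P - (dd P e / (2 * L)) • h)
      + dd (P + (dd P e / (2 * L)) • h) (P + (dd P e / (2 * L)) • h)
        = 2 * dd P P + dd P e ^ 2 / (2 * L ^ 2) := by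
      simp only [dd_add_left, dd_add_right, dd_sub_left, dd_sub_right, dd_smul_left, dd_smul_right,
        hh, dd_comm h P]
      field_simp
      ring
    have f6' : dd P e ^ 2 / (2 * L ^ 2) ≤ 25 / 8 * dd P P := by
      rw [div_le_iff₀ (by positivity)]
      nlinarith [mul_nonneg (dd_self_nonneg P) (show (0:ℝ) ≤ 25 / 4 * L ^ 2 - 1 by nlinarith)]
    rw [f6]; linarith

lemma G_ge {L δ : ℝ} (hL : 0 < L) (hδ : 0 < δ) :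
    δ ≤ δ * (4 * L + 1) ^ 2 ∧ (4 * L + 1) * δ ≤ δ * (4 * L + 1) ^ 2 := by
  have h1 := mul_pos hδ hL
  have h2 := mul_pos h1 hL
  constructor <;> nlinarith

/-- The final scalar inequality. -/
lemma far_fin2 {δ G k m PP a A t q x : ℝ} (hδ : 0 < δ) (hG : δ ≤ G) (hG1 : 1500 * G ≤ 1)
    (hG2 : 100 * G ≤ k) (hm : 50 * m ≤ δ) (ha : a ^ 2 ≤ PP)
    (ht : t ^ 2 ≤ 75 / 4 * (A ^ 2 + a ^ 2 + q / 100))
    (hq : 0 ≤ q) (hx : x ≤ 25 / 8 * A ^ 2 + 29 / 100 * q) :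
    δ / 12 * (2 * PP + (t ^ 2 + q) / 2) ≤ A ^ 2 + k * q - m * t ^ 2
      + 2 * δ * PP - δ / 8 * (41 / 8 * PP) - 18 * G * x := by
  have hG0 : 0 ≤ G := by linarith
  have hGX : G * x ≤ G * (25 / 8 * A ^ 2 + 29 / 100 * q) := mul_le_mul_of_nonneg_left hx hG0
  have hGA : G * A ^ 2 ≤ 1 / 1500 * A ^ 2 := mul_le_mul_of_nonneg_right (by linarith) (sq_nonneg A)
  have hGq : G * q ≤ k / 100 * q := mul_le_mul_of_nonneg_right (by linarith) hq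
  have hmt : m * t ^ 2 ≤ δ / 50 * t ^ 2 := mul_le_mul_of_nonneg_right (by linarith) (sq_nonneg t)
  have hdq : δ * q ≤ k / 100 * q := mul_le_mul_of_nonneg_right (by linarith) hq
  have hdA : δ * A ^ 2 ≤ 1 / 1500 * A ^ 2 :=
    mul_le_mul_of_nonneg_right (by linarith) (sq_nonneg A)
  have hda : δ * a ^ 2 ≤ δ * PP := mul_le_mul_of_nonneg_left ha hδ.le
  have hdt : δ * t ^ 2 ≤ δ * (75 / 4 * (A ^ 2 + a ^ 2 + q / 100)) :=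
    mul_le_mul_of_nonneg_left ht hδ.le
  have hPP : 0 ≤ PP := (sq_nonneg a).trans ha
  have hdP : 0 ≤ δ * PP := mul_nonneg hδ.le hPP
  have hkq : 0 ≤ k * q := mul_nonneg (by linarith) hq
  have hA2 := sq_nonneg A
  linarith

/-- The certificate away from the diagonal, general gradients. -/
theorem far_cert2 {e h g : ι → ℝ} (he : dd e e = 1) (hh : dd h h = 1) (hg : dd h g = 0)
    (hgg : dd g g ≤ 1 / 100) {ν₁ ℓ₁ ν₂ ℓ₂ L k m δ : ℝ} (hL : 2 / 5 ≤ L)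
    (hδ : 0 < δ) (hδ1 : 1500 * (δ * (4 * L + 1) ^ 2) ≤ 1)
    (hδ2 : 100 * (δ * (4 * L + 1) ^ 2) ≤ k) (hm : 50 * m ≤ δ)
    (hl1 : 0 ≤ ℓ₁) (hl2 : 0 ≤ ℓ₂) (hl1' : ℓ₁ ≤ 2 * L * ν₁) (hl2' : ℓ₂ ≤ 2 * L * ν₂)
    (h1 : 0 < ν₁ ^ 2 + ℓ₁ ^ 2 + 2 * dd e h * ν₁ * ℓ₁)
    (h2 : 0 < ν₂ ^ 2 + ℓ₂ ^ 2 - 2 * dd e h * ν₂ * ℓ₂) (φ₁ φ₂ : ι → ℝ)
    (hs : φ₁ + φ₂ = e) (hd : φ₁ - φ₂ = (2 * L) • h + (2 : ℝ) • g) (U V : ι → ℝ) :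
    δ / 12 * (dd U U + dd V V) ≤
      (dd φ₁ U + dd φ₂ V) ^ 2 + k * (dd (U - V) (U - V) - dd h (U - V) ^ 2)
      - m * dd h (U - V) ^ 2
      + TT (f1 e h ν₁ ℓ₁ (4 * L * δ) δ) (v1 e h ν₁ ℓ₁) U
      + TT (f2 e h ν₂ ℓ₂ (4 * L * δ) δ) (v2 e h ν₂ ℓ₂) V := by
  have hL0 : 0 < L := by linarith
  obtain ⟨P, X, A, t, q, hq0, hU, hV, g1, g2, g3, g4, g5, g6⟩ :=
    far_dec2 he hh hg hgg hL k m φ₁ φ₂ hs hd U V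
  have hN := null_ge2 he hh P hL (s := 4 * L * δ) rfl hδ.le hl1 hl2 hl1' hl2' h1 h2
  have hsδ : 4 * L * δ + δ = (4 * L + 1) * δ := by ring
  have c1b := f1_v1_le he hh (s := 4 * L * δ) (by positivity) hδ.le h1.ne'
  have c2b := f2_v2_le he hh (s := 4 * L * δ) (by positivity) hδ.le h2.ne'
  rw [hsδ] at c1b c2b
  have hτ0 : 0 ≤ (4 * L + 1) * δ := by positivity
  have hη0 : 0 < 1 / (8 * (4 * L + 1)) := by positivity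
  have b1 := TB_abs_le _ _ (P - (dd P e / (2 * L)) • h) X hτ0 hη0 c1b
  have b2 := TB_abs_le _ _ (P + (dd P e / (2 * L)) • h) X hτ0 hη0 c2b
  have b3 := TT_abs_le _ _ X hτ0 c1b
  have b4 := TT_abs_le _ _ X hτ0 c2b
  have e1 := TT_add (f1 e h ν₁ ℓ₁ (4 * L * δ) δ) (v1 e h ν₁ ℓ₁) (P - (dd P e / (2 * L)) • h) X
  have e2 := TT_sub (f2 e h ν₂ ℓ₂ (4 * L * δ) δ) (v2 e h ν₂ ℓ₂) (P + (dd P e / (2 * L)) • h) X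
  rw [← hU] at e1
  rw [← hV] at e2
  have hXX := dd_self_nonneg X
  have fin := far_fin2 (PP := dd P P) (a := dd P e) (G := δ * (4 * L + 1) ^ 2) hδ
    (G_ge hL0 hδ).1 hδ1 hδ2 hm g1 g2 hq0 g3
  rw [g4, g5, e1, e2]
  clear hU hV e1 e2 g4 g5 c1b c2b
  generalize TT (f1 e h ν₁ ℓ₁ (4 * L * δ) δ) (v1 e h ν₁ ℓ₁) (P - (dd P e / (2 * L)) • h) = T1 at *
  generalize TT (f2 e h ν₂ ℓ₂ (4 * L * δ) δ) (v2 e h ν₂ ℓ₂) (P + (dd P e / (2 * L)) • h) = T2 at *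
  generalize TT (f1 e h ν₁ ℓ₁ (4 * L * δ) δ) (v1 e h ν₁ ℓ₁) X = T3 at *
  generalize TT (f2 e h ν₂ ℓ₂ (4 * L * δ) δ) (v2 e h ν₂ ℓ₂) X = T4 at *
  generalize TB (f1 e h ν₁ ℓ₁ (4 * L * δ) δ) (v1 e h ν₁ ℓ₁) (P - (dd P e / (2 * L)) • h) X = B1 at *
  generalize TB (f2 e h ν₂ ℓ₂ (4 * L * δ) δ) (v2 e h ν₂ ℓ₂) (P + (dd P e / (2 * L)) • h) X = B2 at *
  generalize dd (P - (dd P e / (2 * L)) • h) (P - (dd P e / (2 * L)) • h) = n1 at *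
  generalize dd (P + (dd P e / (2 * L)) • h) (P + (dd P e / (2 * L)) • h) = n2 at *
  generalize dd X X = x at *
  generalize dd P P = PP at *
  have k1 : ∀ z : ℝ, (4 * L + 1) * δ * (1 / (8 * (4 * L + 1)) * z + x / (1 / (8 * (4 * L + 1))))
      = δ / 8 * z + 8 * (δ * (4 * L + 1) ^ 2) * x := by
    intro z; field_simp
  rw [k1] at b1 b2
  have b1' := (abs_le.1 b1).1
  have b2' := (abs_le.1 b2).2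
  have b3' := (abs_le.1 b3).1
  have b4' := (abs_le.1 b4).1
  have k3 : (4 * L + 1) * δ * x ≤ δ * (4 * L + 1) ^ 2 * x :=
    mul_le_mul_of_nonneg_right (G_ge hL0 hδ).2 hXX
  have k6 : δ / 8 * (n1 + n2) ≤ δ / 8 * (41 / 8 * PP) :=
    mul_le_mul_of_nonneg_left g6 (by positivity)
  linarith

/-- Change of the gradient in the multiplier form. -/
lemma TT_add_w (c w ρ U : ι → ℝ) : TT c (w + ρ) U = TT c w U + TT c ρ U := by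
  simp only [TT, dd_add_left, dd_add_right]; ring

end Vale.Agent.P088.R2.H230.W
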