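import Vale.Agent.P088.R2.H230.W.Far2

/-!
# P088, stage 3: the certificate away from the diagonal with slack and with a coefficient

`δ/12 (|U|²+|V|²) ≤ κ (φ₁·U+φ₂·V)² + k(|Q|²-(h·Q)²) - m (h·Q)² + TT + TT`, full gradients
`v₁ = ν₁ e + ℓ₁ h`, `v₂ = ν₂ e - ℓ₂ h` with `0 ≤ ℓᵢ ≤ 2 Λ νᵢ` for some `Λ ≥ L`.
-/

noncomputable section

namespace Vale.Agent.P088.R2.H230.W

variable {ι : Type*} [Fintype ι]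

/-- In plane coefficient, with slack. -/
lemma t1_nonneg3 {L Λ s δ c : ℝ} (hL : 2 / 5 ≤ L) (hΛ : L ≤ Λ) (hs : s = 4 * Λ * δ) (hδ : 0 ≤ δ)
    (hc : c ^ 2 ≤ 1) : 0 ≤ 2 * s / L - 4 * δ - δ * (2 * c ^ 2 - 1) / (2 * L ^ 2) := by
  have hL0 : 0 < L := by linarith
  have e1 : 8 * δ ≤ 2 * s / L := by
    rw [hs, le_div_iff₀ hL0]
    nlinarith [mul_nonneg hδ (sub_nonneg.2 hΛ)]
  have e2 : δ * (2 * c ^ 2 - 1) / (2 * L ^ 2) ≤ 4 * δ := by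
    rw [div_le_iff₀ (by positivity)]
    have h1 : (0:ℝ) ≤ 8 * L ^ 2 - 1 := by nlinarith
    nlinarith [mul_nonneg hδ h1, mul_nonneg hδ (sub_nonneg.2 hc)]
  linarith

section
variable {e h : ι → ℝ} (he : dd e e = 1) (hh : dd h h = 1)
include he hh

/-- The form on the null space of the main part, with slack. -/
lemma null_ge3 (P : ι → ℝ) {ν₁ ℓ₁ ν₂ ℓ₂ L Λ s δ : ℝ} (hL : 2 / 5 ≤ L) (hΛ : L ≤ Λ)
    (hs : s = 4 * Λ * δ)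
    (hδ : 0 ≤ δ) (hl1 : 0 ≤ ℓ₁) (hl2 : 0 ≤ ℓ₂) (hl1' : ℓ₁ ≤ 2 * Λ * ν₁) (hl2' : ℓ₂ ≤ 2 * Λ * ν₂)
    (h1 : 0 < ν₁ ^ 2 + ℓ₁ ^ 2 + 2 * dd e h * ν₁ * ℓ₁)
    (h2 : 0 < ν₂ ^ 2 + ℓ₂ ^ 2 - 2 * dd e h * ν₂ * ℓ₂) :
    2 * δ * dd P P ≤ TT (f1 e h ν₁ ℓ₁ s δ) (v1 e h ν₁ ℓ₁) (P - (dd P e / (2 * L)) • h)
      + TT (f2 e h ν₂ ℓ₂ s δ) (v2 e h ν₂ ℓ₂) (P + (dd P e / (2 * L)) • h) := by
  have hL0 : 0 < L := by linarith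
  have hΛ0 : 0 < Λ := by linarith
  have key := key_id2 (dd P e) (dd P h) (dd P P) (dd e h) ν₁ ℓ₁ ν₂ ℓ₂ L s δ _ _ hL0.ne' h1.ne'
    h2.ne' rfl rfl
  have hc := abs_dd_le he hh
  have hc2 : dd e h ^ 2 ≤ 1 := sq_le_one_iff_abs_le_one _ |>.2 hc
  have eq1 : TT (f1 e h ν₁ ℓ₁ s δ) (v1 e h ν₁ ℓ₁) (P - (dd P e / (2 * L)) • h)
      + TT (f2 e h ν₂ ℓ₂ s δ) (v2 e h ν₂ ℓ₂) (P + (dd P e / (2 * L)) • h)
      = 2 * δ * dd P P + (2 * s / L - 4 * δ - δ * (2 * dd e h ^ 2 - 1) / (2 * L ^ 2)) * dd P e ^ 2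
      + (2 * s * (ν₁ * ℓ₁ * (ν₂ ^ 2 + ℓ₂ ^ 2) + ν₂ * ℓ₂ * (ν₁ ^ 2 + ℓ₁ ^ 2))
          - 2 * δ * (ℓ₁ ^ 2 * (ν₂ ^ 2 + ℓ₂ ^ 2 - 2 * dd e h * ν₂ * ℓ₂)
            + ℓ₂ ^ 2 * (ν₁ ^ 2 + ℓ₁ ^ 2 + 2 * dd e h * ν₁ * ℓ₁)))
        * ((1 - dd e h ^ 2) * dd P P - dd P e ^ 2 - dd P h ^ 2 + 2 * dd P e * dd P h * dd e h)
        / ((ν₁ ^ 2 + ℓ₁ ^ 2 + 2 * dd e h * ν₁ * ℓ₁)
          * (ν₂ ^ 2 + ℓ₂ ^ 2 - 2 * dd e h * ν₂ * ℓ₂)) := by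
    rw [← key]
    simp only [TT, f1, f2, v1, v2, dd_add_left, dd_add_right, dd_sub_left, dd_sub_right,
      dd_smul_left, dd_smul_right, he, hh, dd_comm h e, dd_comm e P, dd_comm h P]
    ring
  rw [eq1]
  have g := gram3 he hh P
  have t1 := mul_nonneg (t1_nonneg3 hL hΛ hs hδ hc2) (sq_nonneg (dd P e))
  have t2 := t2_nonneg hΛ0 hδ hc hl1 hl2 hl1' hl2' h1 h2
  rw [← hs] at t2
  have t3 := div_nonneg (mul_nonneg t2 g) (mul_pos h1 h2).le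
  linarith

end

/-- The certificate with slack, coefficient one. -/
theorem far_cert3' {e h g : ι → ℝ} (he : dd e e = 1) (hh : dd h h = 1) (hg : dd h g = 0)
    (hgg : dd g g ≤ 1 / 100) {ν₁ ℓ₁ ν₂ ℓ₂ L Λ k m δ : ℝ} (hL : 2 / 5 ≤ L) (hΛ : L ≤ Λ)
    (hδ : 0 < δ) (hδ1 : 1500 * (δ * (4 * Λ + 1) ^ 2) ≤ 1)
    (hδ2 : 100 * (δ * (4 * Λ + 1) ^ 2) ≤ k) (hm : 50 * m ≤ δ)
    (hl1 : 0 ≤ ℓ₁) (hl2 : 0 ≤ ℓ₂) (hl1' : ℓ₁ ≤ 2 * Λ * ν₁) (hl2' : ℓ₂ ≤ 2 * Λ * ν₂)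
    (h1 : 0 < ν₁ ^ 2 + ℓ₁ ^ 2 + 2 * dd e h * ν₁ * ℓ₁)
    (h2 : 0 < ν₂ ^ 2 + ℓ₂ ^ 2 - 2 * dd e h * ν₂ * ℓ₂) (φ₁ φ₂ : ι → ℝ)
    (hs : φ₁ + φ₂ = e) (hd : φ₁ - φ₂ = (2 * L) • h + (2 : ℝ) • g) (U V : ι → ℝ) :
    δ / 12 * (dd U U + dd V V) ≤
      (dd φ₁ U + dd φ₂ V) ^ 2 + k * (dd (U - V) (U - V) - dd h (U - V) ^ 2)
      - m * dd h (U - V) ^ 2
      + TT (f1 e h ν₁ ℓ₁ (4 * Λ * δ) δ) (v1 e h ν₁ ℓ₁) U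
      + TT (f2 e h ν₂ ℓ₂ (4 * Λ * δ) δ) (v2 e h ν₂ ℓ₂) V := by
  have hL0 : 0 < L := by linarith
  have hΛ0 : 0 < Λ := by linarith
  obtain ⟨P, X, A, t, q, hq0, hU, hV, g1, g2, g3, g4, g5, g6⟩ :=
    far_dec2 he hh hg hgg hL k m φ₁ φ₂ hs hd U V
  have hN := null_ge3 he hh P hL hΛ (s := 4 * Λ * δ) rfl hδ.le hl1 hl2 hl1' hl2' h1 h2
  have hsδ : 4 * Λ * δ + δ = (4 * Λ + 1) * δ := by ring
  have c1b := f1_v1_le he hh (s := 4 * Λ * δ) (by positivity) hδ.le h1.ne'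
  have c2b := f2_v2_le he hh (s := 4 * Λ * δ) (by positivity) hδ.le h2.ne'
  rw [hsδ] at c1b c2b
  have hτ0 : 0 ≤ (4 * Λ + 1) * δ := by positivity
  have hη0 : 0 < 1 / (8 * (4 * Λ + 1)) := by positivity
  have b1 := TB_abs_le _ _ (P - (dd P e / (2 * L)) • h) X hτ0 hη0 c1b
  have b2 := TB_abs_le _ _ (P + (dd P e / (2 * L)) • h) X hτ0 hη0 c2b
  have b3 := TT_abs_le _ _ X hτ0 c1b
  have b4 := TT_abs_le _ _ X hτ0 c2b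
  have e1 := TT_add (f1 e h ν₁ ℓ₁ (4 * Λ * δ) δ) (v1 e h ν₁ ℓ₁) (P - (dd P e / (2 * L)) • h) X
  have e2 := TT_sub (f2 e h ν₂ ℓ₂ (4 * Λ * δ) δ) (v2 e h ν₂ ℓ₂) (P + (dd P e / (2 * L)) • h) X
  rw [← hU] at e1
  rw [← hV] at e2
  have hXX := dd_self_nonneg X
  have fin := far_fin2 (PP := dd P P) (a := dd P e) (G := δ * (4 * Λ + 1) ^ 2) hδ
    (G_ge hΛ0 hδ).1 hδ1 hδ2 hm g1 g2 hq0 g3
  rw [g4, g5, e1, e2]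
  clear hU hV e1 e2 g4 g5 c1b c2b
  generalize TT (f1 e h ν₁ ℓ₁ (4 * Λ * δ) δ) (v1 e h ν₁ ℓ₁) (P - (dd P e / (2 * L)) • h) = T1 at *
  generalize TT (f2 e h ν₂ ℓ₂ (4 * Λ * δ) δ) (v2 e h ν₂ ℓ₂) (P + (dd P e / (2 * L)) • h) = T2 at *
  generalize TT (f1 e h ν₁ ℓ₁ (4 * Λ * δ) δ) (v1 e h ν₁ ℓ₁) X = T3 at *
  generalize TT (f2 e h ν₂ ℓ₂ (4 * Λ * δ) δ) (v2 e h ν₂ ℓ₂) X = T4 at *
  generalize TB (f1 e h ν₁ ℓ₁ (4 * Λ * δ) δ) (v1 e h ν₁ ℓ₁) (P - (dd P e / (2 * L)) • h) X = B1 at *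
  generalize TB (f2 e h ν₂ ℓ₂ (4 * Λ * δ) δ) (v2 e h ν₂ ℓ₂) (P + (dd P e / (2 * L)) • h) X = B2 at *
  generalize dd (P - (dd P e / (2 * L)) • h) (P - (dd P e / (2 * L)) • h) = n1 at *
  generalize dd (P + (dd P e / (2 * L)) • h) (P + (dd P e / (2 * L)) • h) = n2 at *
  generalize dd X X = x at *
  generalize dd P P = PP at *
  have k1 : ∀ z : ℝ, (4 * Λ + 1) * δ * (1 / (8 * (4 * Λ + 1)) * z + x / (1 / (8 * (4 * Λ + 1))))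
      = δ / 8 * z + 8 * (δ * (4 * Λ + 1) ^ 2) * x := by
    intro z; field_simp
  rw [k1] at b1 b2
  have b1' := (abs_le.1 b1).1
  have b2' := (abs_le.1 b2).2
  have b3' := (abs_le.1 b3).1
  have b4' := (abs_le.1 b4).1
  have k3 : (4 * Λ + 1) * δ * x ≤ δ * (4 * Λ + 1) ^ 2 * x :=
    mul_le_mul_of_nonneg_right (G_ge hΛ0 hδ).2 hXX
  have k6 : δ / 8 * (n1 + n2) ≤ δ / 8 * (41 / 8 * PP) :=
    mul_le_mul_of_nonneg_left g6 (by positivity)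
  linarith

/-- Field of a quotient: `fl e w γ = (w·e) γ - (γ·e) w + (γ·w) e` divided by `|w|²`. -/
def fl (e w γ : ι → ℝ) : ι → ℝ :=
  (dd w w)⁻¹ • (dd w e • γ - dd γ e • w + dd γ w • e)

lemma fl_smul (e w γ : ι → ℝ) (a : ℝ) : fl e w (a • γ) = a • fl e w γ := by
  simp only [fl, dd_smul_left]
  funext i
  simp only [Pi.smul_apply, Pi.add_apply, Pi.sub_apply, smul_eq_mul]
  ring

lemma fl_add (e w γ γ' : ι → ℝ) : fl e w (γ + γ') = fl e w γ + fl e w γ' := by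
  simp only [fl, dd_add_left]
  funext i
  simp only [Pi.smul_apply, Pi.add_apply, Pi.sub_apply, smul_eq_mul]
  ring

lemma TT_smul_left (a : ℝ) (c w U : ι → ℝ) : TT (a • c) w U = a * TT c w U := by
  simp only [TT, dd_smul_left]; ring

lemma TT_add_left (c c' w U : ι → ℝ) : TT (c + c') w U = TT c w U + TT c' w U := by
  simp only [TT, dd_add_left]; ring

lemma TT_neg_left (c w U : ι → ℝ) : TT (-c) w U = - TT c w U := by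
  have := TT_smul_left (-1) c w U
  simpa using this

section
variable {e h : ι → ℝ} (he : dd e e = 1) (hh : dd h h = 1)
include he hh

lemma f1_eq_fl (ν ℓ s δ : ℝ) :
    f1 e h ν ℓ s δ = fl e (v1 e h ν ℓ) (s • h + δ • e) := by
  have hw := dd_v1 he hh ν ℓ
  unfold fl
  rw [hw]
  unfold f1
  congr 1
  simp only [v1, dd_add_left, dd_add_right, dd_smul_left, dd_smul_right, he, hh, dd_comm h e]
  funext i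
  simp only [Pi.smul_apply, Pi.add_apply, Pi.sub_apply, smul_eq_mul]
  ring

lemma f2_eq_fl (ν ℓ s δ : ℝ) :
    f2 e h ν ℓ s δ = fl e (v2 e h ν ℓ) ((-s) • h + δ • e) := by
  have hw := dd_v2 he hh ν ℓ
  unfold fl
  rw [hw]
  unfold f2
  congr 1
  simp only [v2, dd_add_left, dd_add_right, dd_sub_left, dd_sub_right, dd_smul_left,
    dd_smul_right, he, hh, dd_comm h e]
  funext i
  simp only [Pi.smul_apply, Pi.add_apply, Pi.sub_apply, smul_eq_mul]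
  ring

end

/-- **The certificate away from the diagonal**: coefficient `κ` in front of the square, slack
`Λ ≥ L`, fields in the form `fl`. -/
theorem far_cert3 {e h g : ι → ℝ} (he : dd e e = 1) (hh : dd h h = 1) (hg : dd h g = 0)
    (hgg : dd g g ≤ 1 / 100) {ν₁ ℓ₁ ν₂ ℓ₂ L Λ κ k m δ : ℝ} (hL : 2 / 5 ≤ L) (hΛ : L ≤ Λ)
    (hκ : 0 < κ) (hδ : 0 < δ) (hδ1 : 1500 * (δ * (4 * Λ + 1) ^ 2) ≤ κ)
    (hδ2 : 100 * (δ * (4 * Λ + 1) ^ 2) ≤ k) (hm : 50 * m ≤ δ)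
    (hl1 : 0 ≤ ℓ₁) (hl2 : 0 ≤ ℓ₂) (hl1' : ℓ₁ ≤ 2 * Λ * ν₁) (hl2' : ℓ₂ ≤ 2 * Λ * ν₂)
    (h1 : 0 < dd (v1 e h ν₁ ℓ₁) (v1 e h ν₁ ℓ₁))
    (h2 : 0 < dd (v2 e h ν₂ ℓ₂) (v2 e h ν₂ ℓ₂)) (φ₁ φ₂ : ι → ℝ)
    (hs : φ₁ + φ₂ = e) (hd : φ₁ - φ₂ = (2 * L) • h + (2 : ℝ) • g) (U V : ι → ℝ) :
    δ / 12 * (dd U U + dd V V) ≤
      κ * (dd φ₁ U + dd φ₂ V) ^ 2 + k * (dd (U - V) (U - V) - dd h (U - V) ^ 2)
      - m * dd h (U - V) ^ 2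
      + TT (fl e (v1 e h ν₁ ℓ₁) ((4 * Λ * δ) • h + δ • e)) (v1 e h ν₁ ℓ₁) U
      + TT (fl e (v2 e h ν₂ ℓ₂) ((-(4 * Λ * δ)) • h + δ • e)) (v2 e h ν₂ ℓ₂) V := by
  have i1 : 1500 * (δ / κ * (4 * Λ + 1) ^ 2) ≤ 1 := by
    rw [show 1500 * (δ / κ * (4 * Λ + 1) ^ 2) = 1500 * (δ * (4 * Λ + 1) ^ 2) / κ by ring,
      div_le_one hκ]
    exact hδ1
  have i2 : 100 * (δ / κ * (4 * Λ + 1) ^ 2) ≤ k / κ := by
    rw [show 100 * (δ / κ * (4 * Λ + 1) ^ 2) = 100 * (δ * (4 * Λ + 1) ^ 2) / κ by ring]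
    exact div_le_div_of_nonneg_right hδ2 hκ.le
  have i3 : 50 * (m / κ) ≤ δ / κ := by
    rw [show 50 * (m / κ) = 50 * m / κ by ring]
    exact div_le_div_of_nonneg_right hm hκ.le
  have h1' := h1
  have h2' := h2
  rw [dd_v1 he hh] at h1'
  rw [dd_v2 he hh] at h2'
  have key := far_cert3' he hh hg hgg hL hΛ (div_pos hδ hκ) i1 i2 i3 hl1 hl2 hl1' hl2' h1' h2'
    φ₁ φ₂ hs hd U V
  rw [f1_eq_fl he hh, f2_eq_fl he hh] at key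
  have s1 : (4 * Λ * (δ / κ)) • h + (δ / κ) • e = κ⁻¹ • ((4 * Λ * δ) • h + δ • e) := by
    funext i
    simp only [Pi.smul_apply, Pi.add_apply, smul_eq_mul]
    field_simp
  have s2 : (-(4 * Λ * (δ / κ))) • h + (δ / κ) • e = κ⁻¹ • ((-(4 * Λ * δ)) • h + δ • e) := by
    funext i
    simp only [Pi.smul_apply, Pi.add_apply, smul_eq_mul]
    field_simp
  rw [s1, s2, fl_smul, fl_smul, TT_smul_left, TT_smul_left] at key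
  have := mul_le_mul_of_nonneg_left key hκ.le
  have c1 : κ * (δ / κ / 12 * (dd U U + dd V V)) = δ / 12 * (dd U U + dd V V) := by
    field_simp
  have c2 : κ * ((dd φ₁ U + dd φ₂ V) ^ 2 + k / κ * (dd (U - V) (U - V) - dd h (U - V) ^ 2)
      - m / κ * dd h (U - V) ^ 2
      + κ⁻¹ * TT (fl e (v1 e h ν₁ ℓ₁) ((4 * Λ * δ) • h + δ • e)) (v1 e h ν₁ ℓ₁) U
      + κ⁻¹ * TT (fl e (v2 e h ν₂ ℓ₂) ((-(4 * Λ * δ)) • h + δ • e)) (v2 e h ν₂ ℓ₂) V)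
      = κ * (dd φ₁ U + dd φ₂ V) ^ 2 + k * (dd (U - V) (U - V) - dd h (U - V) ^ 2)
      - m * dd h (U - V) ^ 2
      + TT (fl e (v1 e h ν₁ ℓ₁) ((4 * Λ * δ) • h + δ • e)) (v1 e h ν₁ ℓ₁) U
      + TT (fl e (v2 e h ν₂ ℓ₂) ((-(4 * Λ * δ)) • h + δ • e)) (v2 e h ν₂ ℓ₂) V := by
    field_simp
  rw [c1, c2] at this
  exact this

end Vale.Agent.P088.R2.H230.W
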