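import Vale.Agent.P088.R2.H230.W.Rob2

/-!
# P088, stage 3: the certificate away from the diagonal, small slopes allowed

Slope `2L` with `ℓ₀ ≤ L`, fields with `Λ ≥ L/2 + 1/(8ℓ₀)`: the form on the null space of the main
part is bounded below by `δ` times the full norm, with no loss for small `L`.
-/

noncomputable section

namespace Vale.Agent.P088.R2.H230.W

variable {ι : Type*} [Fintype ι]

/-- In plane coefficient, with a surplus. -/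
lemma t1_ge5 {L Λ s δ c ℓ₀ : ℝ} (h0 : 0 < ℓ₀) (hL : ℓ₀ ≤ L) (hΛ : L / 2 + 1 / (8 * ℓ₀) ≤ Λ)
    (hs : s = 4 * Λ * δ) (hδ : 0 ≤ δ) (hc : c ^ 2 ≤ 1) :
    δ / (2 * L ^ 2) ≤ 2 * s / L - 4 * δ - δ * (2 * c ^ 2 - 1) / (2 * L ^ 2) := by
  have hL0 : 0 < L := by linarith
  have i1 : 1 / (8 * L) ≤ 1 / (8 * ℓ₀) := one_div_le_one_div_of_le (by positivity) (by linarith)
  have i2 : 4 + 1 / L ^ 2 ≤ 8 * Λ / L := by
    rw [le_div_iff₀ hL0]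
    have e1 : (4 + 1 / L ^ 2) * L = 8 * (L / 2 + 1 / (8 * L)) := by field_simp; ring
    rw [e1]; linarith
  have i3 : c ^ 2 / L ^ 2 ≤ 1 / L ^ 2 := div_le_div_of_nonneg_right hc (by positivity)
  have e2 : 2 * s / L - 4 * δ - δ * (2 * c ^ 2 - 1) / (2 * L ^ 2) - δ / (2 * L ^ 2) =
      δ * (8 * Λ / L - 4 - c ^ 2 / L ^ 2) := by
    rw [hs]; field_simp; ring
  have := mul_nonneg hδ (show (0:ℝ) ≤ 8 * Λ / L - 4 - c ^ 2 / L ^ 2 by linarith)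
  linarith

section
variable {e h : ι → ℝ} (he : dd e e = 1) (hh : dd h h = 1)
include he hh

/-- The form on the null space of the main part: no loss. -/
lemma null_ge5 (P : ι → ℝ) {ν₁ ℓ₁ ν₂ ℓ₂ L Λ s δ ℓ₀ : ℝ} (h0 : 0 < ℓ₀) (hL : ℓ₀ ≤ L)
    (hΛ : L / 2 + 1 / (8 * ℓ₀) ≤ Λ) (hs : s = 4 * Λ * δ)
    (hδ : 0 ≤ δ) (hl1 : 0 ≤ ℓ₁) (hl2 : 0 ≤ ℓ₂) (hl1' : ℓ₁ ≤ 2 * Λ * ν₁) (hl2' : ℓ₂ ≤ 2 * Λ * ν₂)
    (h1 : 0 < ν₁ ^ 2 + ℓ₁ ^ 2 + 2 * dd e h * ν₁ * ℓ₁)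
    (h2 : 0 < ν₂ ^ 2 + ℓ₂ ^ 2 - 2 * dd e h * ν₂ * ℓ₂) :
    δ * (dd (P - (dd P e / (2 * L)) • h) (P - (dd P e / (2 * L)) • h) +
        dd (P + (dd P e / (2 * L)) • h) (P + (dd P e / (2 * L)) • h)) ≤
      TT (f1 e h ν₁ ℓ₁ s δ) (v1 e h ν₁ ℓ₁) (P - (dd P e / (2 * L)) • h)
      + TT (f2 e h ν₂ ℓ₂ s δ) (v2 e h ν₂ ℓ₂) (P + (dd P e / (2 * L)) • h) := by
  have hL0 : 0 < L := by linarith
  have i0 : 0 < 1 / (8 * ℓ₀) := by positivity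
  have hΛ0 : 0 < Λ := by linarith
  have key := key_id2 (dd P e) (dd P h) (dd P P) (dd e h) ν₁ ℓ₁ ν₂ ℓ₂ L s δ _ _ hL0.ne' h1.ne'
    h2.ne' rfl rfl
  have hc := abs_dd_le he hh
  have hc2 : dd e h ^ 2 ≤ 1 := sq_le_one_iff_abs_le_one _ |>.2 hc
  have eq1 : TT (f1 e h ν₁ ℓ₁ s δ) (v1 e h ν₁ ℓ₁) (P - (dd P e / (2 * L)) • h)
      + TT (f2 e h ν₂ ℓ₂ s δ) (v2 e h ν₂ ℓ₂) (P + (dd P e / (2 * L)) • h)
      = 2 * δ * dd P P + (2 * s / L - 4 * δ - δ * (2 * dd e h ^ 2 - 1) / (2 * L ^ 2)) * dd P e ^ 2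
      + (2 * s * (ν₁ * ℓ₁ * (ν₂ ^ 2 + ℓ₂ ^ 2) + ν₂ * ℓ₂ * (ν₁ ^ 2 + ℓ₁ ^ 2))
          - 2 * δ * (ℓ₁ ^ 2 * (ν₂ ^ 2 + ℓ₂ ^ 2 - 2 * dd e h * ν₂ * ℓ₂)
            + ℓ₂ ^ 2 * (ν₁ ^ 2 + ℓ₁ ^ 2 + 2 * dd e h * ν₁ * ℓ₁)))
        * ((1 - dd e h ^ 2) * dd P P - dd P e ^ 2 - dd P h ^ 2 + 2 * dd P e * dd P h * dd e h)
        / ((ν₁ ^ 2 + ℓ₁ ^ 2 + 2 * dd e h * ν₁ * ℓ₁)
          * (ν₂ ^ 2 + ℓ₂ ^ 2 - 2 * dd e h * ν₂ * ℓ₂)) := by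
    rw [← key]
    simp only [TT, f1, f2, v1, v2, dd_add_left, dd_add_right, dd_sub_left, dd_sub_right,
      dd_smul_left, dd_smul_right, he, hh, dd_comm h e, dd_comm e P, dd_comm h P]
    ring
  have nrm : dd (P - (dd P e / (2 * L)) • h) (P - (dd P e / (2 * L)) • h) +
      dd (P + (dd P e / (2 * L)) • h) (P + (dd P e / (2 * L)) • h) =
      2 * dd P P + dd P e ^ 2 / (2 * L ^ 2) := by
    simp only [dd_add_left, dd_add_right, dd_sub_left, dd_sub_right, dd_smul_left, dd_smul_right,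
      hh, dd_comm h P]
    field_simp
    ring
  rw [eq1, nrm]
  have g := gram3 he hh P
  have t1 := mul_le_mul_of_nonneg_right (t1_ge5 h0 hL hΛ hs hδ hc2) (sq_nonneg (dd P e))
  have t2 := t2_nonneg hΛ0 hδ hc hl1 hl2 hl1' hl2' h1 h2
  rw [← hs] at t2
  have t3 := div_nonneg (mul_nonneg t2 g) (mul_pos h1 h2).le
  have e3 : δ * (2 * dd P P + dd P e ^ 2 / (2 * L ^ 2)) =
      2 * δ * dd P P + δ / (2 * L ^ 2) * dd P e ^ 2 := by ring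
  rw [e3]
  linarith

end

/-- Decomposition along the null space of the main part, any slope. -/
lemma far_dec5 {e h g : ι → ℝ} (hh : dd h h = 1) (hg : dd h g = 0)
    {L ℓ₀ : ℝ} (h0 : 0 < ℓ₀) (hgg : 2 * dd g g ≤ ℓ₀ ^ 2) (hL : ℓ₀ ≤ L) (k m : ℝ) (φ₁ φ₂ : ι → ℝ)
    (hs : φ₁ + φ₂ = e) (hd : φ₁ - φ₂ = (2 * L) • h + (2 : ℝ) • g)
    (U V : ι → ℝ) : ∃ (P X : ι → ℝ) (A t q : ℝ), 0 ≤ q ∧
    U = (P - (dd P e / (2 * L)) • h) + X ∧ V = (P + (dd P e / (2 * L)) • h) - X ∧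
    t ^ 2 ≤ 2 * (dd U U + dd V V) ∧
    dd X X ≤ A ^ 2 / (2 * ℓ₀ ^ 2) + q / 2 ∧
    (dd φ₁ U + dd φ₂ V) ^ 2 = A ^ 2 ∧
    k * (dd (U - V) (U - V) - dd h (U - V) ^ 2) - m * dd h (U - V) ^ 2 = k * q - m * t ^ 2 := by
  have hL0 : 0 < L := by linarith
  have hφ1 : φ₁ = (1 / 2 : ℝ) • e + L • h + g := by
    funext i
    have a1 := congrFun hs i
    have a2 := congrFun hd i
    simp only [Pi.add_apply, Pi.sub_apply, Pi.smul_apply, smul_eq_mul] at a1 a2 ⊢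
    linarith
  have hφ2 : φ₂ = (1 / 2 : ℝ) • e - L • h - g := by
    funext i
    have a1 := congrFun hs i
    have a2 := congrFun hd i
    simp only [Pi.add_apply, Pi.sub_apply, Pi.smul_apply, smul_eq_mul] at a1 a2 ⊢
    linarith
  obtain ⟨Q, hQ⟩ : ∃ Q : ι → ℝ, Q = U - V := ⟨_, rfl⟩
  obtain ⟨P, hP⟩ : ∃ P : ι → ℝ, P = (1 / 2 : ℝ) • (U + V) := ⟨_, rfl⟩
  have hU : U = P + (1 / 2 : ℝ) • Q := by
    rw [hQ, hP]; funext i; simp only [Pi.add_apply, Pi.sub_apply, Pi.smul_apply, smul_eq_mul]; ring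
  have hV : V = P - (1 / 2 : ℝ) • Q := by
    rw [hQ, hP]; funext i; simp only [Pi.add_apply, Pi.sub_apply, Pi.smul_apply, smul_eq_mul]; ring
  obtain ⟨t, ht⟩ : ∃ t : ℝ, t = dd h Q := ⟨_, rfl⟩
  obtain ⟨Z, hZ⟩ : ∃ Z : ι → ℝ, Z = Q - t • h := ⟨_, rfl⟩
  have hhZ : dd h Z = 0 := by rw [hZ, dd_sub_right, dd_smul_right, hh, ht]; ring
  have hQZ : Q = t • h + Z := by rw [hZ]; abel
  have hgQ : dd g Q = dd g Z := by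
    rw [hQZ, dd_add_right, dd_smul_right, dd_comm g h, hg]; ring
  have hZ0 := dd_self_nonneg Z
  have hgZ : dd g Z ^ 2 ≤ ℓ₀ ^ 2 / 2 * dd Z Z := by
    have h1 := dd_cs g Z
    have h2 : dd g g * dd Z Z ≤ ℓ₀ ^ 2 / 2 * dd Z Z :=
      mul_le_mul_of_nonneg_right (by linarith) hZ0
    linarith
  have hA : dd φ₁ U + dd φ₂ V = dd P e + L * t + dd g Z := by
    rw [hφ1, hφ2, hU, hV, ← hgQ, ht]
    simp only [dd_add_left, dd_add_right, dd_sub_left, dd_sub_right, dd_smul_left, dd_smul_right,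
      dd_comm e P, dd_comm e Q]
    ring
  have hQQ : dd Q Q = t ^ 2 + dd Z Z := by
    rw [hQZ]
    simp only [dd_add_left, dd_add_right, dd_smul_left, dd_smul_right, dd_comm Z h, hhZ, hh]
    ring
  refine ⟨P, ((dd P e + L * t) / (2 * L)) • h + (1 / 2 : ℝ) • Z, dd φ₁ U + dd φ₂ V, t, dd Z Z,
    hZ0, ?_, ?_, ?_, ?_, rfl, ?_⟩
  · rw [hU, hQZ]; funext i
    simp only [Pi.add_apply, Pi.sub_apply, Pi.smul_apply, smul_eq_mul]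
    field_simp
    ring
  · rw [hV, hQZ]; funext i
    simp only [Pi.add_apply, Pi.sub_apply, Pi.smul_apply, smul_eq_mul]
    field_simp
    ring
  · have h1 : dd U U + dd V V = 2 * dd P P + (t ^ 2 + dd Z Z) / 2 := by
      rw [hU, hV]
      simp only [dd_add_left, dd_add_right, dd_sub_left, dd_sub_right, dd_smul_left,
        dd_smul_right, dd_comm Q P]
      linarith
    rw [h1]
    have := dd_self_nonneg P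
    linarith
  · rw [hA]
    have e0 : ∀ b : ℝ, dd (b • h + (1 / 2 : ℝ) • Z) (b • h + (1 / 2 : ℝ) • Z)
        = b ^ 2 + dd Z Z / 4 := by
      intro b
      simp only [dd_add_left, dd_add_right, dd_smul_left, dd_smul_right, dd_comm Z h, hhZ, hh]
      ring
    rw [e0]
    generalize dd P e = a at *
    generalize dd g Z = b at *
    generalize dd Z Z = q at *
    have e4 : ((a + L * t) / (2 * L)) ^ 2 ≤ (a + L * t + b) ^ 2 / (2 * ℓ₀ ^ 2) + q / 4 := by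
      have h1 : (a + L * t) ^ 2 ≤ 2 * ((a + L * t + b) ^ 2 + b ^ 2) := by
        nlinarith [sq_nonneg (a + L * t + 2 * b)]
      have h2 : ((a + L * t) / (2 * L)) ^ 2 = (a + L * t) ^ 2 / (4 * L ^ 2) := by
        rw [div_pow]; congr 1; ring
      have h3 : (a + L * t) ^ 2 / (4 * L ^ 2) ≤ (a + L * t) ^ 2 / (4 * ℓ₀ ^ 2) := by
        refine div_le_div_of_nonneg_left (sq_nonneg _) (by positivity) ?_
        have := pow_le_pow_left₀ h0.le hL 2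
        linarith
      have h4 : (a + L * t) ^ 2 / (4 * ℓ₀ ^ 2) ≤
          2 * ((a + L * t + b) ^ 2 + ℓ₀ ^ 2 / 2 * q) / (4 * ℓ₀ ^ 2) := by
        refine div_le_div_of_nonneg_right ?_ (by positivity)
        linarith
      have h5 : 2 * ((a + L * t + b) ^ 2 + ℓ₀ ^ 2 / 2 * q) / (4 * ℓ₀ ^ 2) =
          (a + L * t + b) ^ 2 / (2 * ℓ₀ ^ 2) + q / 4 := by
        field_simp
        ring
      rw [h2]; linarith
    linarith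
  · rw [← hQ, ← ht, hQQ]; ring

/-- The final scalar inequality. -/
lemma far_fin5 {δ D κ k m A t q x NN UV ℓ₀ : ℝ} (h0 : 0 < ℓ₀) (hδ : 0 < δ) (hD : δ ≤ D)
    (hD1 : 6 * D ≤ κ * ℓ₀ ^ 2) (hD2 : 6 * D ≤ k) (hm : 50 * m ≤ δ)
    (hUV : UV ≤ 2 * NN + 4 * x) (ht : t ^ 2 ≤ 2 * UV) (hq : 0 ≤ q) (hx0 : 0 ≤ x) (hN : 0 ≤ NN)
    (hx : x ≤ A ^ 2 / (2 * ℓ₀ ^ 2) + q / 2) :
    δ / 8 * UV ≤ κ * A ^ 2 + (k * q - m * t ^ 2) + δ * NN - δ / 4 * NN - 10 * D * x := by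
  have hD0 : 0 ≤ D := by linarith
  have m1 : m * t ^ 2 ≤ δ / 50 * t ^ 2 := mul_le_mul_of_nonneg_right (by linarith) (sq_nonneg t)
  have m2 : δ / 50 * t ^ 2 ≤ δ / 50 * (2 * UV) := mul_le_mul_of_nonneg_left ht (by linarith)
  have m3 : (δ / 8 + δ / 25) * UV ≤ (δ / 8 + δ / 25) * (2 * NN + 4 * x) :=
    mul_le_mul_of_nonneg_left hUV (by linarith)
  have m4 : δ * x ≤ D * x := mul_le_mul_of_nonneg_right hD hx0
  have m5 : D * x ≤ D * (A ^ 2 / (2 * ℓ₀ ^ 2) + q / 2) := mul_le_mul_of_nonneg_left hx hD0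
  have m6 : 6 * D * (A ^ 2 / ℓ₀ ^ 2) ≤ κ * A ^ 2 := by
    have h1 : 6 * D * (A ^ 2 / ℓ₀ ^ 2) ≤ κ * ℓ₀ ^ 2 * (A ^ 2 / ℓ₀ ^ 2) :=
      mul_le_mul_of_nonneg_right hD1 (by positivity)
    have h2 : κ * ℓ₀ ^ 2 * (A ^ 2 / ℓ₀ ^ 2) = κ * A ^ 2 := by field_simp
    linarith
  have m7 : 6 * D * q ≤ k * q := mul_le_mul_of_nonneg_right hD2 hq
  have e1 : A ^ 2 / (2 * ℓ₀ ^ 2) = A ^ 2 / ℓ₀ ^ 2 / 2 := by field_simp
  rw [e1] at m5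
  have m8 : 0 ≤ D * (A ^ 2 / ℓ₀ ^ 2) := by positivity
  have m9 : 0 ≤ D * q := mul_nonneg hD0 hq
  have m10 : 0 ≤ δ * NN := mul_nonneg hδ.le hN
  linarith

/-- **The certificate away from the diagonal, small slopes allowed**: coefficient `κ` in front of
the square, half slope `L ≥ ℓ₀`, fields in the form `fl`. -/
theorem far_cert5 {e h g : ι → ℝ} (he : dd e e = 1) (hh : dd h h = 1) (hg : dd h g = 0)
    {ν₁ ℓ₁ ν₂ ℓ₂ L Λ κ k m δ ℓ₀ : ℝ} (h0 : 0 < ℓ₀) (hgg : 2 * dd g g ≤ ℓ₀ ^ 2) (hL : ℓ₀ ≤ L)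
    (hΛ : L / 2 + 1 / (8 * ℓ₀) ≤ Λ) (hδ : 0 < δ)
    (hδ1 : 6 * (δ * (4 * Λ + 1) ^ 2) ≤ κ * ℓ₀ ^ 2)
    (hδ2 : 6 * (δ * (4 * Λ + 1) ^ 2) ≤ k) (hm : 50 * m ≤ δ)
    (hl1 : 0 ≤ ℓ₁) (hl2 : 0 ≤ ℓ₂) (hl1' : ℓ₁ ≤ 2 * Λ * ν₁) (hl2' : ℓ₂ ≤ 2 * Λ * ν₂)
    (h1 : 0 < dd (v1 e h ν₁ ℓ₁) (v1 e h ν₁ ℓ₁))
    (h2 : 0 < dd (v2 e h ν₂ ℓ₂) (v2 e h ν₂ ℓ₂)) (φ₁ φ₂ : ι → ℝ)
    (hs : φ₁ + φ₂ = e) (hd : φ₁ - φ₂ = (2 * L) • h + (2 : ℝ) • g) (U V : ι → ℝ) :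
    δ / 8 * (dd U U + dd V V) ≤
      κ * (dd φ₁ U + dd φ₂ V) ^ 2 + (k * (dd (U - V) (U - V) - dd h (U - V) ^ 2)
      - m * dd h (U - V) ^ 2)
      + TT (fl e (v1 e h ν₁ ℓ₁) ((4 * Λ * δ) • h + δ • e)) (v1 e h ν₁ ℓ₁) U
      + TT (fl e (v2 e h ν₂ ℓ₂) ((-(4 * Λ * δ)) • h + δ • e)) (v2 e h ν₂ ℓ₂) V := by
  have hL0 : 0 < L := by linarith
  have i0 : 0 < 1 / (8 * ℓ₀) := by positivity
  have hΛ0 : 0 < Λ := by linarith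
  rw [dd_v1 he hh] at h1
  rw [dd_v2 he hh] at h2
  rw [← f1_eq_fl he hh, ← f2_eq_fl he hh]
  obtain ⟨P, X, A, t, q, hq0, hU, hV, g1, g2, g3, g4⟩ :=
    far_dec5 hh hg h0 hgg hL k m φ₁ φ₂ hs hd U V
  have hN := null_ge5 he hh P h0 hL hΛ (s := 4 * Λ * δ) rfl hδ.le hl1 hl2 hl1' hl2' h1 h2
  have hsδ : 4 * Λ * δ + δ = (4 * Λ + 1) * δ := by ring
  have c1b := f1_v1_le he hh (s := 4 * Λ * δ) (by positivity) hδ.le h1.ne'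
  have c2b := f2_v2_le he hh (s := 4 * Λ * δ) (by positivity) hδ.le h2.ne'
  rw [hsδ] at c1b c2b
  have hτ0 : 0 ≤ (4 * Λ + 1) * δ := by positivity
  have hη0 : 0 < 1 / (4 * (4 * Λ + 1)) := by positivity
  have b1 := TB_abs_le _ _ (P - (dd P e / (2 * L)) • h) X hτ0 hη0 c1b
  have b2 := TB_abs_le _ _ (P + (dd P e / (2 * L)) • h) X hτ0 hη0 c2b
  have b3 := TT_abs_le _ _ X hτ0 c1b
  have b4 := TT_abs_le _ _ X hτ0 c2b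
  have e1 := TT_add (f1 e h ν₁ ℓ₁ (4 * Λ * δ) δ) (v1 e h ν₁ ℓ₁) (P - (dd P e / (2 * L)) • h) X
  have e2 := TT_sub (f2 e h ν₂ ℓ₂ (4 * Λ * δ) δ) (v2 e h ν₂ ℓ₂) (P + (dd P e / (2 * L)) • h) X
  rw [← hU] at e1
  rw [← hV] at e2
  have hXX := dd_self_nonneg X
  have n1' := dd_self_nonneg (P - (dd P e / (2 * L)) • h)
  have n2' := dd_self_nonneg (P + (dd P e / (2 * L)) • h)
  have hUV : dd U U + dd V V ≤ 2 * (dd (P - (dd P e / (2 * L)) • h) (P - (dd P e / (2 * L)) • h) +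
      dd (P + (dd P e / (2 * L)) • h) (P + (dd P e / (2 * L)) • h)) + 4 * dd X X := by
    have u1 : ∀ Y Z : ι → ℝ, dd (Y + Z) (Y + Z) ≤ 2 * dd Y Y + 2 * dd Z Z := by
      intro Y Z
      have := dd_self_nonneg (Y - Z)
      simp only [dd_add_left, dd_add_right, dd_sub_left, dd_sub_right, dd_comm Z Y] at this ⊢
      linarith
    have u2 : ∀ Y Z : ι → ℝ, dd (Y - Z) (Y - Z) ≤ 2 * dd Y Y + 2 * dd Z Z := by
      intro Y Z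
      have := dd_self_nonneg (Y + Z)
      simp only [dd_add_left, dd_add_right, dd_sub_left, dd_sub_right, dd_comm Z Y] at this ⊢
      linarith
    have a1 := u1 (P - (dd P e / (2 * L)) • h) X
    have a2 := u2 (P + (dd P e / (2 * L)) • h) X
    rw [← hU] at a1
    rw [← hV] at a2
    linarith
  have hDD : (4 * Λ + 1) * δ ≤ δ * (4 * Λ + 1) ^ 2 := (G_ge hΛ0 hδ).2
  have fin := far_fin5 (D := δ * (4 * Λ + 1) ^ 2) h0 hδ (G_ge hΛ0 hδ).1 hδ1 hδ2 hm hUV g1 hq0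
    hXX (add_nonneg n1' n2') g2
  rw [g3, g4, e1, e2]
  clear hU hV e1 e2 g3 g4 c1b c2b
  generalize TT (f1 e h ν₁ ℓ₁ (4 * Λ * δ) δ) (v1 e h ν₁ ℓ₁) (P - (dd P e / (2 * L)) • h) = T1 at *
  generalize TT (f2 e h ν₂ ℓ₂ (4 * Λ * δ) δ) (v2 e h ν₂ ℓ₂) (P + (dd P e / (2 * L)) • h) = T2 at *
  generalize TT (f1 e h ν₁ ℓ₁ (4 * Λ * δ) δ) (v1 e h ν₁ ℓ₁) X = T3 at *
  generalize TT (f2 e h ν₂ ℓ₂ (4 * Λ * δ) δ) (v2 e h ν₂ ℓ₂) X = T4 at *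
  generalize TB (f1 e h ν₁ ℓ₁ (4 * Λ * δ) δ) (v1 e h ν₁ ℓ₁) (P - (dd P e / (2 * L)) • h) X = B1 at *
  generalize TB (f2 e h ν₂ ℓ₂ (4 * Λ * δ) δ) (v2 e h ν₂ ℓ₂) (P + (dd P e / (2 * L)) • h) X = B2 at *
  generalize dd (P - (dd P e / (2 * L)) • h) (P - (dd P e / (2 * L)) • h) = n1 at *
  generalize dd (P + (dd P e / (2 * L)) • h) (P + (dd P e / (2 * L)) • h) = n2 at *
  generalize dd X X = x at *
  have k1 : ∀ z : ℝ, (4 * Λ + 1) * δ * (1 / (4 * (4 * Λ + 1)) * z + x / (1 / (4 * (4 * Λ + 1))))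
      = δ / 4 * z + 4 * (δ * (4 * Λ + 1) ^ 2) * x := by
    intro z; field_simp
  rw [k1] at b1 b2
  have b1' := (abs_le.1 b1).1
  have b2' := (abs_le.1 b2).2
  have b3' := (abs_le.1 b3).1
  have b4' := (abs_le.1 b4).1
  have k3 : (4 * Λ + 1) * δ * x ≤ δ * (4 * Λ + 1) ^ 2 * x :=
    mul_le_mul_of_nonneg_right hDD hXX
  linarith

end Vale.Agent.P088.R2.H230.W
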