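import Vale.Agent.P088.R2.H230.W.Far3

/-!
# P088, stage 3: the field formula `fl` and its stability

`fl e w γ = ((w·e) γ - (γ·e) w + (γ·w) e) / |w|²`.  Size: `|fl e w γ| ≤ |e||γ|/|w|`.  The multiplier
form `TT (fl e w γ) w U` depends on `w` only through its direction and is Lipschitz in `e`, `γ` and
in the direction of `w`.
-/

noncomputable section

namespace Vale.Agent.P088.R2.H230.W

variable {ι : Type*} [Fintype ι]

/-- The Euclidean norm. -/
def nn (u : ι → ℝ) : ℝ := Real.sqrt (dd u u)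

lemma nn_nonneg (u : ι → ℝ) : 0 ≤ nn u := Real.sqrt_nonneg _

lemma nn_sq (u : ι → ℝ) : nn u ^ 2 = dd u u := Real.sq_sqrt (dd_self_nonneg u)

lemma nn_mul_self (u : ι → ℝ) : nn u * nn u = dd u u := by rw [← sq, nn_sq]

lemma dd_le_nn (u v : ι → ℝ) : |dd u v| ≤ nn u * nn v := by
  apply abs_le_of_sq_le_sq _ (mul_nonneg (nn_nonneg u) (nn_nonneg v))
  rw [mul_pow, nn_sq, nn_sq]
  exact dd_cs u v

lemma nn_le_of_sq {u : ι → ℝ} {a : ℝ} (ha : 0 ≤ a) (h : dd u u ≤ a ^ 2) : nn u ≤ a :=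
  (Real.sqrt_le_sqrt h).trans_eq (Real.sqrt_sq ha)

lemma nn_add_le (u v : ι → ℝ) : nn (u + v) ≤ nn u + nn v := by
  refine nn_le_of_sq (add_nonneg (nn_nonneg u) (nn_nonneg v)) ?_
  have h := (abs_le.1 (dd_le_nn u v)).2
  have e : dd (u + v) (u + v) = dd u u + 2 * dd u v + dd v v := by
    simp only [dd_add_left, dd_add_right, dd_comm v u]; ring
  rw [e, add_sq, nn_sq, nn_sq]
  linarith

lemma nn_smul (a : ℝ) (u : ι → ℝ) : nn (a • u) = |a| * nn u := by
  unfold nn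
  rw [dd_smul_left, dd_smul_right, ← mul_assoc, Real.sqrt_mul (mul_self_nonneg a),
    Real.sqrt_mul_self_eq_abs]

lemma nn_neg (u : ι → ℝ) : nn (-u) = nn u := by
  have := nn_smul (-1) u
  simpa using this

lemma nn_sub_le (u v : ι → ℝ) : nn (u - v) ≤ nn u + nn v := by
  have := nn_add_le u (-v)
  rwa [nn_neg, ← sub_eq_add_neg] at this

lemma nn_sub_comm (u v : ι → ℝ) : nn (u - v) = nn (v - u) := by
  rw [← nn_neg (u - v), neg_sub]

lemma nn_le_add (u v : ι → ℝ) : nn u ≤ nn v + nn (u - v) := by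
  have := nn_add_le v (u - v)
  rwa [add_sub_cancel] at this

lemma abs_nn_sub_le (u v : ι → ℝ) : |nn u - nn v| ≤ nn (u - v) := by
  rw [abs_le]
  have h1 := nn_le_add u v
  have h2 := nn_le_add v u
  rw [nn_sub_comm v u] at h2
  constructor <;> linarith

lemma nn_one {e : ι → ℝ} (he : dd e e = 1) : nn e = 1 := by
  unfold nn; rw [he, Real.sqrt_one]

lemma nn_pos {u : ι → ℝ} (h : 0 < dd u u) : 0 < nn u := Real.sqrt_pos.2 h

lemma dd_pos_of_nn {u : ι → ℝ} (h : 0 < nn u) : 0 < dd u u := Real.sqrt_pos.1 h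

lemma abs_le_nn (u : ι → ℝ) (i : ι) : |u i| ≤ nn u := by
  apply abs_le_of_sq_le_sq _ (nn_nonneg u)
  rw [nn_sq, sq]
  exact Finset.single_le_sum (f := fun i => u i * u i) (fun i _ => mul_self_nonneg (u i))
    (Finset.mem_univ i)

lemma nn_le_l1 (u : ι → ℝ) : nn u ≤ ∑ i, |u i| := by
  refine nn_le_of_sq (Finset.sum_nonneg fun i _ => abs_nonneg _) ?_
  unfold dd
  have h : ∀ i ∈ Finset.univ, |u i| ≤ ∑ j, |u j| := fun i hi =>
    Finset.single_le_sum (f := fun j => |u j|) (fun j _ => abs_nonneg _) hi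
  calc ∑ i, u i * u i = ∑ i, |u i| * |u i| := by simp only [abs_mul_abs_self]
    _ ≤ ∑ i, |u i| * ∑ j, |u j| :=
        Finset.sum_le_sum fun i hi => mul_le_mul_of_nonneg_left (h i hi) (abs_nonneg _)
    _ = _ := by rw [← Finset.sum_mul, sq]

lemma TT_abs_nn (c w U : ι → ℝ) : |TT c w U| ≤ nn c * nn w * dd U U := by
  refine TT_abs_le c w U (mul_nonneg (nn_nonneg c) (nn_nonneg w)) ?_
  rw [mul_pow, nn_sq, nn_sq]

/-- The mixed multiplier form `(c·w)(A·U) - 2 (c·A)(w·U)`. -/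
def TM (c w A U : ι → ℝ) : ℝ := dd c w * dd A U - 2 * (dd c A * dd w U)

lemma TM_self (c w U : ι → ℝ) : TM c w U U = TT c w U := by unfold TM TT; ring

lemma TM_add_left (c c' w A U : ι → ℝ) : TM (c + c') w A U = TM c w A U + TM c' w A U := by
  simp only [TM, dd_add_left]; ring

lemma TM_smul_left (a : ℝ) (c w A U : ι → ℝ) : TM (a • c) w A U = a * TM c w A U := by
  simp only [TM, dd_smul_left]; ring

lemma TM_sub_TT_le (c w A U : ι → ℝ) :
    |TM c w A U - TT c w U| ≤ 3 * (nn c * nn w) * (nn (A - U) * nn U) := by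
  have e : TM c w A U - TT c w U = dd c w * dd (A - U) U - 2 * (dd c (A - U) * dd w U) := by
    simp only [TM, TT, dd_sub_left, dd_sub_right]; ring
  rw [e]
  have h1 : |dd c w * dd (A - U) U| ≤ nn c * nn w * (nn (A - U) * nn U) := by
    rw [abs_mul]
    exact mul_le_mul (dd_le_nn c w) (dd_le_nn _ _) (abs_nonneg _)
      (mul_nonneg (nn_nonneg _) (nn_nonneg _))
  have h2 : |2 * (dd c (A - U) * dd w U)| ≤ 2 * (nn c * nn w * (nn (A - U) * nn U)) := by
    rw [abs_mul, abs_mul, abs_of_pos (by norm_num : (0:ℝ) < 2)]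
    have := mul_le_mul (dd_le_nn c (A - U)) (dd_le_nn w U) (abs_nonneg _)
      (mul_nonneg (nn_nonneg c) (nn_nonneg (A - U)))
    calc 2 * (|dd c (A - U)| * |dd w U|) ≤ 2 * (nn c * nn (A - U) * (nn w * nn U)) :=
          mul_le_mul_of_nonneg_left this (by norm_num)
      _ = _ := by ring
  calc _ ≤ |dd c w * dd (A - U) U| + |2 * (dd c (A - U) * dd w U)| := abs_sub _ _
    _ ≤ _ := by linarith

/-! ### The trilinear numerator -/

/-- The numerator `(w·e) γ - (γ·e) w + (γ·w) e`. -/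
def fm (e w γ : ι → ℝ) : ι → ℝ := dd w e • γ - dd γ e • w + dd γ w • e

lemma fl_eq (e w γ : ι → ℝ) : fl e w γ = (dd w w)⁻¹ • fm e w γ := rfl

lemma fm_add_w (e w w' γ : ι → ℝ) : fm e (w + w') γ = fm e w γ + fm e w' γ := by
  funext i
  simp only [fm, dd_add_left, dd_add_right, Pi.add_apply, Pi.sub_apply, Pi.smul_apply,
    smul_eq_mul]
  ring

lemma fm_sub_w (e w w' γ : ι → ℝ) : fm e (w - w') γ = fm e w γ - fm e w' γ := by
  funext i
  simp only [fm, dd_sub_left, dd_sub_right, Pi.add_apply, Pi.sub_apply, Pi.smul_apply,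
    smul_eq_mul]
  ring

lemma fm_smul_w (e w γ : ι → ℝ) (a : ℝ) : fm e (a • w) γ = a • fm e w γ := by
  funext i
  simp only [fm, dd_smul_left, dd_smul_right, Pi.add_apply, Pi.sub_apply, Pi.smul_apply,
    smul_eq_mul]
  ring

lemma fm_sub_e (e e' w γ : ι → ℝ) : fm (e - e') w γ = fm e w γ - fm e' w γ := by
  funext i
  simp only [fm, dd_sub_right, Pi.add_apply, Pi.sub_apply, Pi.smul_apply, smul_eq_mul]
  ring

lemma fm_sub_g (e w γ γ' : ι → ℝ) : fm e w (γ - γ') = fm e w γ - fm e w γ' := by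
  funext i
  simp only [fm, dd_sub_left, Pi.add_apply, Pi.sub_apply, Pi.smul_apply, smul_eq_mul]
  ring

lemma dd_fm (e w γ : ι → ℝ) : dd (fm e w γ) (fm e w γ) =
    dd w e ^ 2 * dd γ γ + dd γ e ^ 2 * dd w w + dd γ w ^ 2 * dd e e -
      2 * dd w e * dd γ e * dd γ w := by
  simp only [fm, dd_add_left, dd_add_right, dd_sub_left, dd_sub_right, dd_smul_left,
    dd_smul_right, dd_comm e w, dd_comm e γ, dd_comm w γ]
  ring

/-- Gram determinant of three vectors. -/
lemma gram_nonneg (e w γ : ι → ℝ) : 0 ≤ dd e e * dd w w * dd γ γ + 2 * dd w e * dd γ e * dd γ w -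
    dd e e * dd γ w ^ 2 - dd w w * dd γ e ^ 2 - dd γ γ * dd w e ^ 2 := by
  rcases (dd_self_nonneg e).eq_or_lt with h | h
  · have h1 := dd_cs w e
    have h2 := dd_cs γ e
    rw [← h, mul_zero] at h1 h2
    have h1' : dd w e = 0 := by nlinarith [sq_nonneg (dd w e)]
    have h2' : dd γ e = 0 := by nlinarith [sq_nonneg (dd γ e)]
    rw [h1', h2', ← h]
    simp
  · have key := dd_cs (dd e e • w - dd w e • e) (dd e e • γ - dd γ e • e)
    have e1 : dd (dd e e • w - dd w e • e) (dd e e • γ - dd γ e • e) =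
        dd e e * (dd e e * dd γ w - dd w e * dd γ e) := by
      simp only [dd_sub_left, dd_sub_right, dd_smul_left, dd_smul_right, dd_comm e w,
        dd_comm e γ, dd_comm w γ]
      ring
    have e2 : dd (dd e e • w - dd w e • e) (dd e e • w - dd w e • e) =
        dd e e * (dd e e * dd w w - dd w e ^ 2) := by
      simp only [dd_sub_left, dd_sub_right, dd_smul_left, dd_smul_right, dd_comm e w]
      ring
    have e3 : dd (dd e e • γ - dd γ e • e) (dd e e • γ - dd γ e • e) =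
        dd e e * (dd e e * dd γ γ - dd γ e ^ 2) := by
      simp only [dd_sub_left, dd_sub_right, dd_smul_left, dd_smul_right, dd_comm e γ]
      ring
    rw [e1, e2, e3] at key
    have h3 : 0 < dd e e ^ 2 := pow_pos h 2
    have h4 : dd e e ^ 2 * (dd e e * dd γ w - dd w e * dd γ e) ^ 2 ≤
        dd e e ^ 2 * ((dd e e * dd w w - dd w e ^ 2) * (dd e e * dd γ γ - dd γ e ^ 2)) := by
      linarith
    have h5 := le_of_mul_le_mul_left h4 h3
    have h6 : 0 ≤ dd e e * (dd e e * dd w w * dd γ γ + 2 * dd w e * dd γ e * dd γ w -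
        dd e e * dd γ w ^ 2 - dd w w * dd γ e ^ 2 - dd γ γ * dd w e ^ 2) := by
      nlinarith [h5]
    exact nonneg_of_mul_nonneg_right h6 h

lemma nn_fm_le (e w γ : ι → ℝ) : nn (fm e w γ) ≤ nn e * nn w * nn γ := by
  refine nn_le_of_sq (mul_nonneg (mul_nonneg (nn_nonneg _) (nn_nonneg _)) (nn_nonneg _)) ?_
  rw [dd_fm, mul_pow, mul_pow, nn_sq, nn_sq, nn_sq]
  have := gram_nonneg e w γ
  linarith

/-- Size of the field. -/
lemma nn_fl_le {e w γ : ι → ℝ} (hw : 0 < dd w w) : nn (fl e w γ) ≤ nn e * nn γ / nn w := by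
  have hn := nn_pos hw
  rw [fl_eq, nn_smul, abs_of_pos (inv_pos.2 hw), ← nn_mul_self w, le_div_iff₀ hn]
  have h := nn_fm_le e w γ
  calc (nn w * nn w)⁻¹ * nn (fm e w γ) * nn w = nn (fm e w γ) / nn w := by field_simp
    _ ≤ nn e * nn w * nn γ / nn w := div_le_div_of_nonneg_right h hn.le
    _ = nn e * nn γ := by field_simp

lemma nn_fl_mul_le {e w γ : ι → ℝ} (hw : 0 < dd w w) :
    nn (fl e w γ) * nn w ≤ nn e * nn γ := by
  have := nn_fl_le (e := e) (γ := γ) hw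
  rwa [le_div_iff₀ (nn_pos hw)] at this

/-! ### Stability -/

lemma TT_fl_e {e e' w γ U : ι → ℝ} (hw : 0 < dd w w) :
    |TT (fl e w γ) w U - TT (fl e' w γ) w U| ≤ nn (e - e') * nn γ * dd U U := by
  have e1 : TT (fl e w γ) w U - TT (fl e' w γ) w U = TT (fl (e - e') w γ) w U := by
    have : fl (e - e') w γ = fl e w γ + (-1 : ℝ) • fl e' w γ := by
      rw [fl_eq, fl_eq, fl_eq, fm_sub_e]
      funext i
      simp only [Pi.add_apply, Pi.sub_apply, Pi.smul_apply, smul_eq_mul]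
      ring
    rw [this, TT_add_left, TT_smul_left]; ring
  rw [e1]
  exact (TT_abs_nn _ _ _).trans (mul_le_mul_of_nonneg_right (nn_fl_mul_le hw) (dd_self_nonneg U))

lemma TT_fl_g {e w γ γ' U : ι → ℝ} (hw : 0 < dd w w) :
    |TT (fl e w γ) w U - TT (fl e w γ') w U| ≤ nn e * nn (γ - γ') * dd U U := by
  have e1 : TT (fl e w γ) w U - TT (fl e w γ') w U = TT (fl e w (γ - γ')) w U := by
    have : fl e w (γ - γ') = fl e w γ + (-1 : ℝ) • fl e w γ' := by
      rw [fl_eq, fl_eq, fl_eq, fm_sub_g]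
      funext i
      simp only [Pi.add_apply, Pi.sub_apply, Pi.smul_apply, smul_eq_mul]
      ring
    rw [this, TT_add_left, TT_smul_left]; ring
  rw [e1]
  exact (TT_abs_nn _ _ _).trans (mul_le_mul_of_nonneg_right (nn_fl_mul_le hw) (dd_self_nonneg U))

/-- The form depends on `w` only through its direction. -/
lemma TT_fl_unit {e w γ U : ι → ℝ} (hw : 0 < dd w w) :
    TT (fl e w γ) w U = TT (fm e ((nn w)⁻¹ • w) γ) ((nn w)⁻¹ • w) U := by
  have hn := nn_pos hw
  rw [fm_smul_w, fl_eq, TT_smul_left, TT_smul_left]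
  have : TT (fm e w γ) ((nn w)⁻¹ • w) U = (nn w)⁻¹ * TT (fm e w γ) w U := by
    simp only [TT, dd_smul_left, dd_smul_right]; ring
  rw [this, ← nn_mul_self w]
  field_simp

lemma nn_unit_sub {w w' : ι → ℝ} (hw : 0 < dd w w) (hw' : 0 < dd w' w') :
    nn ((nn w)⁻¹ • w - (nn w')⁻¹ • w') ≤ 2 * (nn (w - w') / nn w) := by
  have hn := nn_pos hw
  have hn' := nn_pos hw'
  have e : (nn w)⁻¹ • w - (nn w')⁻¹ • w' =
      (nn w)⁻¹ • (w - w') + ((nn w)⁻¹ - (nn w')⁻¹) • w' := by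
    funext i
    simp only [Pi.add_apply, Pi.sub_apply, Pi.smul_apply, smul_eq_mul]
    ring
  rw [e]
  refine (nn_add_le _ _).trans ?_
  rw [nn_smul, nn_smul, abs_of_pos (inv_pos.2 hn)]
  have h1 : |(nn w)⁻¹ - (nn w')⁻¹| * nn w' = |nn w' - nn w| / nn w := by
    have : (nn w)⁻¹ - (nn w')⁻¹ = (nn w' - nn w) / (nn w * nn w') := by field_simp
    rw [this, abs_div, abs_of_pos (mul_pos hn hn')]
    field_simp
  rw [h1]
  have h2 := abs_nn_sub_le w' w
  rw [nn_sub_comm w' w] at h2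
  have h3 := div_le_div_of_nonneg_right h2 hn.le
  have h4 : (nn w)⁻¹ * nn (w - w') = nn (w - w') / nn w := by field_simp
  rw [h4]
  linarith

lemma nn_unit {w : ι → ℝ} (hw : 0 < dd w w) : nn ((nn w)⁻¹ • w) = 1 := by
  have hn := nn_pos hw
  rw [nn_smul, abs_of_pos (inv_pos.2 hn), inv_mul_cancel₀ hn.ne']

lemma TT_fl_w {e w w' γ U : ι → ℝ} (hw : 0 < dd w w) (hw' : 0 < dd w' w') :
    |TT (fl e w γ) w U - TT (fl e w' γ) w' U| ≤
      4 * (nn e * nn γ * (nn (w - w') / nn w)) * dd U U := by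
  rw [TT_fl_unit hw, TT_fl_unit hw']
  obtain ⟨a, ha⟩ : ∃ a, a = (nn w)⁻¹ • w := ⟨_, rfl⟩
  obtain ⟨b, hb⟩ : ∃ b, b = (nn w')⁻¹ • w' := ⟨_, rfl⟩
  have na : nn a = 1 := by rw [ha]; exact nn_unit hw
  have nb : nn b = 1 := by rw [hb]; exact nn_unit hw'
  have nab : nn (a - b) ≤ 2 * (nn (w - w') / nn w) := by rw [ha, hb]; exact nn_unit_sub hw hw'
  rw [← ha, ← hb]
  have e1 : TT (fm e a γ) a U - TT (fm e b γ) b U =
      TT (fm e (a - b) γ) a U + TT (fm e b γ) (a - b) U := by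
    rw [fm_sub_w]
    simp only [TT, dd_sub_left, dd_sub_right]; ring
  rw [e1]
  have hU := dd_self_nonneg U
  have h1 : |TT (fm e (a - b) γ) a U| ≤ nn e * nn γ * nn (a - b) * dd U U := by
    refine (TT_abs_nn _ _ _).trans (mul_le_mul_of_nonneg_right ?_ hU)
    rw [na, mul_one]
    refine (nn_fm_le _ _ _).trans_eq (by ring)
  have h2 : |TT (fm e b γ) (a - b) U| ≤ nn e * nn γ * nn (a - b) * dd U U := by
    refine (TT_abs_nn _ _ _).trans (mul_le_mul_of_nonneg_right ?_ hU)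
    refine (mul_le_mul_of_nonneg_right (nn_fm_le _ _ _) (nn_nonneg _)).trans_eq ?_
    rw [nb]; ring
  have h3 : nn e * nn γ * nn (a - b) * dd U U ≤
      nn e * nn γ * (2 * (nn (w - w') / nn w)) * dd U U :=
    mul_le_mul_of_nonneg_right (mul_le_mul_of_nonneg_left nab
      (mul_nonneg (nn_nonneg _) (nn_nonneg _))) hU
  calc _ ≤ |TT (fm e (a - b) γ) a U| + |TT (fm e b γ) (a - b) U| := abs_add_le _ _
    _ ≤ _ := by linarith

/-- **Stability of the multiplier form**: change of `e`, of the gradient and of `γ`. -/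
theorem TT_fl_stab {e e' w w' γ γ' U : ι → ℝ} (hw : 0 < dd w w) (hw' : 0 < dd w' w') :
    |TT (fl e w γ) w U - TT (fl e' w' γ') w' U| ≤
      (nn (e - e') * nn γ + nn e' * nn (γ - γ') + 4 * (nn e' * nn γ' * (nn (w - w') / nn w))) *
        dd U U := by
  have h1 := TT_fl_e (e := e) (e' := e') (γ := γ) (U := U) hw
  have h2 := TT_fl_g (e := e') (γ := γ) (γ' := γ') (U := U) hw
  have h3 := TT_fl_w (e := e') (γ := γ') (U := U) hw hw'
  have e1 : TT (fl e w γ) w U - TT (fl e' w' γ') w' U =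
      (TT (fl e w γ) w U - TT (fl e' w γ) w U) + (TT (fl e' w γ) w U - TT (fl e' w γ') w U) +
        (TT (fl e' w γ') w U - TT (fl e' w' γ') w' U) := by ring
  rw [e1]
  calc _ ≤ |TT (fl e w γ) w U - TT (fl e' w γ) w U| + |TT (fl e' w γ) w U - TT (fl e' w γ') w U| +
        |TT (fl e' w γ') w U - TT (fl e' w' γ') w' U| :=
        (abs_add_le _ _).trans (add_le_add (abs_add_le _ _) le_rfl)
    _ ≤ _ := by linarith

/-- The mixed form of the field. -/
lemma TM_fl_le {e w γ A U : ι → ℝ} (hw : 0 < dd w w) :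
    |TM (fl e w γ) w A U - TT (fl e w γ) w U| ≤ 3 * (nn e * nn γ) * (nn (A - U) * nn U) :=
  (TM_sub_TT_le _ _ _ _).trans (mul_le_mul_of_nonneg_right
    (mul_le_mul_of_nonneg_left (nn_fl_mul_le hw) (by norm_num))
    (mul_nonneg (nn_nonneg _) (nn_nonneg _)))

/-- Stability with the relative sizes: `e`, `e'` unit, `|e - e'| ≤ ε`, `|w - w'| ≤ ε |w|`,
`|A - U| ≤ ε |U|`, same `γ`. -/
theorem TM_fl_stab {e e' w w' γ A U : ι → ℝ} {ε : ℝ} (he' : nn e' ≤ 1) (he : nn e ≤ 1)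
    (hw : 0 < dd w w) (hw' : 0 < dd w' w') (h1 : nn (e - e') ≤ ε)
    (h2 : nn (w - w') ≤ ε * nn w) (h3 : nn (A - U) ≤ ε * nn U) :
    |TM (fl e w γ) w A U - TT (fl e' w' γ) w' U| ≤ 8 * (ε * nn γ) * dd U U := by
  have hn := nn_pos hw
  have hg := nn_nonneg γ
  have hU := dd_self_nonneg U
  have ε0 : 0 ≤ ε := (nn_nonneg _).trans h1
  have a1 := TT_fl_stab (e := e) (e' := e') (γ := γ) (γ' := γ) (U := U) hw hw'
  have a2 := TM_fl_le (e := e) (γ := γ) (A := A) (U := U) hw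
  have g0 : nn (γ - γ) = 0 := by simp [nn, dd]
  rw [g0, mul_zero, add_zero] at a1
  have b1 : nn (e - e') * nn γ ≤ ε * nn γ := mul_le_mul_of_nonneg_right h1 hg
  have b2 : nn (w - w') / nn w ≤ ε := by rwa [div_le_iff₀ hn]
  have b2' : 0 ≤ nn (w - w') / nn w := div_nonneg (nn_nonneg _) hn.le
  have b3 : nn e' * nn γ * (nn (w - w') / nn w) ≤ 1 * nn γ * ε :=
    mul_le_mul (mul_le_mul_of_nonneg_right he' hg) b2 b2' (by positivity)
  have b4 : nn (A - U) * nn U ≤ ε * dd U U := by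
    rw [← nn_mul_self U, ← mul_assoc]
    exact mul_le_mul_of_nonneg_right h3 (nn_nonneg U)
  have b5 : 3 * (nn e * nn γ) * (nn (A - U) * nn U) ≤ 3 * (1 * nn γ) * (ε * dd U U) := by
    refine mul_le_mul ?_ b4 (mul_nonneg (nn_nonneg _) (nn_nonneg _)) (by positivity)
    exact mul_le_mul_of_nonneg_left (mul_le_mul_of_nonneg_right he hg) (by norm_num)
  have b6 : (nn (e - e') * nn γ + 4 * (nn e' * nn γ * (nn (w - w') / nn w))) * dd U U ≤
      (ε * nn γ + 4 * (1 * nn γ * ε)) * dd U U :=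
    mul_le_mul_of_nonneg_right (by linarith) hU
  have e1 : TM (fl e w γ) w A U - TT (fl e' w' γ) w' U =
      (TM (fl e w γ) w A U - TT (fl e w γ) w U) + (TT (fl e w γ) w U - TT (fl e' w' γ) w' U) := by
    ring
  rw [e1]
  calc _ ≤ |TM (fl e w γ) w A U - TT (fl e w γ) w U| +
        |TT (fl e w γ) w U - TT (fl e' w' γ) w' U| := abs_add_le _ _
    _ ≤ _ := by nlinarith [a1, a2, b5, b6]

end Vale.Agent.P088.R2.H230.W
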