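import Vale.Agent.P088.R2.H230.W.Fl
import Vale.Agent.P088.R2.H961.W.Sl

/-!
# P088, stage 3: the derivatives of the fields `fl e w γ`
-/

open Set
open scoped ContDiff

noncomputable section

namespace Vale.Agent.P088.R2.H230.W

open Vale.Agent.P088.R2.H961.GW

variable {ι : Type*} [Fintype ι]

/-- The derivative of `fl e w γ` for the derivatives `w'`, `γ'` of `w`, `γ`. -/
def dfl (e w γ w' γ' : ι → ℝ) : ι → ℝ :=
  (dd w w)⁻¹ • (fm e w' γ + fm e w γ') - (2 * dd w w' * (dd w w)⁻¹) • fl e w γ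

/-- Size of the derivative. -/
lemma nn_dfl_le {e w γ w' γ' : ι → ℝ} (hw : 0 < dd w w) :
    nn (dfl e w γ w' γ') ≤ nn e * (3 * (nn w' * nn γ / nn w ^ 2) + nn γ' / nn w) := by
  have hn := nn_pos hw
  have h1 : nn ((dd w w)⁻¹ • (fm e w' γ + fm e w γ')) ≤
      nn e * (nn w' * nn γ / nn w ^ 2 + nn γ' / nn w) := by
    rw [nn_smul, abs_of_pos (inv_pos.2 hw), ← nn_sq]
    have h3 : nn (fm e w' γ + fm e w γ') ≤ nn e * nn w' * nn γ + nn e * nn w * nn γ' :=
      (nn_add_le _ _).trans (add_le_add (nn_fm_le _ _ _) (nn_fm_le _ _ _))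
    refine (mul_le_mul_of_nonneg_left h3 (by positivity)).trans_eq ?_
    field_simp
  have h2 : nn ((2 * dd w w' * (dd w w)⁻¹) • fl e w γ) ≤
      nn e * (2 * (nn w' * nn γ / nn w ^ 2)) := by
    rw [nn_smul, abs_mul, abs_mul, abs_of_pos (inv_pos.2 hw), abs_of_pos (by norm_num : (0:ℝ) < 2),
      ← nn_sq]
    have h3 := nn_fl_le (e := e) (γ := γ) hw
    have h4 := dd_le_nn w w'
    have h5 : 2 * |dd w w'| * (nn w ^ 2)⁻¹ * nn (fl e w γ) ≤
        2 * (nn w * nn w') * (nn w ^ 2)⁻¹ * (nn e * nn γ / nn w) :=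
      mul_le_mul (mul_le_mul_of_nonneg_right (mul_le_mul_of_nonneg_left h4 (by norm_num))
        (by positivity)) h3 (nn_nonneg _) (mul_nonneg (mul_nonneg (by norm_num)
          (mul_nonneg (nn_nonneg _) (nn_nonneg _))) (by positivity))
    refine h5.trans_eq ?_
    field_simp
  calc nn (dfl e w γ w' γ') ≤ _ := nn_sub_le _ _
    _ ≤ nn e * (nn w' * nn γ / nn w ^ 2 + nn γ' / nn w) +
        nn e * (2 * (nn w' * nn γ / nn w ^ 2)) := add_le_add h1 h2
    _ = _ := by ring

lemma dfl_smul (e w γ w' γ' : ι → ℝ) (a : ℝ) :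
    dfl e w γ (a • w') (a • γ') = a • dfl e w γ w' γ' := by
  funext l
  simp only [dfl, fm, dd_smul_left, dd_smul_right, Pi.add_apply, Pi.sub_apply, Pi.smul_apply,
    smul_eq_mul]
  ring

section der

variable {E : Type*} [NormedAddCommGroup E] [NormedSpace ℝ E]

theorem hasFDerivAt_fl {e : ι → ℝ} {w γ : ι → E → ℝ} {w' γ' : ι → E →L[ℝ] ℝ} {z : E}
    (hw : ∀ i, HasFDerivAt (w i) (w' i) z) (hγ : ∀ i, HasFDerivAt (γ i) (γ' i) z)
    (h0 : 0 < dd (fun i => w i z) (fun i => w i z)) (l : ι) :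
    ∃ D : E →L[ℝ] ℝ, HasFDerivAt (fun z => fl e (fun i => w i z) (fun i => γ i z) l) D z ∧
      ∀ v, D v = dfl e (fun i => w i z) (fun i => γ i z) (fun i => w' i v) (fun i => γ' i v) l := by
  have hN : HasFDerivAt (fun z => ∑ i, w i z * w i z) (∑ i, (w i z • w' i + w i z • w' i)) z :=
    HasFDerivAt.fun_sum fun i _ => (hw i).mul (hw i)
  have h1 : HasFDerivAt (fun z => ∑ i, w i z * e i) (∑ i, e i • w' i) z :=
    HasFDerivAt.fun_sum fun i _ => (hw i).mul_const (e i)
  have h2 : HasFDerivAt (fun z => ∑ i, γ i z * e i) (∑ i, e i • γ' i) z :=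
    HasFDerivAt.fun_sum fun i _ => (hγ i).mul_const (e i)
  have h3 : HasFDerivAt (fun z => ∑ i, γ i z * w i z) (∑ i, (γ i z • w' i + w i z • γ' i)) z :=
    HasFDerivAt.fun_sum fun i _ => (hγ i).mul (hw i)
  have hM := ((h1.mul (hγ l)).sub (h2.mul (hw l))).add (h3.mul_const (e l))
  have h0' : (∑ i, w i z * w i z) ≠ 0 := h0.ne'
  have hI := (hasDerivAt_inv h0').comp_hasFDerivAt z hN
  have hF := hI.mul hM
  refine ⟨_, hF.congr_of_eventuallyEq (Filter.Eventually.of_forall fun x => ?_), fun v => ?_⟩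
  · simp only [fl, dd, Pi.smul_apply, Pi.add_apply, Pi.sub_apply, Pi.mul_apply, smul_eq_mul,
      Function.comp]
  · have eN : (∑ i, (w i z • w' i + w i z • w' i)) v =
        2 * dd (fun i => w i z) (fun i => w' i v) := by
      simp only [_root_.sum_apply, _root_.add_apply, _root_.smul_apply, smul_eq_mul, dd,
        Finset.mul_sum]
      exact Finset.sum_congr rfl fun i _ => by ring
    have e1 : (∑ i, e i • w' i) v = dd (fun i => w' i v) e := by
      simp only [_root_.sum_apply, _root_.smul_apply, smul_eq_mul, dd]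
      exact Finset.sum_congr rfl fun i _ => by ring
    have e2 : (∑ i, e i • γ' i) v = dd (fun i => γ' i v) e := by
      simp only [_root_.sum_apply, _root_.smul_apply, smul_eq_mul, dd]
      exact Finset.sum_congr rfl fun i _ => by ring
    have e3 : (∑ i, (γ i z • w' i + w i z • γ' i)) v =
        dd (fun i => γ i z) (fun i => w' i v) + dd (fun i => γ' i v) (fun i => w i z) := by
      simp only [_root_.sum_apply, _root_.add_apply, _root_.smul_apply, smul_eq_mul, dd,
        ← Finset.sum_add_distrib]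
      exact Finset.sum_congr rfl fun i _ => by ring
    simp only [_root_.add_apply, _root_.sub_apply, _root_.smul_apply, smul_eq_mul, eN, e1, e2,
      e3, dfl, fl, fm, Pi.add_apply, Pi.sub_apply, Pi.smul_apply, Pi.mul_apply, Function.comp]
    rw [show (∑ i, w i z * w i z) = dd (fun i => w i z) (fun i => w i z) from rfl,
      show (∑ i, w i z * e i) = dd (fun i => w i z) e from rfl,
      show (∑ i, γ i z * e i) = dd (fun i => γ i z) e from rfl,
      show (∑ i, γ i z * w i z) = dd (fun i => γ i z) (fun i => w i z) from rfl]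
    field_simp
    ring

variable {U : Set E} {w γ : ι → E → ℝ} {e : ι → ℝ} {z : E}

/-- The field is smooth where `w ≠ 0`. -/
theorem sm_fl (hw : ∀ i, Sm U (w i)) (hγ : ∀ i, Sm U (γ i))
    (h0 : ∀ z ∈ U, 0 < dd (fun i => w i z) (fun i => w i z)) (l : ι) :
    Sm U fun z => fl e (fun i => w i z) (fun i => γ i z) l := by
  have hN : Sm U fun z => ∑ i, w i z * w i z := Sm.sum _ fun i _ => (hw i).mul (hw i)
  have h1 : Sm U fun z => ∑ i, w i z * e i := Sm.sum _ fun i _ => (hw i).mul contDiffOn_const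
  have h2 : Sm U fun z => ∑ i, γ i z * e i := Sm.sum _ fun i _ => (hγ i).mul contDiffOn_const
  have h3 : Sm U fun z => ∑ i, γ i z * w i z := Sm.sum _ fun i _ => (hγ i).mul (hw i)
  have hM := (((h1.mul (hγ l)).sub (h2.mul (hw l))).add (h3.mul contDiffOn_const
    (g := fun _ => e l)))
  exact (hN.inv fun z hz => (h0 z hz).ne').mul hM

/-- The derivations of a slot on the field. -/
theorem D_fl (σ : Sl E ι) (hU : IsOpen U) (hw : ∀ i, Sm U (w i)) (hγ : ∀ i, Sm U (γ i))
    (hz : z ∈ U) (h0 : 0 < dd (fun i => w i z) (fun i => w i z)) (i l : ι) :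
    σ.D i (fun z => fl e (fun j => w j z) (fun j => γ j z) l) z =
      dfl e (fun j => w j z) (fun j => γ j z) (fun j => σ.D i (w j) z)
        (fun j => σ.D i (γ j) z) l := by
  obtain ⟨D, hD, h⟩ := hasFDerivAt_fl (e := e) (fun j => ((hw j).diff hU hz).hasFDerivAt)
    (fun j => ((hγ j).diff hU hz).hasFDerivAt) h0 l
  have e1 : σ.D i (fun z => fl e (fun j => w j z) (fun j => γ j z) l) z =
      σ.ρ z * dfl e (fun j => w j z) (fun j => γ j z) (fun j => fderiv ℝ (w j) z (σ.e i))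
        (fun j => fderiv ℝ (γ j) z (σ.e i)) l := by
    unfold Sl.D
    rw [hD.fderiv, h]
  rw [e1]
  exact (congrFun (dfl_smul e (fun j => w j z) (fun j => γ j z)
    (fun j => fderiv ℝ (w j) z (σ.e i)) (fun j => fderiv ℝ (γ j) z (σ.e i)) (σ.ρ z)) l).symm

end der

end Vale.Agent.P088.R2.H230.W
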