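import Vale.Agent.P088.R2.H230.W.FlV
import Vale.Agent.P088.R2.H230.W.CvF
import Vale.Agent.P088.R2.H464.EP.Cur
import Vale.Agent.P088.R2.H464.EP.Lfun

/-!
# P088, stage 3: the geometry of `r = (2 ρ)^(1/2)` in the slots

`rq g` is `ρ`, `dif z = x - y`. `Gd` collects the smallness of the tensors at the distance
`|x - y|`; `geo_r` gives the part of `Geo` about `r`.
-/

open Set Filter
open scoped ContDiff Topology

noncomputable section

namespace Vale.Agent.P088.R2.H230.W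

open Vale.Agent.P088.LR Vale.Agent.P088.HY Vale.Agent.P088.R2.H961.GW
open Vale.Agent.P088.R2.H464.Cu Vale.Agent.P088.R2.H644.Ch

section vec

variable {ι : Type*} [Fintype ι]

lemma nn_le_card {u : ι → ℝ} {c : ℝ} (hc : 0 ≤ c) (h : ∀ i, |u i| ≤ c) :
    nn u ≤ Real.sqrt (Fintype.card ι) * c := by
  refine nn_le_of_sq (by positivity) ?_
  rw [mul_pow, Real.sq_sqrt (Nat.cast_nonneg _)]
  unfold dd
  calc ∑ i, u i * u i ≤ ∑ _i : ι, c ^ 2 := Finset.sum_le_sum fun i _ => by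
        rw [← pow_two, ← sq_abs]; exact pow_le_pow_left₀ (abs_nonneg _) (h i) 2
    _ = _ := by simp

lemma sqrt_card_le : Real.sqrt (Fintype.card ι) ≤ Fintype.card ι := by
  rcases Nat.eq_zero_or_pos (Fintype.card ι) with h | h
  · rw [h]; simp
  · have h1 : (1:ℝ) ≤ Fintype.card ι := by exact_mod_cast h
    rw [Real.sqrt_le_left (by positivity)]
    nlinarith

lemma nn_le_card' {u : ι → ℝ} {c : ℝ} (hc : 0 ≤ c) (h : ∀ i, |u i| ≤ c) :
    nn u ≤ Fintype.card ι * c :=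
  (nn_le_card hc h).trans (mul_le_mul_of_nonneg_right sqrt_card_le hc)

/-- A small matrix on a vector. -/
lemma nn_mat_le {M : ι → ι → ℝ} {c : ℝ} (hc : 0 ≤ c) (h : ∀ i j, |M i j| ≤ c) (v : ι → ℝ) :
    nn (fun i => ∑ j, M i j * v j) ≤ Fintype.card ι * c * nn v := by
  have h1 : ∀ i, |∑ j, M i j * v j| ≤ c * (Real.sqrt (Fintype.card ι) * nn v) := by
    intro i
    calc |∑ j, M i j * v j| ≤ ∑ j, |M i j * v j| := Finset.abs_sum_le_sum_abs _ _
      _ ≤ ∑ j, c * |v j| := Finset.sum_le_sum fun j _ => by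
          rw [abs_mul]; exact mul_le_mul_of_nonneg_right (h i j) (abs_nonneg _)
      _ = c * ∑ j, |v j| := by rw [Finset.mul_sum]
      _ ≤ _ := mul_le_mul_of_nonneg_left (l1_le v) hc
  have h2 := nn_le_card (mul_nonneg hc (mul_nonneg (Real.sqrt_nonneg _) (nn_nonneg v))) h1
  have e : Real.sqrt (Fintype.card ι) * Real.sqrt (Fintype.card ι) = Fintype.card ι :=
    Real.mul_self_sqrt (Nat.cast_nonneg _)
  calc _ ≤ _ := h2
    _ = Real.sqrt (Fintype.card ι) * Real.sqrt (Fintype.card ι) * c * nn v := by ring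
    _ = _ := by rw [e]

end vec

variable {n : ℕ}

lemma norm_le_nn (a : V n) : ‖a‖ ≤ nn a := by
  rw [pi_norm_le_iff_of_nonneg (nn_nonneg a)]
  exact fun i => abs_le_nn a i

lemma bf_eq_dd {G : Matrix (Fin n) (Fin n) ℝ} (hG : ∀ i j, G i j = G j i) (a b : V n) :
    bf G a b = dd (fun i => ∑ j, G i j * a j) b := by
  unfold bf dd
  rw [Finset.sum_comm]
  refine Finset.sum_congr rfl fun j _ => ?_
  rw [Finset.sum_mul]
  exact Finset.sum_congr rfl fun i _ => by rw [hG i j]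

/-- The form of a matrix near `1`. -/
lemma bf_near {G : Matrix (Fin n) (Fin n) ℝ} {ε : ℝ} (hε : 0 ≤ ε)
    (h : ∀ i j, |G i j - (1 : Matrix (Fin n) (Fin n) ℝ) i j| ≤ ε) (a b : V n) :
    |bf G a b - dd a b| ≤ n * ε * (nn a * nn b) := by
  have e1 : bf G a b - dd a b =
      dd b (fun j => ∑ i, (G i j - (1 : Matrix (Fin n) (Fin n) ℝ) i j) * a i) := by
    have e2 : dd a b = ∑ i, ∑ j, (1 : Matrix (Fin n) (Fin n) ℝ) i j * a i * b j := by
      unfold dd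
      refine Finset.sum_congr rfl fun i _ => ?_
      simp [Matrix.one_apply]
    rw [e2]
    unfold bf dd
    rw [← Finset.sum_sub_distrib]
    simp only [← Finset.sum_sub_distrib, Finset.mul_sum]
    rw [Finset.sum_comm]
    exact Finset.sum_congr rfl fun j _ => Finset.sum_congr rfl fun i _ => by ring
  rw [e1]
  refine (dd_le_nn _ _).trans ?_
  have h2 := nn_mat_le (M := fun j i => G i j - (1 : Matrix (Fin n) (Fin n) ℝ) i j) hε
    (fun j i => h i j) a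
  rw [Fintype.card_fin] at h2
  calc _ ≤ nn b * (n * ε * nn a) := mul_le_mul_of_nonneg_left h2 (nn_nonneg b)
    _ = _ := by ring

/-- `(2 ρ)^(1/2)`. -/
def rr (g : MF n) (z : VV n) : ℝ := Real.sqrt (2 * rq g z)

/-- The smallness of the tensors at the distance of the two points. -/
structure Gd (O : Set (V n)) (ε δ₁ δ₂ h₀ h₁ t : ℝ) (s₁ s₂ g : MF n) (z : VV n) : Prop where
  hO : IsOpen O
  hc : Convex ℝ O
  n₁ : Nr O ε δ₁ δ₂ s₁
  n₂ : Nr O ε δ₁ δ₂ s₂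
  ng : Nr O ε δ₁ δ₂ g
  hh : Dst O h₀ h₁ s₁ s₂
  ε0 : 0 ≤ ε
  δ0 : 0 ≤ δ₁
  δ0' : 0 ≤ δ₂
  p0 : 0 ≤ h₀
  p1 : 0 ≤ h₁
  h1 : h₀ ≤ 1
  εt : ε ≤ t
  e1 : δ₁ * nn (dif z) ≤ t
  e2 : δ₂ * nn (dif z) ^ 2 ≤ t
  e3 : h₁ * nn (dif z) ≤ t
  tn : 100 * ((n : ℝ) + 1) ^ 8 * t ≤ 1
  hx : z.1 ∈ O
  hy : z.2 ∈ O
  q0 : 0 < nn (dif z)

section geo

variable {O : Set (V n)} {ε δ₁ δ₂ h₀ h₁ t : ℝ} {s₁ s₂ g : MF n} {z : VV n}

lemma sU_sx (hs : ∀ x i j, s₁ x i j = s₁ x j i) (z : VV n) (A : V n) :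
    sU (sx s₁) z A = up (s₁ z.1) A := by
  funext i
  show ∑ j, s₁ z.1 i j * A j = ∑ j, s₁ z.1 j i * A j
  exact Finset.sum_congr rfl fun j _ => by rw [hs z.1 i j]

lemma sU_sy (hs : ∀ x i j, s₂ x i j = s₂ x j i) (z : VV n) (A : V n) :
    sU (sy s₂) z A = up (s₂ z.2) A := by
  funext i
  show ∑ j, s₂ z.2 i j * A j = ∑ j, s₂ z.2 j i * A j
  exact Finset.sum_congr rfl fun j _ => by rw [hs z.2 i j]

lemma mat_sub_one (S : Matrix (Fin n) (Fin n) ℝ) (A : V n) :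
    (fun i => ∑ j, S i j * A j) - A =
      fun i => ∑ j, (S i j - (1 : Matrix (Fin n) (Fin n) ℝ) i j) * A j := by
  funext i
  simp only [Pi.sub_apply, sub_mul, Finset.sum_sub_distrib]
  congr 1
  simp [Matrix.one_apply]

lemma nn_near {S : Matrix (Fin n) (Fin n) ℝ} {ε : ℝ} (hε : 0 ≤ ε)
    (h : ∀ i j, |S i j - (1 : Matrix (Fin n) (Fin n) ℝ) i j| ≤ ε) (A : V n) :
    nn ((fun i => ∑ j, S i j * A j) - A) ≤ n * ε * nn A := by
  rw [mat_sub_one]
  have := nn_mat_le hε h A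
  rwa [Fintype.card_fin] at this

namespace Gd

variable (G : Gd O ε δ₁ δ₂ h₀ h₁ t s₁ s₂ g z)

include G

lemma t0 : 0 ≤ t := G.ε0.trans G.εt

lemma t1 : ((n : ℝ) + 1) ^ 4 * t ≤ 1 / 100 := by
  have h := G.tn
  have h1 : (1:ℝ) ≤ ((n : ℝ) + 1) := by linarith [(Nat.cast_nonneg n : (0:ℝ) ≤ n)]
  have h2 : ((n : ℝ) + 1) ^ 4 ≤ ((n : ℝ) + 1) ^ 8 := pow_le_pow_right₀ h1 (by norm_num)
  have := mul_le_mul_of_nonneg_right h2 G.t0
  linarith

lemma nt : (n : ℝ) * t ≤ 1 / 100 := by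
  have h := G.t1
  have h0 : (0:ℝ) ≤ n := Nat.cast_nonneg n
  have h1 : (n : ℝ) ≤ ((n : ℝ) + 1) ^ 4 := by
    have : (1:ℝ) ≤ (n:ℝ) + 1 := by linarith
    calc (n : ℝ) ≤ ((n : ℝ) + 1) ^ 1 := by linarith
      _ ≤ _ := pow_le_pow_right₀ this (by norm_num)
  have := mul_le_mul_of_nonneg_right h1 G.t0
  linarith

lemma tt : t ≤ 1 / 100 := by
  have h := G.t1
  have h0 : (0:ℝ) ≤ n := Nat.cast_nonneg n
  have h1 : (1 : ℝ) ≤ ((n : ℝ) + 1) ^ 4 := one_le_pow₀ (by linarith)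
  have := mul_le_mul_of_nonneg_right h1 G.t0
  linarith

lemma hm : mid z ∈ O := mid_mem G.hc G.hx G.hy

omit G in
lemma qn : ‖dif z‖ ≤ nn (dif z) := norm_le_nn _

lemma nx (A : V n) : nn (sU (sx s₁) z A - A) ≤ n * t * nn A := by
  have h := nn_near G.ε0 (G.n₁.b0 z.1 G.hx) A
  refine h.trans ?_
  have := G.εt
  have := nn_nonneg A
  gcongr

lemma ny (A : V n) : nn (sU (sy s₂) z A - A) ≤ n * t * nn A := by
  have h := nn_near G.ε0 (G.n₂.b0 z.2 G.hy) A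
  refine h.trans ?_
  have := G.εt
  have := nn_nonneg A
  gcongr

lemma nx2 (A : V n) : nn (sU (sx s₁) z A) ≤ 2 * nn A := by
  have h1 := G.nx A
  have h2 := nn_le_add (sU (sx s₁) z A) A
  have h3 := mul_le_mul_of_nonneg_right G.nt (nn_nonneg A)
  linarith [nn_nonneg A]

lemma ny2 (A : V n) : nn (sU (sy s₂) z A) ≤ 2 * nn A := by
  have h1 := G.ny A
  have h2 := nn_le_add (sU (sy s₂) z A) A
  have h3 := mul_le_mul_of_nonneg_right G.nt (nn_nonneg A)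
  linarith [nn_nonneg A]

/-- `2 ρ` is almost `|x - y|²`. -/
lemma rq2 : |2 * rq g z - nn (dif z) ^ 2| ≤ n * t * nn (dif z) ^ 2 := by
  have h := bf_near G.ε0 (G.ng.b0 (mid z) G.hm) (dif z) (dif z)
  have e1 : 2 * rq g z = bf (g (mid z)) (dif z) (dif z) := by unfold rq; ring
  rw [e1, nn_sq]
  rw [nn_mul_self] at h
  refine h.trans ?_
  have := G.εt
  have := dd_self_nonneg (dif z)
  gcongr

lemma rq0 : 0 < rq g z := by
  have h := (abs_le.1 G.rq2).1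
  have h1 := mul_le_mul_of_nonneg_right G.nt (sq_nonneg (nn (dif z)))
  have h2 : 0 < nn (dif z) ^ 2 := pow_pos G.q0 2
  linarith

lemma rr_sq : rr g z ^ 2 = 2 * rq g z := Real.sq_sqrt (by linarith [G.rq0])

lemma rr0 : 0 < rr g z := Real.sqrt_pos.2 (by linarith [G.rq0])

/-- `r` is almost `|x - y|`. -/
lemma rr_near : |rr g z - nn (dif z)| ≤ n * t * nn (dif z) := by
  have h := G.rq2
  rw [← G.rr_sq] at h
  have e1 : rr g z ^ 2 - nn (dif z) ^ 2 = (rr g z - nn (dif z)) * (rr g z + nn (dif z)) := by ring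
  rw [e1, abs_mul, abs_of_pos (add_pos G.rr0 G.q0)] at h
  have h1 : |rr g z - nn (dif z)| * nn (dif z) ≤ |rr g z - nn (dif z)| *
      (rr g z + nn (dif z)) :=
    mul_le_mul_of_nonneg_left (by linarith [G.rr0]) (abs_nonneg _)
  have h2 : |rr g z - nn (dif z)| * nn (dif z) ≤ n * t * nn (dif z) * nn (dif z) := by
    refine h1.trans (h.trans (le_of_eq (by ring)))
  exact le_of_mul_le_mul_right h2 G.q0

lemma q_le : nn (dif z) ≤ 2 * rr g z := by
  have h := (abs_le.1 G.rr_near).1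
  have h1 := mul_le_mul_of_nonneg_right G.nt G.q0.le
  linarith [G.q0]

lemma r_le : rr g z ≤ 2 * nn (dif z) := by
  have h := (abs_le.1 G.rr_near).2
  have h1 := mul_le_mul_of_nonneg_right G.nt G.q0.le
  linarith [G.q0]

omit G in
lemma bf_single (q : V n) (k : Fin n) :
    bf (g (mid z)) (Pi.single k 1) q = ∑ j, g (mid z) k j * q j := by
  unfold bf
  rw [Finset.sum_eq_single k]
  · simp
  · intro i _ hi
    refine Finset.sum_eq_zero fun j _ => ?_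
    rw [Pi.single_eq_of_ne hi]; ring
  · simp

/-- The gradient of `ρ` in the first slot. -/
lemma gx_rq : nn (gr (sx s₁) (rq g) z - dif z) ≤ 2 * ((n : ℝ) + 1) ^ 4 * t * nn (dif z) := by
  have dg' : ∀ i j, DifferentiableAt ℝ (fun x => g x i j) (mid z) := fun i j =>
    df_of G.hO (G.ng.sm i j) G.hm
  have ex : gr (sx s₁) (rq g) z = (fun k => ∑ j, g (mid z) k j * dif z j) +
      fun k => 1 / 2 * bf (dg ((1 / 2 : ℝ) • Pi.single k 1) g (mid z)) (dif z) (dif z) := by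
    funext k
    have := (rq_d dg' G.ng.sy (Pi.single k 1, 0)).e
    rw [dif_x, mid_x, bf_single] at this
    show (sx s₁).D k (rq g) z = _
    rw [Dx1, this]; rfl
  have e2 : gr (sx s₁) (rq g) z - dif z = ((fun k => ∑ j, g (mid z) k j * dif z j) - dif z) +
      fun k => 1 / 2 * bf (dg ((1 / 2 : ℝ) • Pi.single k 1) g (mid z)) (dif z) (dif z) := by
    rw [ex]; abel
  rw [e2]
  have N0 : (0:ℝ) ≤ n := Nat.cast_nonneg n
  have a1 := nn_near G.ε0 (G.ng.b0 (mid z) G.hm) (dif z)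
  have a2 : nn (fun k : Fin n => 1 / 2 * bf (dg ((1 / 2 : ℝ) • Pi.single k 1) g (mid z)) (dif z)
      (dif z)) ≤ (n : ℝ) * (1 / 4 * (n ^ 3 * (t * nn (dif z)))) := by
    have := nn_le_card' (ι := Fin n) (c := 1 / 4 * ((n : ℝ) ^ 3 * (t * nn (dif z))))
      (by have := G.t0; have := G.q0; positivity)
      (u := fun k : Fin n => 1 / 2 * bf (dg ((1 / 2 : ℝ) • Pi.single k 1) g (mid z)) (dif z)
      (dif z)) ?_
    · rwa [Fintype.card_fin] at this
    · intro k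
      refine (g2_le G.δ0 G.ng G.hm (dif z) k).trans ?_
      have h1 : δ₁ * ‖dif z‖ ^ 2 ≤ t * nn (dif z) := by
        have h2 := mul_le_mul (qn (z := z)) (qn (z := z)) (norm_nonneg _) G.q0.le
        calc δ₁ * ‖dif z‖ ^ 2 = δ₁ * (‖dif z‖ * ‖dif z‖) := by ring
          _ ≤ δ₁ * (nn (dif z) * nn (dif z)) := mul_le_mul_of_nonneg_left h2 G.δ0
          _ = δ₁ * nn (dif z) * nn (dif z) := by ring
          _ ≤ _ := mul_le_mul_of_nonneg_right G.e1 G.q0.le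
      gcongr
  have a3 : (n : ℝ) * ε * nn (dif z) ≤ n * t * nn (dif z) := by
    have := G.εt
    have := G.q0
    gcongr
  have p1 : (n : ℝ) ≤ ((n : ℝ) + 1) ^ 4 := by
    calc (n : ℝ) ≤ ((n : ℝ) + 1) ^ 1 := by linarith
      _ ≤ _ := pow_le_pow_right₀ (by linarith) (by norm_num)
  have p2 : (n : ℝ) ^ 4 ≤ ((n : ℝ) + 1) ^ 4 := pow_le_pow_left₀ N0 (by linarith) 4
  have tq : 0 ≤ t * nn (dif z) := mul_nonneg G.t0 G.q0.le
  have b1 := mul_le_mul_of_nonneg_right p1 tq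
  have b2 := mul_le_mul_of_nonneg_right p2 tq
  have b3 := nn_add_le ((fun k => ∑ j, g (mid z) k j * dif z j) - dif z)
    (fun k : Fin n => 1 / 2 * bf (dg ((1 / 2 : ℝ) • Pi.single k 1) g (mid z)) (dif z) (dif z))
  have b4 : (n : ℝ) * (1 / 4 * (n ^ 3 * (t * nn (dif z)))) =
      1 / 4 * (n ^ 4 * (t * nn (dif z))) := by ring
  have b5 : 0 ≤ (n : ℝ) ^ 4 * (t * nn (dif z)) := mul_nonneg (by positivity) tq
  linarith

/-- The gradient of `ρ` in the second slot. -/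
lemma gy_rq : nn (gr (sy s₂) (rq g) z + dif z) ≤ 2 * ((n : ℝ) + 1) ^ 4 * t * nn (dif z) := by
  have dg' : ∀ i j, DifferentiableAt ℝ (fun x => g x i j) (mid z) := fun i j =>
    df_of G.hO (G.ng.sm i j) G.hm
  have ex : gr (sy s₂) (rq g) z = -(fun k => ∑ j, g (mid z) k j * dif z j) +
      fun k => 1 / 2 * bf (dg ((1 / 2 : ℝ) • Pi.single k 1) g (mid z)) (dif z) (dif z) := by
    funext k
    have := (rq_d dg' G.ng.sy (0, Pi.single k 1)).e
    rw [dif_y, mid_y, bf_neg, bf_single] at this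
    show (sy s₂).D k (rq g) z = _
    rw [Dy1, this]; rfl
  have e2 : gr (sy s₂) (rq g) z + dif z = -((fun k => ∑ j, g (mid z) k j * dif z j) - dif z) +
      fun k => 1 / 2 * bf (dg ((1 / 2 : ℝ) • Pi.single k 1) g (mid z)) (dif z) (dif z) := by
    rw [ex]; abel
  rw [e2]
  have N0 : (0:ℝ) ≤ n := Nat.cast_nonneg n
  have a1 := nn_near G.ε0 (G.ng.b0 (mid z) G.hm) (dif z)
  have a2 : nn (fun k : Fin n => 1 / 2 * bf (dg ((1 / 2 : ℝ) • Pi.single k 1) g (mid z)) (dif z)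
      (dif z)) ≤ (n : ℝ) * (1 / 4 * (n ^ 3 * (t * nn (dif z)))) := by
    have := nn_le_card' (ι := Fin n) (c := 1 / 4 * ((n : ℝ) ^ 3 * (t * nn (dif z))))
      (by have := G.t0; have := G.q0; positivity)
      (u := fun k : Fin n => 1 / 2 * bf (dg ((1 / 2 : ℝ) • Pi.single k 1) g (mid z)) (dif z)
      (dif z)) ?_
    · rwa [Fintype.card_fin] at this
    · intro k
      refine (g2_le G.δ0 G.ng G.hm (dif z) k).trans ?_
      have h1 : δ₁ * ‖dif z‖ ^ 2 ≤ t * nn (dif z) := by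
        have h2 := mul_le_mul (qn (z := z)) (qn (z := z)) (norm_nonneg _) G.q0.le
        calc δ₁ * ‖dif z‖ ^ 2 = δ₁ * (‖dif z‖ * ‖dif z‖) := by ring
          _ ≤ δ₁ * (nn (dif z) * nn (dif z)) := mul_le_mul_of_nonneg_left h2 G.δ0
          _ = δ₁ * nn (dif z) * nn (dif z) := by ring
          _ ≤ _ := mul_le_mul_of_nonneg_right G.e1 G.q0.le
      gcongr
  have a3 : (n : ℝ) * ε * nn (dif z) ≤ n * t * nn (dif z) := by
    have := G.εt
    have := G.q0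
    gcongr
  have p1 : (n : ℝ) ≤ ((n : ℝ) + 1) ^ 4 := by
    calc (n : ℝ) ≤ ((n : ℝ) + 1) ^ 1 := by linarith
      _ ≤ _ := pow_le_pow_right₀ (by linarith) (by norm_num)
  have p2 : (n : ℝ) ^ 4 ≤ ((n : ℝ) + 1) ^ 4 := pow_le_pow_left₀ N0 (by linarith) 4
  have tq : 0 ≤ t * nn (dif z) := mul_nonneg G.t0 G.q0.le
  have b1 := mul_le_mul_of_nonneg_right p1 tq
  have b2 := mul_le_mul_of_nonneg_right p2 tq
  have b3 := nn_add_le (-((fun k => ∑ j, g (mid z) k j * dif z j) - dif z))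
    (fun k : Fin n => 1 / 2 * bf (dg ((1 / 2 : ℝ) • Pi.single k 1) g (mid z)) (dif z) (dif z))
  rw [nn_neg] at b3
  have b4 : (n : ℝ) * (1 / 4 * (n ^ 3 * (t * nn (dif z)))) =
      1 / 4 * (n ^ 4 * (t * nn (dif z))) := by ring
  have b5 : 0 ≤ (n : ℝ) ^ 4 * (t * nn (dif z)) := mul_nonneg (by positivity) tq
  linarith

end Gd

/-- The domain of `r`. -/
def Ur (O : Set (V n)) (g : MF n) : Set (VV n) := (O ×ˢ O) ∩ {z | mid z ∈ O ∧ 0 < rq g z}

lemma Ur_open (hO : IsOpen O) (hg : ∀ i j, ContDiffOn ℝ ∞ (fun x => g x i j) O) :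
    IsOpen (Ur O g) := by
  have h1 : IsOpen {z : VV n | mid z ∈ O} := hO.preimage contDiff_mid.continuous
  have h2 : IsOpen ({z : VV n | mid z ∈ O} ∩ rq g ⁻¹' Ioi 0) :=
    (sm_rq hg).continuousOn.isOpen_inter_preimage h1 isOpen_Ioi
  have h3 : {z : VV n | mid z ∈ O ∧ 0 < rq g z} = {z : VV n | mid z ∈ O} ∩ rq g ⁻¹' Ioi 0 := by
    ext z; simp
  unfold Ur
  rw [h3]
  exact (hO.prod hO).inter h2

lemma Gd.mem (G : Gd O ε δ₁ δ₂ h₀ h₁ t s₁ s₂ g z) : z ∈ Ur O g :=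
  ⟨⟨G.hx, G.hy⟩, G.hm, G.rq0⟩

/-- The composition `(2 ρ)^(1/2)`. -/
lemma cp_rr (hg : ∀ i j, ContDiffOn ℝ ∞ (fun x => g x i j) O) :
    Cp (Ur O g) (rq g) (fun t => Real.sqrt (2 * t)) (fun t => (Real.sqrt (2 * t))⁻¹)
      (fun t => -((Real.sqrt (2 * t))⁻¹ * (2 * t)⁻¹)) where
  su := (sm_rq hg).mono fun z hz => hz.2.1
  s0 := by
    have h1 : Sm (Ur O g) (rq g) := (sm_rq hg).mono fun z hz => hz.2.1
    have h2 : Sm (Ur O g) fun z => 2 * rq g z := contDiffOn_const.mul h1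
    exact h2.sqrt fun z hz => by
      have : 0 < rq g z := hz.2.2
      positivity
  s1 := by
    have h1 : Sm (Ur O g) (rq g) := (sm_rq hg).mono fun z hz => hz.2.1
    have h2 : Sm (Ur O g) fun z => 2 * rq g z := contDiffOn_const.mul h1
    refine (h2.sqrt fun z hz => ?_).inv fun z hz => ?_
    · have : 0 < rq g z := hz.2.2
      positivity
    · have : 0 < rq g z := hz.2.2
      positivity
  d1 := fun z hz => by
    have h0 : 0 < rq g z := hz.2.2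
    have h := (((hasDerivAt_id (rq g z)).const_mul 2).sqrt (by simp; exact h0.ne'))
    simp only [id] at h
    refine h.congr_deriv ?_
    field_simp
  d2 := fun z hz => by
    have h0 : 0 < rq g z := hz.2.2
    have h := (((hasDerivAt_id (rq g z)).const_mul 2).sqrt (by simp; exact h0.ne'))
    have h1 := h.inv (by simp only [id]; positivity)
    simp only [id] at h1
    refine h1.congr_deriv ?_
    have e1 : Real.sqrt (2 * rq g z) ^ 2 = 2 * rq g z := Real.sq_sqrt (by positivity)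
    have e2 : 0 < Real.sqrt (2 * rq g z) := Real.sqrt_pos.2 (by positivity)
    rw [e1]
    field_simp

lemma fr0_one (hO : IsOpen O) (n₁ : Nr O ε δ₁ δ₂ s₁) : Fr0 (fun _ => 1) s₁ O where
  op := hO
  rp := fun _ _ => one_pos
  rs := contDiffOn_const
  ss := n₁.sm
  sy := n₁.sy

lemma ok_x (hO : IsOpen O) (n₁ : Nr O ε δ₁ δ₂ s₁) (n₂ : Nr O ε δ₁ δ₂ s₂) {U : Set (VV n)}
    (hU : IsOpen U) (h : U ⊆ O ×ˢ O) : (sx s₁).Ok U (tht (fun _ => 1) fun _ => 1) :=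
  okx (fr0_one hO n₁) (fr0_one hO n₂) hU h

lemma ok_y (hO : IsOpen O) (n₁ : Nr O ε δ₁ δ₂ s₁) (n₂ : Nr O ε δ₁ δ₂ s₂) {U : Set (VV n)}
    (hU : IsOpen U) (h : U ⊆ O ×ˢ O) : (sy s₂).Ok U (tht (fun _ => 1) fun _ => 1) :=
  oky (fr0_one hO n₁) (fr0_one hO n₂) hU h

end geo

end Vale.Agent.P088.R2.H230.W
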