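import Vale.Agent.P088.R2.H230.W.Geo1

/-!
# P088, stage 3: the geometry of `r = (2 ρ)^(1/2)` in the slots, II

The gradient and the Hessian form of `r`; `geo_r`: the part of `Geo` about `r`.
-/

open Set Filter
open scoped ContDiff Topology

noncomputable section

namespace Vale.Agent.P088.R2.H230.W

open Vale.Agent.P088.LR Vale.Agent.P088.HY Vale.Agent.P088.R2.H961.GW
open Vale.Agent.P088.R2.H464.Cu Vale.Agent.P088.R2.H644.Ch

variable {n : ℕ} {O : Set (V n)} {ε δ₁ δ₂ h₀ h₁ t : ℝ} {s₁ s₂ g : MF n} {z : VV n}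

/-- The unit vector of `x - y`. -/
def hq (z : VV n) : V n := (nn (dif z))⁻¹ • dif z

lemma hq_one (h : 0 < nn (dif z)) : dd (hq z) (hq z) = 1 := by
  unfold hq
  rw [dd_smul_left, dd_smul_right, ← nn_mul_self]
  field_simp

namespace Gd

variable (G : Gd O ε δ₁ δ₂ h₀ h₁ t s₁ s₂ g z)

include G

lemma gr_rr_x : gr (sx s₁) (rr g) z = (rr g z)⁻¹ • gr (sx s₁) (rq g) z := by
  have ho := Ur_open G.hO G.ng.sm
  have c := cp_rr (g := g) G.ng.sm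
  funext i
  exact D_comp (σ := sx s₁) ho c i G.mem

lemma gr_rr_y : gr (sy s₂) (rr g) z = (rr g z)⁻¹ • gr (sy s₂) (rq g) z := by
  have ho := Ur_open G.hO G.ng.sm
  have c := cp_rr (g := g) G.ng.sm
  funext i
  exact D_comp (σ := sy s₂) ho c i G.mem

lemma unit_le {x : V n} {s : ℝ} (hs : |s| = 1)
    (hx : nn (x - s • dif z) ≤ 2 * ((n : ℝ) + 1) ^ 4 * t * nn (dif z)) :
    nn ((rr g z)⁻¹ • x - s • hq z) ≤ 6 * ((n : ℝ) + 1) ^ 4 * t := by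
  have r0 := G.rr0
  have q0 := G.q0
  have t0 := G.t0
  have N0 : (0:ℝ) ≤ n := Nat.cast_nonneg n
  have e1 : (rr g z)⁻¹ • x - s • hq z = (rr g z)⁻¹ • (x - s • dif z) +
      ((rr g z)⁻¹ - (nn (dif z))⁻¹) • (s • dif z) := by
    unfold hq
    rw [smul_sub, sub_smul, smul_comm s]
    abel
  rw [e1]
  refine (nn_add_le _ _).trans ?_
  have a1 : nn ((rr g z)⁻¹ • (x - s • dif z)) ≤ 4 * (((n : ℝ) + 1) ^ 4 * t) := by
    rw [nn_smul, abs_of_pos (inv_pos.2 r0), inv_mul_le_iff₀ r0]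
    have h1 := mul_le_mul_of_nonneg_left G.q_le
      (by positivity : (0:ℝ) ≤ 2 * ((n : ℝ) + 1) ^ 4 * t)
    linarith
  have a2 : nn (((rr g z)⁻¹ - (nn (dif z))⁻¹) • (s • dif z)) ≤ 2 * (n * t) := by
    rw [nn_smul, nn_smul, hs, one_mul]
    have e2 : (rr g z)⁻¹ - (nn (dif z))⁻¹ =
        -((rr g z - nn (dif z)) * ((rr g z)⁻¹ * (nn (dif z))⁻¹)) := by
      field_simp
      ring
    rw [e2, abs_neg, abs_mul, abs_of_pos (by positivity : 0 < (rr g z)⁻¹ * (nn (dif z))⁻¹)]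
    have e3 : |rr g z - nn (dif z)| * ((rr g z)⁻¹ * (nn (dif z))⁻¹) * nn (dif z) =
        |rr g z - nn (dif z)| / rr g z := by
      field_simp
    rw [e3, div_le_iff₀ r0]
    refine G.rr_near.trans ?_
    have := mul_le_mul_of_nonneg_left G.q_le (by positivity : (0:ℝ) ≤ n * t)
    linarith
  have p1 : (n : ℝ) * t ≤ ((n : ℝ) + 1) ^ 4 * t := by
    refine mul_le_mul_of_nonneg_right ?_ t0
    calc (n : ℝ) ≤ ((n : ℝ) + 1) ^ 1 := by linarith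
      _ ≤ _ := pow_le_pow_right₀ (by linarith) (by norm_num)
  linarith

/-- The gradient of `r` in the first slot. -/
lemma rx : nn (gr (sx s₁) (rr g) z - hq z) ≤ 6 * ((n : ℝ) + 1) ^ 4 * t := by
  have h := G.unit_le (x := gr (sx s₁) (rq g) z) (s := 1) (by norm_num)
    (by rw [one_smul]; exact G.gx_rq)
  rw [G.gr_rr_x]
  rwa [one_smul] at h

/-- The gradient of `r` in the second slot. -/
lemma ry : nn (gr (sy s₂) (rr g) z + hq z) ≤ 6 * ((n : ℝ) + 1) ^ 4 * t := by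
  have h := G.unit_le (x := gr (sy s₂) (rq g) z) (s := -1) (by norm_num)
    (by rw [neg_one_smul, sub_neg_eq_add]; exact G.gy_rq)
  rw [G.gr_rr_y]
  rwa [neg_one_smul, sub_neg_eq_add] at h

/-- The Hessian form of `r`. -/
lemma Tr (A B : V n) :
    |TH (sx s₁) (sy s₂) (rr g) z A B - (rr g z)⁻¹ *
      (dd (sU (sx s₁) z A - sU (sy s₂) z B) (sU (sx s₁) z A - sU (sy s₂) z B) -
        dd (hq z) (sU (sx s₁) z A - sU (sy s₂) z B) ^ 2)| ≤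
      400 * ((n : ℝ) + 1) ^ 8 * t / rr g z * (dd A A + dd B B) := by
  have r0 := G.rr0
  have t0 := G.t0
  have N0 : (0:ℝ) ≤ n := Nat.cast_nonneg n
  have ho := Ur_open G.hO G.ng.sm
  have okx' := ok_x G.hO G.n₁ G.n₂ ho (fun z hz => hz.1)
  have oky' := ok_y G.hO G.n₁ G.n₂ ho (fun z hz => hz.1)
  have c := cp_rr (g := g) G.ng.sm
  have e1 : TH (sx s₁) (sy s₂) (rr g) z A B = (rr g z)⁻¹ * TH (sx s₁) (sy s₂) (rq g) z A B +
      -((rr g z)⁻¹ * (2 * rq g z)⁻¹) * GA (sx s₁) (sy s₂) (rq g) z A B ^ 2 :=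
    TH_comp okx' oky' c G.mem A B
  have e2 : GA (sx s₁) (sy s₂) (rr g) z A B = (rr g z)⁻¹ * GA (sx s₁) (sy s₂) (rq g) z A B :=
    GA_comp okx' oky' c G.mem A B
  have e3 : TH (sx s₁) (sy s₂) (rr g) z A B = (rr g z)⁻¹ *
      (TH (sx s₁) (sy s₂) (rq g) z A B - GA (sx s₁) (sy s₂) (rr g) z A B ^ 2) := by
    rw [e1, e2, ← G.rr_sq]
    field_simp
    ring
  obtain ⟨X, hX⟩ : ∃ X, X = sU (sx s₁) z A := ⟨_, rfl⟩
  obtain ⟨Y, hY⟩ : ∃ Y, Y = sU (sy s₂) z B := ⟨_, rfl⟩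
  have nX : nn X ≤ 2 * nn A := by rw [hX]; exact G.nx2 A
  have nY : nn Y ≤ 2 * nn B := by rw [hY]; exact G.ny2 B
  have nQ : nn (X - Y) ≤ 2 * (nn A + nn B) := (nn_sub_le X Y).trans (by linarith)
  obtain ⟨s, hs⟩ : ∃ s, s = nn A + nn B := ⟨_, rfl⟩
  rw [← hs] at nQ
  have s0 : 0 ≤ s := by rw [hs]; exact add_nonneg (nn_nonneg _) (nn_nonneg _)
  have ss : s ^ 2 ≤ 2 * (dd A A + dd B B) := by
    rw [hs, ← nn_sq, ← nn_sq]; exact sum_sq
  have gA : GA (sx s₁) (sy s₂) (rr g) z A B =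
      dd (gr (sx s₁) (rr g) z) X + dd (gr (sy s₂) (rr g) z) Y := by
    rw [hX, hY]
    exact GA_dd (fun i j => G.n₁.sy z.1 i j) (fun i j => G.n₂.sy z.2 i j) _ A B
  -- the gradient part
  have a1 : |GA (sx s₁) (sy s₂) (rr g) z A B - dd (hq z) (X - Y)| ≤
      12 * (((n : ℝ) + 1) ^ 4 * t) * s := by
    have e4 : GA (sx s₁) (sy s₂) (rr g) z A B - dd (hq z) (X - Y) =
        dd (gr (sx s₁) (rr g) z - hq z) X + dd (gr (sy s₂) (rr g) z + hq z) Y := by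
      rw [gA]
      simp only [dd_sub_left, dd_sub_right, dd_add_left]; ring
    rw [e4]
    have h1 := (dd_le_nn (gr (sx s₁) (rr g) z - hq z) X).trans
      (mul_le_mul G.rx nX (nn_nonneg _) (by positivity))
    have h2 := (dd_le_nn (gr (sy s₂) (rr g) z + hq z) Y).trans
      (mul_le_mul G.ry nY (nn_nonneg _) (by positivity))
    refine (abs_add_le _ _).trans ?_
    rw [hs]
    linarith
  have a2 : |dd (hq z) (X - Y)| ≤ 2 * s := by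
    refine (dd_le_nn _ _).trans ?_
    rw [nn_one (hq_one G.q0), one_mul]
    exact nQ
  have a3 : |GA (sx s₁) (sy s₂) (rr g) z A B ^ 2 - dd (hq z) (X - Y) ^ 2| ≤
      60 * (((n : ℝ) + 1) ^ 4 * t) * s ^ 2 := by
    have e5 : GA (sx s₁) (sy s₂) (rr g) z A B ^ 2 - dd (hq z) (X - Y) ^ 2 =
        (GA (sx s₁) (sy s₂) (rr g) z A B - dd (hq z) (X - Y)) *
        ((GA (sx s₁) (sy s₂) (rr g) z A B - dd (hq z) (X - Y)) +
          2 * dd (hq z) (X - Y)) := by ring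
    rw [e5, abs_mul]
    have t1 := G.t1
    have b1 : |(GA (sx s₁) (sy s₂) (rr g) z A B - dd (hq z) (X - Y)) +
        2 * dd (hq z) (X - Y)| ≤ 5 * s := by
      refine (abs_add_le _ _).trans ?_
      rw [abs_mul, abs_two]
      have := mul_le_mul_of_nonneg_right t1 s0
      linarith
    calc _ ≤ 12 * (((n : ℝ) + 1) ^ 4 * t) * s * (5 * s) :=
          mul_le_mul a1 b1 (abs_nonneg _) (by positivity)
      _ = _ := by ring
  -- the Hessian of `ρ`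
  have m1 : ‖A‖ + ‖B‖ ≤ s := by
    rw [hs]; exact add_le_add (norm_le_nn A) (norm_le_nn B)
  have uX : up (s₁ z.1) A = X := by rw [hX, sU_sx G.n₁.sy]
  have uY : up (s₂ z.2) B = Y := by rw [hY, sU_sy G.n₂.sy]
  have a4 := TH_rq G.hO G.hc G.n₁ G.n₂ G.ng G.hh G.δ0 G.δ0' G.p0 G.p1
    (by linarith [G.εt, G.tt]) (by
      have h1 := mul_le_mul_of_nonneg_left G.εt N0
      linarith [G.nt]) G.hx G.hy A B
  rw [uX, uY] at a4
  have a5 : |TH (sx s₁) (sy s₂) (rq g) z A B - bf (g (mid z)) (X - Y) (X - Y)| ≤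
      120 * (((n : ℝ) + 1) ^ 8 * t) * s ^ 2 := by
    refine a4.trans ?_
    have q1 : δ₁ * ‖dif z‖ ≤ t :=
      (mul_le_mul_of_nonneg_left (qn (z := z)) G.δ0).trans G.e1
    have q2 : δ₂ * ‖dif z‖ ^ 2 ≤ t :=
      (mul_le_mul_of_nonneg_left (pow_le_pow_left₀ (norm_nonneg _) (qn (z := z)) 2) G.δ0').trans
        G.e2
    have q3 : h₁ * ‖dif z‖ ≤ t := (mul_le_mul_of_nonneg_left (qn (z := z)) G.p1).trans G.e3
    have q4 : δ₁ * h₀ * ‖dif z‖ ≤ t := by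
      have h1 : δ₁ * ‖dif z‖ * h₀ ≤ t * 1 := mul_le_mul q1 G.h1 G.p0 t0
      linarith
    have q5 : δ₁ ^ 2 * ‖dif z‖ ^ 2 ≤ t := by
      have h0 : 0 ≤ δ₁ * ‖dif z‖ := mul_nonneg G.δ0 (norm_nonneg _)
      have h1 : (δ₁ * ‖dif z‖) * (δ₁ * ‖dif z‖) ≤ t * 1 :=
        mul_le_mul q1 (q1.trans (by linarith [G.tt])) h0 t0
      linarith
    have Q1 : ‖X - Y‖ ≤ 2 * s := (norm_le_nn _).trans nQ
    have M0 : 0 ≤ ‖A‖ + ‖B‖ := add_nonneg (norm_nonneg _) (norm_nonneg _)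
    have M2 : (‖A‖ + ‖B‖) ^ 2 ≤ s ^ 2 := pow_le_pow_left₀ M0 m1 2
    have h1 : δ₁ * ‖dif z‖ * ‖X - Y‖ * (‖A‖ + ‖B‖) ≤ t * (2 * s) * s := by
      have h2 : 0 ≤ δ₁ * ‖dif z‖ := mul_nonneg G.δ0 (norm_nonneg _)
      exact mul_le_mul (mul_le_mul q1 Q1 (norm_nonneg _) t0) m1 M0 (by positivity)
    have h2 : (δ₂ + δ₁ ^ 2) * ‖dif z‖ ^ 2 * (‖A‖ + ‖B‖) ^ 2 ≤ (2 * t) * s ^ 2 :=
      mul_le_mul (by linarith) M2 (sq_nonneg _) (by linarith)
    have h3 : (h₁ + δ₁ * h₀) * ‖dif z‖ * (‖A‖ + ‖B‖) ^ 2 ≤ (2 * t) * s ^ 2 :=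
      mul_le_mul (by linarith) M2 (sq_nonneg _) (by linarith)
    have h4 : δ₁ * ‖dif z‖ * ‖X - Y‖ * (‖A‖ + ‖B‖) +
        (δ₂ + δ₁ ^ 2) * ‖dif z‖ ^ 2 * (‖A‖ + ‖B‖) ^ 2 +
        (h₁ + δ₁ * h₀) * ‖dif z‖ * (‖A‖ + ‖B‖) ^ 2 ≤ 6 * (t * s ^ 2) := by
      linarith
    have h5 := mul_le_mul_of_nonneg_left h4 (by positivity : (0:ℝ) ≤ 20 * ((n : ℝ) + 1) ^ 8)
    linarith
  have a6 : |bf (g (mid z)) (X - Y) (X - Y) - dd (X - Y) (X - Y)| ≤ 4 * (n * t) * s ^ 2 := by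
    refine (bf_near G.ε0 (G.ng.b0 (mid z) G.hm) (X - Y) (X - Y)).trans ?_
    have h1 : nn (X - Y) * nn (X - Y) ≤ 2 * s * (2 * s) :=
      mul_le_mul nQ nQ (nn_nonneg _) (by positivity)
    have h2 : (n : ℝ) * ε ≤ n * t := mul_le_mul_of_nonneg_left G.εt N0
    calc _ ≤ n * t * (2 * s * (2 * s)) := mul_le_mul h2 h1 (mul_self_nonneg _) (by positivity)
      _ = _ := by ring
  rw [e3, ← hX, ← hY, ← mul_sub, abs_mul, abs_of_pos (inv_pos.2 r0)]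
  have e6 : 400 * ((n : ℝ) + 1) ^ 8 * t / rr g z * (dd A A + dd B B) =
      (rr g z)⁻¹ * (400 * (((n : ℝ) + 1) ^ 8 * t) * (dd A A + dd B B)) := by
    rw [div_eq_mul_inv]; ring
  rw [e6]
  refine mul_le_mul_of_nonneg_left ?_ (inv_pos.2 r0).le
  have e7 : TH (sx s₁) (sy s₂) (rq g) z A B - GA (sx s₁) (sy s₂) (rr g) z A B ^ 2 -
      (dd (X - Y) (X - Y) - dd (hq z) (X - Y) ^ 2) =
      (TH (sx s₁) (sy s₂) (rq g) z A B - bf (g (mid z)) (X - Y) (X - Y)) +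
      (bf (g (mid z)) (X - Y) (X - Y) - dd (X - Y) (X - Y)) -
      (GA (sx s₁) (sy s₂) (rr g) z A B ^ 2 - dd (hq z) (X - Y) ^ 2) := by ring
  rw [e7]
  have P1 : (1:ℝ) ≤ (n : ℝ) + 1 := by linarith
  have p4 : ((n : ℝ) + 1) ^ 4 * t ≤ ((n : ℝ) + 1) ^ 8 * t :=
    mul_le_mul_of_nonneg_right (pow_le_pow_right₀ P1 (by norm_num)) t0
  have p1 : (n : ℝ) * t ≤ ((n : ℝ) + 1) ^ 8 * t := by
    refine mul_le_mul_of_nonneg_right ?_ t0
    calc (n : ℝ) ≤ ((n : ℝ) + 1) ^ 1 := by linarith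
      _ ≤ _ := pow_le_pow_right₀ P1 (by norm_num)
  obtain ⟨P, hP⟩ : ∃ P, P = ((n : ℝ) + 1) ^ 8 * t := ⟨_, rfl⟩
  rw [← hP] at a5 p4 p1 ⊢
  have P0 : 0 ≤ P := by rw [hP]; positivity
  have s2 : 0 ≤ s ^ 2 := sq_nonneg s
  have c1 := mul_le_mul_of_nonneg_right p4 s2
  have c2 := mul_le_mul_of_nonneg_right p1 s2
  have c3 := mul_le_mul_of_nonneg_left ss P0
  refine (abs_sub _ _).trans ((add_le_add (abs_add_le _ _) le_rfl).trans ?_)
  have c4 := add_le_add (add_le_add a5 a6) a3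
  have c5 := mul_nonneg P0 (add_nonneg (dd_self_nonneg A) (dd_self_nonneg B))
  linarith

end Gd

/-- **The part of `Geo` about `r`.** -/
theorem geo_r (G : Gd O ε δ₁ δ₂ h₀ h₁ t s₁ s₂ g z) {u : VV n → ℝ} {e : V n} {gam εu : ℝ}
    (ht : 400 * ((n : ℝ) + 1) ^ 8 * t ≤ εu) (he : dd e e = 1)
    (ux : nn (gr (sx s₁) u z - e) ≤ εu) (uy : nn (gr (sy s₂) u z - e) ≤ εu)
    (Tu : ∀ A B, gam * (dd A A + dd B B) ≤ TH (sx s₁) (sy s₂) u z A B) :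
    Geo (sx s₁) (sy s₂) u (rr g) e (hq z) εu gam z where
  ee := he
  hh := hq_one G.q0
  r0 := G.rr0
  sσ := fun i j => G.n₁.sy z.1 i j
  sτ := fun i j => G.n₂.sy z.2 i j
  ux := ux
  uy := uy
  rx := by
    refine G.rx.trans (le_trans ?_ ht)
    have h1 : (1:ℝ) ≤ (n : ℝ) + 1 := by linarith [(Nat.cast_nonneg n : (0:ℝ) ≤ n)]
    have := mul_le_mul_of_nonneg_right
      (pow_le_pow_right₀ h1 (by norm_num : 4 ≤ 8)) G.t0
    have h0 : 0 ≤ ((n : ℝ) + 1) ^ 8 * t := mul_nonneg (by positivity) G.t0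
    linarith
  ry := by
    refine G.ry.trans (le_trans ?_ ht)
    have h1 : (1:ℝ) ≤ (n : ℝ) + 1 := by linarith [(Nat.cast_nonneg n : (0:ℝ) ≤ n)]
    have := mul_le_mul_of_nonneg_right
      (pow_le_pow_right₀ h1 (by norm_num : 4 ≤ 8)) G.t0
    have h0 : 0 ≤ ((n : ℝ) + 1) ^ 8 * t := mul_nonneg (by positivity) G.t0
    linarith
  nx := fun A => by
    refine (G.nx A).trans (mul_le_mul_of_nonneg_right (le_trans ?_ ht) (nn_nonneg A))
    have h1 : (n : ℝ) ≤ ((n : ℝ) + 1) ^ 8 := by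
      have : (1:ℝ) ≤ (n : ℝ) + 1 := by linarith [(Nat.cast_nonneg n : (0:ℝ) ≤ n)]
      calc (n : ℝ) ≤ ((n : ℝ) + 1) ^ 1 := by linarith
        _ ≤ _ := pow_le_pow_right₀ this (by norm_num)
    have h2 := mul_le_mul_of_nonneg_right h1 G.t0
    have h0 : 0 ≤ ((n : ℝ) + 1) ^ 8 * t := mul_nonneg (by positivity) G.t0
    linarith
  ny := fun A => by
    refine (G.ny A).trans (mul_le_mul_of_nonneg_right (le_trans ?_ ht) (nn_nonneg A))
    have h1 : (n : ℝ) ≤ ((n : ℝ) + 1) ^ 8 := by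
      have : (1:ℝ) ≤ (n : ℝ) + 1 := by linarith [(Nat.cast_nonneg n : (0:ℝ) ≤ n)]
      calc (n : ℝ) ≤ ((n : ℝ) + 1) ^ 1 := by linarith
        _ ≤ _ := pow_le_pow_right₀ this (by norm_num)
    have h2 := mul_le_mul_of_nonneg_right h1 G.t0
    have h0 : 0 ≤ ((n : ℝ) + 1) ^ 8 * t := mul_nonneg (by positivity) G.t0
    linarith
  Tu := Tu
  Tr := fun A B => by
    refine (G.Tr A B).trans ?_
    have h1 := add_nonneg (dd_self_nonneg A) (dd_self_nonneg B)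
    have h2 := div_le_div_of_nonneg_right ht G.rr0.le
    exact mul_le_mul_of_nonneg_right h2 h1

end Vale.Agent.P088.R2.H230.W
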