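import Vale.Agent.P088.R2.H230.W.Fl

/-!
# P088, stage 3: the robust certificate away from the diagonal

Everything is only approximately flat: `U = s₁ A`, `V = s₂ B` (raised vectors), the gradients of the
weight are `ν₁ e + ℓ₁ h`, `ν₂ e - ℓ₂ h` up to relative errors `ε`, the sum of the two covectors of the
stiff direction is `e` up to `ε₀`, their difference is `2 L h` up to `1/100`.  The fields are
`fl e w γ` with the exact gradients `w`, the constant vector `e` and `γ = ± 4Λδ h + δ e`.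
-/

noncomputable section

namespace Vale.Agent.P088.R2.H230.W

variable {ι : Type*} [Fintype ι]

/-- Perturbation of a certificate. -/
theorem pert {e e' w₁ w₁' w₂ w₂' γ₁ γ₂ U V A B : ι → ℝ} {ε δ H T : ℝ} (he' : nn e' ≤ 1)
    (he : nn e ≤ 1) (hee : nn (e - e') ≤ ε)
    (hw₁ : 0 < dd w₁ w₁) (hw₁' : 0 < dd w₁' w₁') (hw₂ : 0 < dd w₂ w₂) (hw₂' : 0 < dd w₂' w₂')
    (h₁ : nn (w₁ - w₁') ≤ ε * nn w₁) (h₂ : nn (w₂ - w₂') ≤ ε * nn w₂)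
    (hA : nn (A - U) ≤ ε * nn U) (hB : nn (B - V) ≤ ε * nn V)
    (hδ : 0 ≤ δ) (g₁ : 48 * (8 * (ε * nn γ₁)) ≤ δ) (g₂ : 48 * (8 * (ε * nn γ₂)) ≤ δ)
    (hε : 100 * ε ≤ 1)
    (cert : δ * (dd U U + dd V V) ≤ H + TT (fl e' w₁' γ₁) w₁' U + TT (fl e' w₂' γ₂) w₂' V)
    (hT : H - δ / 6 * (dd U U + dd V V) ≤ T) :
    δ * (39 / 50) * (dd A A + dd B B) ≤
      T + TM (fl e w₁ γ₁) w₁ A U + TM (fl e w₂ γ₂) w₂ B V := by
  have ε0 : 0 ≤ ε := (nn_nonneg _).trans hee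
  have hU := dd_self_nonneg U
  have hV := dd_self_nonneg V
  have s1 := TM_fl_stab (γ := γ₁) (A := A) (U := U) he' he hw₁ hw₁' hee h₁ hA
  have s2 := TM_fl_stab (γ := γ₂) (A := B) (U := V) he' he hw₂ hw₂' hee h₂ hB
  have t1 := mul_le_mul_of_nonneg_right g₁ hU
  have t2 := mul_le_mul_of_nonneg_right g₂ hV
  have s1' := (abs_le.1 s1).1
  have s2' := (abs_le.1 s2).1
  have sq : ∀ X Y : ι → ℝ, nn (X - Y) ≤ ε * nn Y → dd X X ≤ 10201 / 10000 * dd Y Y := by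
    intro X Y h
    have h1 := nn_le_add X Y
    have h2 : nn X ≤ (101 / 100) * nn Y := by
      have : ε * nn Y ≤ 1 / 100 * nn Y := mul_le_mul_of_nonneg_right (by linarith) (nn_nonneg Y)
      linarith
    have h3 := pow_le_pow_left₀ (nn_nonneg X) h2 2
    rw [mul_pow, nn_sq, nn_sq] at h3
    linarith
  have a1 := sq A U hA
  have a2 := sq B V hB
  have a3 := mul_le_mul_of_nonneg_left (add_le_add a1 a2) hδ
  nlinarith [mul_nonneg hδ hU, mul_nonneg hδ hV]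

/-- In plane coefficient, with slack, `L ≥ 3/8`. -/
lemma t1_nonneg4 {L Λ s δ c : ℝ} (hL : 3 / 8 ≤ L) (hΛ : L ≤ Λ) (hs : s = 4 * Λ * δ) (hδ : 0 ≤ δ)
    (hc : c ^ 2 ≤ 1) : 0 ≤ 2 * s / L - 4 * δ - δ * (2 * c ^ 2 - 1) / (2 * L ^ 2) := by
  have hL0 : 0 < L := by linarith
  have e1 : 8 * δ ≤ 2 * s / L := by
    rw [hs, le_div_iff₀ hL0]
    nlinarith [mul_nonneg hδ (sub_nonneg.2 hΛ)]
  have e2 : δ * (2 * c ^ 2 - 1) / (2 * L ^ 2) ≤ 4 * δ := by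
    rw [div_le_iff₀ (by positivity)]
    have h1 : (0:ℝ) ≤ 8 * L ^ 2 - 1 := by nlinarith
    nlinarith [mul_nonneg hδ h1, mul_nonneg hδ (sub_nonneg.2 hc)]
  linarith

section
variable {e h : ι → ℝ} (he : dd e e = 1) (hh : dd h h = 1)
include he hh

/-- The form on the null space of the main part, with slack, `L ≥ 3/8`. -/
lemma null_ge4 (P : ι → ℝ) {ν₁ ℓ₁ ν₂ ℓ₂ L Λ s δ : ℝ} (hL : 3 / 8 ≤ L) (hΛ : L ≤ Λ)
    (hs : s = 4 * Λ * δ)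
    (hδ : 0 ≤ δ) (hl1 : 0 ≤ ℓ₁) (hl2 : 0 ≤ ℓ₂) (hl1' : ℓ₁ ≤ 2 * Λ * ν₁) (hl2' : ℓ₂ ≤ 2 * Λ * ν₂)
    (h1 : 0 < ν₁ ^ 2 + ℓ₁ ^ 2 + 2 * dd e h * ν₁ * ℓ₁)
    (h2 : 0 < ν₂ ^ 2 + ℓ₂ ^ 2 - 2 * dd e h * ν₂ * ℓ₂) :
    2 * δ * dd P P ≤ TT (f1 e h ν₁ ℓ₁ s δ) (v1 e h ν₁ ℓ₁) (P - (dd P e / (2 * L)) • h)
      + TT (f2 e h ν₂ ℓ₂ s δ) (v2 e h ν₂ ℓ₂) (P + (dd P e / (2 * L)) • h) := by
  have hL0 : 0 < L := by linarith
  have hΛ0 : 0 < Λ := by linarith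
  have key := key_id2 (dd P e) (dd P h) (dd P P) (dd e h) ν₁ ℓ₁ ν₂ ℓ₂ L s δ _ _ hL0.ne' h1.ne'
    h2.ne' rfl rfl
  have hc := abs_dd_le he hh
  have hc2 : dd e h ^ 2 ≤ 1 := sq_le_one_iff_abs_le_one _ |>.2 hc
  have eq1 : TT (f1 e h ν₁ ℓ₁ s δ) (v1 e h ν₁ ℓ₁) (P - (dd P e / (2 * L)) • h)
      + TT (f2 e h ν₂ ℓ₂ s δ) (v2 e h ν₂ ℓ₂) (P + (dd P e / (2 * L)) • h)
      = 2 * δ * dd P P + (2 * s / L - 4 * δ - δ * (2 * dd e h ^ 2 - 1) / (2 * L ^ 2)) * dd P e ^ 2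
      + (2 * s * (ν₁ * ℓ₁ * (ν₂ ^ 2 + ℓ₂ ^ 2) + ν₂ * ℓ₂ * (ν₁ ^ 2 + ℓ₁ ^ 2))
          - 2 * δ * (ℓ₁ ^ 2 * (ν₂ ^ 2 + ℓ₂ ^ 2 - 2 * dd e h * ν₂ * ℓ₂)
            + ℓ₂ ^ 2 * (ν₁ ^ 2 + ℓ₁ ^ 2 + 2 * dd e h * ν₁ * ℓ₁)))
        * ((1 - dd e h ^ 2) * dd P P - dd P e ^ 2 - dd P h ^ 2 + 2 * dd P e * dd P h * dd e h)
        / ((ν₁ ^ 2 + ℓ₁ ^ 2 + 2 * dd e h * ν₁ * ℓ₁)
          * (ν₂ ^ 2 + ℓ₂ ^ 2 - 2 * dd e h * ν₂ * ℓ₂)) := by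
    rw [← key]
    simp only [TT, f1, f2, v1, v2, dd_add_left, dd_add_right, dd_sub_left, dd_sub_right,
      dd_smul_left, dd_smul_right, he, hh, dd_comm h e, dd_comm e P, dd_comm h P]
    ring
  rw [eq1]
  have g := gram3 he hh P
  have t1 := mul_nonneg (t1_nonneg4 hL hΛ hs hδ hc2) (sq_nonneg (dd P e))
  have t2 := t2_nonneg hΛ0 hδ hc hl1 hl2 hl1' hl2' h1 h2
  rw [← hs] at t2
  have t3 := div_nonneg (mul_nonneg t2 g) (mul_pos h1 h2).le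
  linarith

end

/-- Decomposition along the null space of the main part, `L ≥ 3/8`. -/
lemma far_dec4 {e h g : ι → ℝ} (he : dd e e = 1) (hh : dd h h = 1) (hg : dd h g = 0)
    (hgg : dd g g ≤ 1 / 100) {L : ℝ} (hL : 3 / 8 ≤ L) (k m : ℝ) (φ₁ φ₂ : ι → ℝ)
    (hs : φ₁ + φ₂ = e) (hd : φ₁ - φ₂ = (2 * L) • h + (2 : ℝ) • g)
    (U V : ι → ℝ) : ∃ (P X : ι → ℝ) (A t q : ℝ), 0 ≤ q ∧
    U = (P - (dd P e / (2 * L)) • h) + X ∧ V = (P + (dd P e / (2 * L)) • h) - X ∧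
    dd P e ^ 2 ≤ dd P P ∧ t ^ 2 ≤ 64 / 3 * (A ^ 2 + dd P e ^ 2 + q / 100) ∧
    dd X X ≤ 32 / 9 * A ^ 2 + 29 / 100 * q ∧ dd U U + dd V V = 2 * dd P P + (t ^ 2 + q) / 2 ∧
    (dd φ₁ U + dd φ₂ V) ^ 2 + k * (dd (U - V) (U - V) - dd h (U - V) ^ 2) - m * dd h (U - V) ^ 2
      = A ^ 2 + k * q - m * t ^ 2 ∧
    dd (P - (dd P e / (2 * L)) • h) (P - (dd P e / (2 * L)) • h)
      + dd (P + (dd P e / (2 * L)) • h) (P + (dd P e / (2 * L)) • h)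
      ≤ 50 / 9 * dd P P := by
  have hL0 : 0 < L := by linarith
  have hφ1 : φ₁ = (1 / 2 : ℝ) • e + L • h + g := by
    funext i
    have a1 := congrFun hs i
    have a2 := congrFun hd i
    simp only [Pi.add_apply, Pi.sub_apply, Pi.smul_apply, smul_eq_mul] at a1 a2 ⊢
    linarith
  have hφ2 : φ₂ = (1 / 2 : ℝ) • e - L • h - g := by
    funext i
    have a1 := congrFun hs i
    have a2 := congrFun hd i
    simp only [Pi.add_apply, Pi.sub_apply, Pi.smul_apply, smul_eq_mul] at a1 a2 ⊢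
    linarith
  obtain ⟨Q, hQ⟩ : ∃ Q : ι → ℝ, Q = U - V := ⟨_, rfl⟩
  obtain ⟨P, hP⟩ : ∃ P : ι → ℝ, P = (1 / 2 : ℝ) • (U + V) := ⟨_, rfl⟩
  have hU : U = P + (1 / 2 : ℝ) • Q := by
    rw [hQ, hP]; funext i; simp only [Pi.add_apply, Pi.sub_apply, Pi.smul_apply, smul_eq_mul]; ring
  have hV : V = P - (1 / 2 : ℝ) • Q := by
    rw [hQ, hP]; funext i; simp only [Pi.add_apply, Pi.sub_apply, Pi.smul_apply, smul_eq_mul]; ring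
  obtain ⟨t, ht⟩ : ∃ t : ℝ, t = dd h Q := ⟨_, rfl⟩
  obtain ⟨Z, hZ⟩ : ∃ Z : ι → ℝ, Z = Q - t • h := ⟨_, rfl⟩
  have hhZ : dd h Z = 0 := by rw [hZ, dd_sub_right, dd_smul_right, hh, ht]; ring
  have hQZ : Q = t • h + Z := by rw [hZ]; abel
  have hgQ : dd g Q = dd g Z := by
    rw [hQZ, dd_add_right, dd_smul_right, dd_comm g h, hg]; ring
  have hgZ : dd g Z ^ 2 ≤ dd Z Z / 100 := by
    have := dd_cs g Z
    nlinarith [dd_self_nonneg Z]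
  have hA : dd φ₁ U + dd φ₂ V = dd P e + L * t + dd g Z := by
    rw [hφ1, hφ2, hU, hV, ← hgQ, ht]
    simp only [dd_add_left, dd_add_right, dd_sub_left, dd_sub_right, dd_smul_left, dd_smul_right,
      dd_comm e P, dd_comm e Q]
    ring
  have hQQ : dd Q Q = t ^ 2 + dd Z Z := by
    rw [hQZ]
    simp only [dd_add_left, dd_add_right, dd_smul_left, dd_smul_right, dd_comm Z h, hhZ, hh]
    ring
  have f1 : dd P e ^ 2 ≤ dd P P := by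
    have := dd_cs P e; rw [he, mul_one] at this; exact this
  have hL2 : (9 / 64 : ℝ) ≤ L ^ 2 := by nlinarith
  refine ⟨P, ((dd P e + L * t) / (2 * L)) • h + (1 / 2 : ℝ) • Z, dd φ₁ U + dd φ₂ V, t, dd Z Z,
    dd_self_nonneg Z, ?_, ?_, f1, ?_, ?_, ?_, ?_, ?_⟩
  · rw [hU, hQZ]; funext i
    simp only [Pi.add_apply, Pi.sub_apply, Pi.smul_apply, smul_eq_mul]
    field_simp
    ring
  · rw [hV, hQZ]; funext i
    simp only [Pi.add_apply, Pi.sub_apply, Pi.smul_apply, smul_eq_mul]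
    field_simp
    ring
  · rw [hA]
    generalize dd P e = a at *
    generalize dd g Z = b at *
    generalize dd Z Z = q at *
    have e2 : (L * t) ^ 2 ≤ 3 * ((a + L * t + b) ^ 2 + a ^ 2 + b ^ 2) := by
      nlinarith [sq_nonneg ((a + L * t + b) + a), sq_nonneg ((a + L * t + b) + b),
        sq_nonneg (a - b)]
    have e3 : (9 / 64 : ℝ) * t ^ 2 ≤ L ^ 2 * t ^ 2 :=
      mul_le_mul_of_nonneg_right hL2 (sq_nonneg _)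
    nlinarith
  · rw [hA]
    have e0 : ∀ b : ℝ, dd (b • h + (1 / 2 : ℝ) • Z) (b • h + (1 / 2 : ℝ) • Z)
        = b ^ 2 + dd Z Z / 4 := by
      intro b
      simp only [dd_add_left, dd_add_right, dd_smul_left, dd_smul_right, dd_comm Z h, hhZ, hh]
      ring
    rw [e0]
    generalize dd P e = a at *
    generalize dd g Z = b at *
    generalize dd Z Z = q at *
    have e4 : ((a + L * t) / (2 * L)) ^ 2 ≤ 32 / 9 * ((a + L * t + b) ^ 2 + b ^ 2) := by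
      rw [div_pow, div_le_iff₀ (by positivity)]
      have : (a + L * t) ^ 2 ≤ 2 * ((a + L * t + b) ^ 2 + b ^ 2) := by
        nlinarith [sq_nonneg (a + L * t + 2 * b)]
      nlinarith [mul_nonneg (add_nonneg (sq_nonneg (a + L * t + b)) (sq_nonneg b))
        (show (0:ℝ) ≤ 64 / 9 * L ^ 2 - 1 by nlinarith)]
    have hq0 : 0 ≤ q := by nlinarith [sq_nonneg b]
    linarith
  · rw [hU, hV]
    simp only [dd_add_left, dd_add_right, dd_sub_left, dd_sub_right, dd_smul_left, dd_smul_right,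
      dd_comm Q P]
    have := hQQ
    linarith
  · rw [← hQ, ← ht, hQQ]; ring
  · have f6 : dd (P - (dd P e / (2 * L)) • h) (P - (dd P e / (2 * L)) • h)
      + dd (P + (dd P e / (2 * L)) • h) (P + (dd P e / (2 * L)) • h)
        = 2 * dd P P + dd P e ^ 2 / (2 * L ^ 2) := by
      simp only [dd_add_left, dd_add_right, dd_sub_left, dd_sub_right, dd_smul_left, dd_smul_right,
        hh, dd_comm h P]
      field_simp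
      ring
    have f6' : dd P e ^ 2 / (2 * L ^ 2) ≤ 32 / 9 * dd P P := by
      rw [div_le_iff₀ (by positivity)]
      nlinarith [mul_nonneg (dd_self_nonneg P) (show (0:ℝ) ≤ 64 / 9 * L ^ 2 - 1 by nlinarith)]
    rw [f6]; linarith

/-- The final scalar inequality, `L ≥ 3/8`. -/
lemma far_fin4 {δ G k m PP a A t q x : ℝ} (hδ : 0 < δ) (hG : δ ≤ G) (hG1 : 1500 * G ≤ 1)
    (hG2 : 100 * G ≤ k) (hm : 50 * m ≤ δ) (ha : a ^ 2 ≤ PP)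
    (ht : t ^ 2 ≤ 64 / 3 * (A ^ 2 + a ^ 2 + q / 100))
    (hq : 0 ≤ q) (hx : x ≤ 32 / 9 * A ^ 2 + 29 / 100 * q) :
    δ / 16 * (2 * PP + (t ^ 2 + q) / 2) ≤ A ^ 2 + k * q - m * t ^ 2
      + 2 * δ * PP - δ / 8 * (50 / 9 * PP) - 18 * G * x := by
  have hG0 : 0 ≤ G := by linarith
  have hGX : G * x ≤ G * (32 / 9 * A ^ 2 + 29 / 100 * q) := mul_le_mul_of_nonneg_left hx hG0
  have hGA : G * A ^ 2 ≤ 1 / 1500 * A ^ 2 := mul_le_mul_of_nonneg_right (by linarith) (sq_nonneg A)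
  have hGq : G * q ≤ k / 100 * q := mul_le_mul_of_nonneg_right (by linarith) hq
  have hmt : m * t ^ 2 ≤ δ / 50 * t ^ 2 := mul_le_mul_of_nonneg_right (by linarith) (sq_nonneg t)
  have hdq : δ * q ≤ k / 100 * q := mul_le_mul_of_nonneg_right (by linarith) hq
  have hdA : δ * A ^ 2 ≤ 1 / 1500 * A ^ 2 :=
    mul_le_mul_of_nonneg_right (by linarith) (sq_nonneg A)
  have hda : δ * a ^ 2 ≤ δ * PP := mul_le_mul_of_nonneg_left ha hδ.le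
  have hdt : δ * t ^ 2 ≤ δ * (64 / 3 * (A ^ 2 + a ^ 2 + q / 100)) :=
    mul_le_mul_of_nonneg_left ht hδ.le
  have hPP : 0 ≤ PP := (sq_nonneg a).trans ha
  have hdP : 0 ≤ δ * PP := mul_nonneg hδ.le hPP
  have hkq : 0 ≤ k * q := mul_nonneg (by linarith) hq
  have hA2 := sq_nonneg A
  linarith

/-- The certificate with slack, coefficient one, `L ≥ 3/8`. -/
theorem far_cert4' {e h g : ι → ℝ} (he : dd e e = 1) (hh : dd h h = 1) (hg : dd h g = 0)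
    (hgg : dd g g ≤ 1 / 100) {ν₁ ℓ₁ ν₂ ℓ₂ L Λ k m δ : ℝ} (hL : 3 / 8 ≤ L) (hΛ : L ≤ Λ)
    (hδ : 0 < δ) (hδ1 : 1500 * (δ * (4 * Λ + 1) ^ 2) ≤ 1)
    (hδ2 : 100 * (δ * (4 * Λ + 1) ^ 2) ≤ k) (hm : 50 * m ≤ δ)
    (hl1 : 0 ≤ ℓ₁) (hl2 : 0 ≤ ℓ₂) (hl1' : ℓ₁ ≤ 2 * Λ * ν₁) (hl2' : ℓ₂ ≤ 2 * Λ * ν₂)
    (h1 : 0 < ν₁ ^ 2 + ℓ₁ ^ 2 + 2 * dd e h * ν₁ * ℓ₁)
    (h2 : 0 < ν₂ ^ 2 + ℓ₂ ^ 2 - 2 * dd e h * ν₂ * ℓ₂) (φ₁ φ₂ : ι → ℝ)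
    (hs : φ₁ + φ₂ = e) (hd : φ₁ - φ₂ = (2 * L) • h + (2 : ℝ) • g) (U V : ι → ℝ) :
    δ / 16 * (dd U U + dd V V) ≤
      (dd φ₁ U + dd φ₂ V) ^ 2 + k * (dd (U - V) (U - V) - dd h (U - V) ^ 2)
      - m * dd h (U - V) ^ 2
      + TT (f1 e h ν₁ ℓ₁ (4 * Λ * δ) δ) (v1 e h ν₁ ℓ₁) U
      + TT (f2 e h ν₂ ℓ₂ (4 * Λ * δ) δ) (v2 e h ν₂ ℓ₂) V := by
  have hL0 : 0 < L := by linarith
  have hΛ0 : 0 < Λ := by linarith
  obtain ⟨P, X, A, t, q, hq0, hU, hV, g1, g2, g3, g4, g5, g6⟩ :=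
    far_dec4 he hh hg hgg hL k m φ₁ φ₂ hs hd U V
  have hN := null_ge4 he hh P hL hΛ (s := 4 * Λ * δ) rfl hδ.le hl1 hl2 hl1' hl2' h1 h2
  have hsδ : 4 * Λ * δ + δ = (4 * Λ + 1) * δ := by ring
  have c1b := f1_v1_le he hh (s := 4 * Λ * δ) (by positivity) hδ.le h1.ne'
  have c2b := f2_v2_le he hh (s := 4 * Λ * δ) (by positivity) hδ.le h2.ne'
  rw [hsδ] at c1b c2b
  have hτ0 : 0 ≤ (4 * Λ + 1) * δ := by positivity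
  have hη0 : 0 < 1 / (8 * (4 * Λ + 1)) := by positivity
  have b1 := TB_abs_le _ _ (P - (dd P e / (2 * L)) • h) X hτ0 hη0 c1b
  have b2 := TB_abs_le _ _ (P + (dd P e / (2 * L)) • h) X hτ0 hη0 c2b
  have b3 := TT_abs_le _ _ X hτ0 c1b
  have b4 := TT_abs_le _ _ X hτ0 c2b
  have e1 := TT_add (f1 e h ν₁ ℓ₁ (4 * Λ * δ) δ) (v1 e h ν₁ ℓ₁) (P - (dd P e / (2 * L)) • h) X
  have e2 := TT_sub (f2 e h ν₂ ℓ₂ (4 * Λ * δ) δ) (v2 e h ν₂ ℓ₂) (P + (dd P e / (2 * L)) • h) X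
  rw [← hU] at e1
  rw [← hV] at e2
  have hXX := dd_self_nonneg X
  have fin := far_fin4 (PP := dd P P) (a := dd P e) (G := δ * (4 * Λ + 1) ^ 2) hδ
    (G_ge hΛ0 hδ).1 hδ1 hδ2 hm g1 g2 hq0 g3
  rw [g4, g5, e1, e2]
  clear hU hV e1 e2 g4 g5 c1b c2b
  generalize TT (f1 e h ν₁ ℓ₁ (4 * Λ * δ) δ) (v1 e h ν₁ ℓ₁) (P - (dd P e / (2 * L)) • h) = T1 at *
  generalize TT (f2 e h ν₂ ℓ₂ (4 * Λ * δ) δ) (v2 e h ν₂ ℓ₂) (P + (dd P e / (2 * L)) • h) = T2 at *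
  generalize TT (f1 e h ν₁ ℓ₁ (4 * Λ * δ) δ) (v1 e h ν₁ ℓ₁) X = T3 at *
  generalize TT (f2 e h ν₂ ℓ₂ (4 * Λ * δ) δ) (v2 e h ν₂ ℓ₂) X = T4 at *
  generalize TB (f1 e h ν₁ ℓ₁ (4 * Λ * δ) δ) (v1 e h ν₁ ℓ₁) (P - (dd P e / (2 * L)) • h) X = B1 at *
  generalize TB (f2 e h ν₂ ℓ₂ (4 * Λ * δ) δ) (v2 e h ν₂ ℓ₂) (P + (dd P e / (2 * L)) • h) X = B2 at *
  generalize dd (P - (dd P e / (2 * L)) • h) (P - (dd P e / (2 * L)) • h) = n1 at *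
  generalize dd (P + (dd P e / (2 * L)) • h) (P + (dd P e / (2 * L)) • h) = n2 at *
  generalize dd X X = x at *
  generalize dd P P = PP at *
  have k1 : ∀ z : ℝ, (4 * Λ + 1) * δ * (1 / (8 * (4 * Λ + 1)) * z + x / (1 / (8 * (4 * Λ + 1))))
      = δ / 8 * z + 8 * (δ * (4 * Λ + 1) ^ 2) * x := by
    intro z; field_simp
  rw [k1] at b1 b2
  have b1' := (abs_le.1 b1).1
  have b2' := (abs_le.1 b2).2
  have b3' := (abs_le.1 b3).1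
  have b4' := (abs_le.1 b4).1
  have k3 : (4 * Λ + 1) * δ * x ≤ δ * (4 * Λ + 1) ^ 2 * x :=
    mul_le_mul_of_nonneg_right (G_ge hΛ0 hδ).2 hXX
  have k6 : δ / 8 * (n1 + n2) ≤ δ / 8 * (50 / 9 * PP) :=
    mul_le_mul_of_nonneg_left g6 (by positivity)
  linarith

/-- The certificate away from the diagonal, `L ≥ 3/8`: coefficient `κ` in front of the square. -/
theorem far_cert4 {e h g : ι → ℝ} (he : dd e e = 1) (hh : dd h h = 1) (hg : dd h g = 0)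
    (hgg : dd g g ≤ 1 / 100) {ν₁ ℓ₁ ν₂ ℓ₂ L Λ κ k m δ : ℝ} (hL : 3 / 8 ≤ L) (hΛ : L ≤ Λ)
    (hκ : 0 < κ) (hδ : 0 < δ) (hδ1 : 1500 * (δ * (4 * Λ + 1) ^ 2) ≤ κ)
    (hδ2 : 100 * (δ * (4 * Λ + 1) ^ 2) ≤ k) (hm : 50 * m ≤ δ)
    (hl1 : 0 ≤ ℓ₁) (hl2 : 0 ≤ ℓ₂) (hl1' : ℓ₁ ≤ 2 * Λ * ν₁) (hl2' : ℓ₂ ≤ 2 * Λ * ν₂)
    (h1 : 0 < dd (v1 e h ν₁ ℓ₁) (v1 e h ν₁ ℓ₁))
    (h2 : 0 < dd (v2 e h ν₂ ℓ₂) (v2 e h ν₂ ℓ₂)) (φ₁ φ₂ : ι → ℝ)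
    (hs : φ₁ + φ₂ = e) (hd : φ₁ - φ₂ = (2 * L) • h + (2 : ℝ) • g) (U V : ι → ℝ) :
    δ / 16 * (dd U U + dd V V) ≤
      κ * (dd φ₁ U + dd φ₂ V) ^ 2 + k * (dd (U - V) (U - V) - dd h (U - V) ^ 2)
      - m * dd h (U - V) ^ 2
      + TT (fl e (v1 e h ν₁ ℓ₁) ((4 * Λ * δ) • h + δ • e)) (v1 e h ν₁ ℓ₁) U
      + TT (fl e (v2 e h ν₂ ℓ₂) ((-(4 * Λ * δ)) • h + δ • e)) (v2 e h ν₂ ℓ₂) V := by
  have i1 : 1500 * (δ / κ * (4 * Λ + 1) ^ 2) ≤ 1 := by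
    rw [show 1500 * (δ / κ * (4 * Λ + 1) ^ 2) = 1500 * (δ * (4 * Λ + 1) ^ 2) / κ by ring,
      div_le_one hκ]
    exact hδ1
  have i2 : 100 * (δ / κ * (4 * Λ + 1) ^ 2) ≤ k / κ := by
    rw [show 100 * (δ / κ * (4 * Λ + 1) ^ 2) = 100 * (δ * (4 * Λ + 1) ^ 2) / κ by ring]
    exact div_le_div_of_nonneg_right hδ2 hκ.le
  have i3 : 50 * (m / κ) ≤ δ / κ := by
    rw [show 50 * (m / κ) = 50 * m / κ by ring]
    exact div_le_div_of_nonneg_right hm hκ.le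
  have h1' := h1
  have h2' := h2
  rw [dd_v1 he hh] at h1'
  rw [dd_v2 he hh] at h2'
  have key := far_cert4' he hh hg hgg hL hΛ (div_pos hδ hκ) i1 i2 i3 hl1 hl2 hl1' hl2' h1' h2'
    φ₁ φ₂ hs hd U V
  rw [f1_eq_fl he hh, f2_eq_fl he hh] at key
  have s1 : (4 * Λ * (δ / κ)) • h + (δ / κ) • e = κ⁻¹ • ((4 * Λ * δ) • h + δ • e) := by
    funext i
    simp only [Pi.smul_apply, Pi.add_apply, smul_eq_mul]
    field_simp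
  have s2 : (-(4 * Λ * (δ / κ))) • h + (δ / κ) • e = κ⁻¹ • ((-(4 * Λ * δ)) • h + δ • e) := by
    funext i
    simp only [Pi.smul_apply, Pi.add_apply, smul_eq_mul]
    field_simp
  rw [s1, s2, fl_smul, fl_smul, TT_smul_left, TT_smul_left] at key
  have := mul_le_mul_of_nonneg_left key hκ.le
  have c1 : κ * (δ / κ / 16 * (dd U U + dd V V)) = δ / 16 * (dd U U + dd V V) := by
    field_simp
  have c2 : κ * ((dd φ₁ U + dd φ₂ V) ^ 2 + k / κ * (dd (U - V) (U - V) - dd h (U - V) ^ 2)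
      - m / κ * dd h (U - V) ^ 2
      + κ⁻¹ * TT (fl e (v1 e h ν₁ ℓ₁) ((4 * Λ * δ) • h + δ • e)) (v1 e h ν₁ ℓ₁) U
      + κ⁻¹ * TT (fl e (v2 e h ν₂ ℓ₂) ((-(4 * Λ * δ)) • h + δ • e)) (v2 e h ν₂ ℓ₂) V)
      = κ * (dd φ₁ U + dd φ₂ V) ^ 2 + k * (dd (U - V) (U - V) - dd h (U - V) ^ 2)
      - m * dd h (U - V) ^ 2
      + TT (fl e (v1 e h ν₁ ℓ₁) ((4 * Λ * δ) • h + δ • e)) (v1 e h ν₁ ℓ₁) U
      + TT (fl e (v2 e h ν₂ ℓ₂) ((-(4 * Λ * δ)) • h + δ • e)) (v2 e h ν₂ ℓ₂) V := by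
    field_simp
  rw [c1, c2] at this
  exact this

end Vale.Agent.P088.R2.H230.W
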